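import Vale.Agent.P070.Chain

/-! Recursion, counting and bookkeeping. -/

namespace Vale.Agent.P070
open Filter Topology Set Cardinal

lemma exists_rec {I X : Type*} [LinearOrder I] [WellFoundedLT I] [Nonempty X]
    (P : I → (I → X) → X → Prop)
    (hc : ∀ n v v', (∀ k < n, v k = v' k) → ∀ x, P n v x → P n v' x)
    (h : ∀ n v, (∀ k < n, P k v (v k)) → ∃ x, P n v x) : ∃ w : I → X, ∀ n, P n w (w n) := by
  classical
  let x0 : X := Classical.arbitrary X
  let w : I → X := (wellFounded_lt (α := I)).fix fun n g =>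
    Classical.epsilon (P n fun k => if hk : k < n then g k hk else x0)
  have hw : ∀ n, w n = Classical.epsilon (P n fun k => if k < n then w k else x0) := fun n =>
    WellFounded.fix_eq _ _ n
  refine ⟨w, fun n => ?_⟩
  induction n using WellFoundedLT.induction with
  | _ n ih =>
    have h1 := h n (fun k => if k < n then w k else x0) fun k hk => by
      simp only [if_pos hk]
      exact hc k w _ (fun l hl => by simp only [if_pos (hl.trans hk)]) _ (ih k hk)
    rw [hw]
    exact hc n _ w (fun k hk => by simp only [if_pos hk]) _ (Classical.epsilon_spec h1)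

/-- A well order of cardinality above the continuum with small initial segments. -/
structure Long (I : Type) [LinearOrder I] : Prop where
  small : ∀ j : I, #(Iio j) ≤ 𝔠
  big : 𝔠 < #I

lemma exists_long : ∃ (I : Type) (_ : LinearOrder I) (_ : WellFoundedLT I), Long I := by
  refine ⟨(Order.succ 𝔠).ord.ToType, inferInstance, inferInstance, fun j => ?_, ?_⟩
  · have := mk_Iio_lt j (by simp)
    rw [mk_ord_toType] at this
    exact Order.lt_succ_iff.1 this
  · rw [mk_ord_toType]; exact Order.lt_succ _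

namespace Long
variable {I : Type} [LinearOrder I]

lemma bdd (h : Long I) {S : Set I} (hS : S.Countable) : ∃ j, S ⊆ Iio j := by
  by_contra hc
  push Not at hc
  have h1 : (univ : Set I) ⊆ ⋃ x ∈ S, insert x (Iio x) := fun j _ => by
    obtain ⟨x, hx, h2⟩ := not_subset.1 (hc j)
    refine mem_biUnion hx ?_
    rw [Iio_insert]
    exact not_lt.1 h2
  have h2 := (mk_le_mk_of_subset h1).trans (mk_biUnion_le _ _)
  rw [mk_univ] at h2
  have h3 : ⨆ x : S, #(insert x.1 (Iio x.1) : Set I) ≤ 𝔠 := ciSup_le' fun x =>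
    mk_insert_le.trans (add_le_of_le aleph0_le_continuum (h.small _)
      (one_le_aleph0.trans aleph0_le_continuum))
  have h4 : #S * ⨆ x : S, #(insert x.1 (Iio x.1) : Set I) ≤ 𝔠 :=
    (mul_le_mul' (hS.le_aleph0.trans aleph0_le_continuum) h3).trans continuum_mul_self.le
  exact absurd (h2.trans h4) (not_le.2 h.big)

lemma book (h : Long I) : ∃ β : I → Option (I × ℝ), ∀ t j, ∃ i ≥ j, β i = t := by
  have h0 : ℵ₀ ≤ #I := aleph0_le_continuum.trans h.big.le
  have h1 : #(Option (I × ℝ) × I) ≤ #I := by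
    simp only [mk_prod, mk_option, lift_id, mk_real]
    refine mul_le_of_le h0 (add_le_of_le h0 (mul_le_of_le h0 le_rfl h.big.le)
      (one_le_aleph0.trans h0)) le_rfl
  obtain ⟨f⟩ := h1
  have : Nonempty I := by rw [← mk_ne_zero_iff]; exact (aleph0_pos.trans_le h0).ne'
  refine ⟨fun i => (Function.invFun f i).1, fun t j => ?_⟩
  by_contra hc
  push Not at hc
  have h2 : #I ≤ #(Iio j) := by
    refine mk_le_of_injective (f := fun k => ⟨f (t, k), ?_⟩) fun k l hkl => ?_
    · by_contra h3
      exact hc _ (not_lt.1 h3) (by rw [Function.leftInverse_invFun f.injective])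
    · exact (Prod.ext_iff.1 (f.injective (congrArg Subtype.val hkl))).2
  exact absurd (h2.trans (h.small j)) (not_le.2 h.big)

end Long

variable {E : Type} [CStarAlgebra E] {I : Type}

lemma card_alg (a : ℕ → E) (γ : I → E) {S : Set I} (hS : #S ≤ 𝔠) : #(alg a γ S) ≤ 𝔠 := by
  have h1 : #(range a ∪ γ '' S : Set E) ≤ 𝔠 := (mk_union_le _ _).trans
    (add_le_of_le aleph0_le_continuum ((countable_range a).le_aleph0.trans aleph0_le_continuum)
      (mk_image_le.trans hS))
  have h2 : #(StarAlgebra.adjoin ℂ (range a ∪ γ '' S)) ≤ 𝔠 := by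
    have h3 := Algebra.cardinalMk_adjoin_le ℂ ((range a ∪ γ '' S) ∪ star (range a ∪ γ '' S))
    rw [← StarAlgebra.adjoin_toSubalgebra] at h3
    refine h3.trans (max_le (max_le mk_complex.le ?_) aleph0_le_continuum)
    refine (mk_union_le _ _).trans (add_le_of_le aleph0_le_continuum h1 ?_)
    rw [← image_star]
    exact mk_image_le.trans h1
  let f : (ℕ → StarAlgebra.adjoin ℂ (range a ∪ γ '' S)) → E := fun u =>
    limUnder atTop fun n => (u n).1
  have h3 : (alg a γ S : Set E) ⊆ range f := fun x hx => by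
    obtain ⟨u, hu, hl⟩ := mem_closure_iff_seq_limit.1 hx
    exact ⟨fun n => ⟨u n, hu n⟩, hl.limUnder_eq⟩
  refine (mk_le_mk_of_subset h3).trans (mk_range_le.trans ?_)
  rw [mk_arrow]
  simp only [lift_id, mk_nat]
  exact (power_le_power_right h2).trans continuum_power_aleph0.le

/-- An enumeration of the pairs of sequences in a small subalgebra. -/
noncomputable def enum (B : StarSubalgebra ℂ E) : ℝ → Bool → ℕ → E :=
  Classical.epsilon fun f => ∀ W : Bool → ℕ → E, (∀ ε k, W ε k ∈ B) → ∃ r, f r = W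

lemma enum_spec {B : StarSubalgebra ℂ E} (hB : #B ≤ 𝔠) {W : Bool → ℕ → E}
    (hW : ∀ ε k, W ε k ∈ B) : ∃ r, enum B r = W := by
  refine Classical.epsilon_spec (p := fun f : ℝ → Bool → ℕ → E =>
    ∀ W : Bool → ℕ → E, (∀ ε k, W ε k ∈ B) → ∃ r, f r = W) ?_ W hW
  have h1 : #(Bool × ℕ → B) ≤ #ℝ := by
    rw [mk_arrow, mk_real]
    simp only [lift_id, mk_eq_aleph0]
    exact (power_le_power_right hB).trans continuum_power_aleph0.le
  obtain ⟨g⟩ := h1
  refine ⟨fun r ε k => (Function.invFun g r (ε, k)).1, fun W hW =>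
    ⟨g fun p => ⟨W p.1 p.2, hW _ _⟩, ?_⟩⟩
  simp only [Function.leftInverse_invFun g.injective _]

end Vale.Agent.P070
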