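import Vale.Agent.P070.Glue

/-! Towers of gluing steps: peaks of closed subalgebras survive in the whole tower. -/

namespace Vale.Agent.P070
open Filter Topology Set

variable {E : Type*} [CStarAlgebra E] {I : Type}

/-- The closed algebra generated by the base family and the generators indexed by `S`. -/
noncomputable def alg (a : ℕ → E) (γ : I → E) (S : Set I) : StarSubalgebra ℂ E :=
  (StarAlgebra.adjoin ℂ (range a ∪ γ '' S)).topologicalClosure

section
variable {a : ℕ → E} {γ : I → E}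

lemma isClosed_alg (S : Set I) : IsClosed (alg a γ S : Set E) :=
  StarSubalgebra.isClosed_topologicalClosure _

lemma a_mem (S : Set I) (n : ℕ) : a n ∈ alg a γ S :=
  StarSubalgebra.le_topologicalClosure _ (StarAlgebra.subset_adjoin ℂ _ (Or.inl ⟨n, rfl⟩))

lemma γ_mem {S : Set I} {i : I} (h : i ∈ S) : γ i ∈ alg a γ S :=
  StarSubalgebra.le_topologicalClosure _ (StarAlgebra.subset_adjoin ℂ _ (Or.inr ⟨i, h, rfl⟩))

lemma alg_le {S : Set I} {B : StarSubalgebra ℂ E} (hB : IsClosed (B : Set E)) (h1 : ∀ n, a n ∈ B)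
    (h2 : ∀ i ∈ S, γ i ∈ B) : alg a γ S ≤ B := by
  refine StarSubalgebra.topologicalClosure_minimal (StarAlgebra.adjoin_le ?_) hB
  rintro x (⟨n, rfl⟩ | ⟨i, hi, rfl⟩)
  exacts [h1 n, h2 i hi]

lemma alg_mono {S T : Set I} (h : S ⊆ T) : alg a γ S ≤ alg a γ T :=
  alg_le (isClosed_alg T) (a_mem T) fun _ hi => γ_mem (h hi)

lemma alg_congr {γ' : I → E} {S : Set I} (h : ∀ i ∈ S, γ i = γ' i) : alg a γ S = alg a γ' S := by
  rw [alg, alg, image_congr h]

lemma alg_insert (U : Set I) (i : I) : alg a γ (insert i U) = ext (alg a γ U) (γ i) := by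
  refine le_antisymm (alg_le (StarSubalgebra.isClosed_topologicalClosure _)
    (fun n => le_ext _ _ (a_mem U n)) ?_) (StarSubalgebra.topologicalClosure_minimal
      (StarAlgebra.adjoin_le ?_) (isClosed_alg _))
  · rintro j (rfl | hj)
    exacts [self_mem_ext _ _, le_ext _ _ (γ_mem hj)]
  · rintro x (hx | rfl)
    exacts [alg_mono (subset_insert i U) hx, γ_mem (mem_insert i U)]

lemma alg_ind_fin {U : Set I} {Q : Set E} (hQ : IsClosed Q)
    (h : ∀ Φ ⊆ U, Φ.Finite → ∀ x ∈ alg a γ Φ, x ∈ Q) : ∀ x ∈ alg a γ U, x ∈ Q := by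
  intro x hx
  have hx' : x ∈ closure (StarAlgebra.adjoin ℂ (range a ∪ γ '' U) : Set E) := hx
  refine closure_minimal (fun y hy => ?_) hQ hx'
  have : ∃ Φ ⊆ U, Φ.Finite ∧ y ∈ alg a γ Φ := by
    clear hx hx'
    induction hy using StarAlgebra.adjoin_induction with
    | mem x hx =>
      rcases hx with ⟨n, rfl⟩ | ⟨i, hi, rfl⟩
      · exact ⟨∅, empty_subset _, finite_empty, a_mem _ n⟩
      · exact ⟨{i}, singleton_subset_iff.2 hi, finite_singleton i, γ_mem rfl⟩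
    | algebraMap r => exact ⟨∅, empty_subset _, finite_empty, (alg a γ ∅).algebraMap_mem r⟩
    | add x y _ _ hx hy =>
      obtain ⟨Φ, h1, h2, h3⟩ := hx
      obtain ⟨Ψ, h4, h5, h6⟩ := hy
      exact ⟨Φ ∪ Ψ, union_subset h1 h4, h2.union h5,
        add_mem (alg_mono subset_union_left h3) (alg_mono subset_union_right h6)⟩
    | mul x y _ _ hx hy =>
      obtain ⟨Φ, h1, h2, h3⟩ := hx
      obtain ⟨Ψ, h4, h5, h6⟩ := hy
      exact ⟨Φ ∪ Ψ, union_subset h1 h4, h2.union h5,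
        mul_mem (alg_mono subset_union_left h3) (alg_mono subset_union_right h6)⟩
    | star x _ hx =>
      obtain ⟨Φ, h1, h2, h3⟩ := hx
      exact ⟨Φ, h1, h2, star_mem h3⟩
  obtain ⟨Φ, h1, h2, h3⟩ := this
  exact h Φ h1 h2 y h3

lemma exists_countable {U : Set I} {x : E} (hx : x ∈ alg a γ U) :
    ∃ S ⊆ U, S.Countable ∧ x ∈ alg a γ S := by
  refine alg_ind_fin (Q := {x | ∃ S ⊆ U, S.Countable ∧ x ∈ alg a γ S}) ?_
    (fun Φ h1 h2 y hy => ⟨Φ, h1, h2.countable, hy⟩) x hx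
  refine IsSeqClosed.isClosed fun y x hy hl => ?_
  choose S h1 h2 h3 using hy
  exact ⟨⋃ n, S n, iUnion_subset h1, countable_iUnion h2, (isClosed_alg _).mem_of_tendsto hl
    (Eventually.of_forall fun n => alg_mono (subset_iUnion S n) (h3 n))⟩

variable [LinearOrder I]

lemma alg_ind_chain {U S : Set I} {Q : Set E} (hQ : IsClosed Q) (h0 : ∀ x ∈ alg a γ U, x ∈ Q)
    (h : ∀ d ∈ S, ∀ x ∈ alg a γ (U ∪ S ∩ Iic d), x ∈ Q) : ∀ x ∈ alg a γ (U ∪ S), x ∈ Q := by
  refine alg_ind_fin hQ fun Φ h1 h2 x hx => ?_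
  rcases (Φ ∩ S).eq_empty_or_nonempty with h3 | h3
  · refine h0 x (alg_mono (fun i hi => ?_) hx)
    rcases h1 hi with h4 | h4
    · exact h4
    · exact absurd (h3 ▸ (⟨hi, h4⟩ : i ∈ Φ ∩ S)) (notMem_empty i)
  · obtain ⟨d, hd, hmax⟩ := exists_max_image _ id (h2.inter_of_left S) h3
    refine h d hd.2 x (alg_mono (fun i hi => ?_) hx)
    rcases h1 hi with h4 | h4
    · exact Or.inl h4
    · exact Or.inr ⟨h4, hmax i ⟨hi, h4⟩⟩

end

variable [LinearOrder I]

/-- Sets of indices containing the supports of their gluing data. -/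
def Cl (a : ℕ → E) (γ : I → E) (W : I → Bool → ℕ → E) (act : Set I) (U : Set I) : Prop :=
  ∀ i ∈ U, i ∈ act → ∀ ε k, W i ε k ∈ alg a γ (U ∩ Iio i)

/-- A tower of free steps. -/
structure Tower (a : ℕ → E) (γ : I → E) (W : I → Bool → ℕ → E) (act : Set I) : Prop where
  pair : ∀ i ∈ act, Pair (alg a γ (Iio i)) (W i)
  tstep : ∀ U, Cl a γ W act U → ∀ i ∉ U, i ∉ act → TData (alg a γ U) (γ i)
  hstep : ∀ U, Cl a γ W act U → ∀ i ∉ U, i ∈ act → Pair (alg a γ U) (W i) →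
    ∃ P, HData (alg a γ U) (fun ε => bif ε then γ i else star (γ i)) (fun ε => pr (W i ε)) P

variable {a : ℕ → E} {γ : I → E} {W : I → Bool → ℕ → E} {act : Set I}

lemma Cl.union {U S : Set I} (hU : Cl a γ W act U) (hS : Cl a γ W act S) :
    Cl a γ W act (U ∪ S) := by
  rintro i (hi | hi) ha ε k
  · exact alg_mono (inter_subset_inter_left _ subset_union_left) (hU i hi ha ε k)
  · exact alg_mono (inter_subset_inter_left _ subset_union_right) (hS i hi ha ε k)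

lemma Cl.inter_Iio {S : Set I} (hS : Cl a γ W act S) (d : I) : Cl a γ W act (S ∩ Iio d) :=
  fun i hi ha ε k => alg_mono (T := S ∩ Iio d ∩ Iio i)
    (fun _ hj => ⟨⟨hj.1, lt_trans hj.2 hi.2⟩, hj.2⟩) (hS i hi.1 ha ε k)

namespace Tower

lemma cl_univ (h : Tower a γ W act) : Cl a γ W act univ := fun i _ ha ε k => by
  rw [univ_inter]; exact (h.pair i ha).mem ε k

lemma cl_Iio (h : Tower a γ W act) (d : I) : Cl a γ W act (Iio d) := by
  simpa using h.cl_univ.inter_Iio d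

lemma step_peak (h : Tower a γ W act) {U : Set I} (hU : Cl a γ W act U) {i : I}
    (hp : i ∉ U → i ∈ act → Pair (alg a γ U) (W i)) {e : ℕ → E} (he : Peak (alg a γ U) e) :
    Peak (alg a γ (insert i U)) e := by
  by_cases hi : i ∈ U
  · rwa [insert_eq_of_mem hi]
  rw [alg_insert]
  by_cases ha : i ∈ act
  · obtain ⟨P, hP⟩ := h.hstep U hU i hi ha (hp hi ha)
    exact hP.peak_ext he
  · exact (h.tstep U hU i hi ha).peak he

lemma step_eqv (h : Tower a γ W act) {U : Set I} (hU : Cl a γ W act U) {i : I}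
    (hp : i ∉ U → i ∈ act → Pair (alg a γ U) (W i)) {e e' : ℕ → E} (he : Peak (alg a γ U) e)
    (he' : Peak (alg a γ U) e') (hn : ¬ Eqv (alg a γ U) e e')
    (hq : Eqv (alg a γ (insert i U)) e e') : i ∉ U ∧ i ∈ act ∧
      (∃ ε, Eqv (alg a γ U) e (pr (W i ε))) ∧ ∃ ε, Eqv (alg a γ U) e' (pr (W i ε)) := by
  by_cases hi : i ∈ U
  · rw [insert_eq_of_mem hi] at hq; exact absurd hq hn
  rw [alg_insert] at hq
  by_cases ha : i ∈ act
  · obtain ⟨P, hP⟩ := h.hstep U hU i hi ha (hp hi ha)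
    exact ⟨hi, ha, hP.eqv_ext he he' hn hq⟩
  · exact absurd ((h.tstep U hU i hi ha).eqv he he' hq) hn

lemma glued (h : Tower a γ W act) {i : I} (ha : i ∈ act) :
    Eqv (alg a γ (Iic i)) (pr (W i true)) (pr (W i false)) := by
  obtain ⟨P, hP⟩ := h.hstep _ (h.cl_Iio i) i (lt_irrefl i) ha (h.pair i ha)
  rw [← Iio_insert, alg_insert]
  exact hP.eqv_L

omit [CStarAlgebra E] in
lemma insert_eq' {U S : Set I} {d : I} (hd : d ∈ S) :
    U ∪ S ∩ Iic d = insert d (U ∪ S ∩ Iio d) := by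
  ext i
  simp only [mem_union, mem_inter_iff, mem_Iic, mem_insert_iff, mem_Iio, le_iff_lt_or_eq]
  constructor
  · rintro (h | ⟨h1, h2 | h2⟩)
    exacts [Or.inr (Or.inl h), Or.inr (Or.inr ⟨h1, h2⟩), Or.inl h2]
  · rintro (rfl | h | ⟨h1, h2⟩)
    exacts [Or.inr ⟨hd, Or.inr rfl⟩, Or.inl h, Or.inr ⟨h1, Or.inl h2⟩]

lemma peak_lim {U S : Set I} {e : ℕ → E} (he : Peak (alg a γ U) e)
    (h : ∀ d ∈ S, Peak (alg a γ (U ∪ S ∩ Iic d)) e) : Peak (alg a γ (U ∪ S)) e :=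
  ⟨he.toDec, fun n => alg_mono subset_union_left (he.mem n), fun x hx => mem_scS.1 <|
    alg_ind_chain (isClosed_scS he.toDec) (fun y hy => mem_scS.2 (he.sc y hy))
      (fun d hd y hy => mem_scS.2 ((h d hd).sc y hy)) x hx⟩

lemma eqv_lim {U S : Set I} {e e' : ℕ → E} (he : Dec e) (he' : Dec e')
    (h0 : ¬ Eqv (alg a γ U) e e') (h : ∀ d ∈ S, ¬ Eqv (alg a γ (U ∪ S ∩ Iic d)) e e') :
    ¬ Eqv (alg a γ (U ∪ S)) e e' := by
  rintro ⟨v, hv, hn⟩
  refine hn (alg_ind_chain (isClosed_nulS he he') (fun y hy => ?_) (fun d hd y hy => ?_) v hv)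
  · by_contra hc; exact h0 ⟨y, hy, hc⟩
  · by_contra hc; exact h d hd ⟨y, hy, hc⟩

omit [CStarAlgebra E] in
lemma inter_eq' (S : Set I) {d c : I} (hd : d < c) : S ∩ Iio c ∩ Iic d = S ∩ Iic d := by
  ext i
  exact ⟨fun h => ⟨h.1.1, h.2⟩, fun h => ⟨⟨h.1, lt_of_le_of_lt h.2 hd⟩, h.2⟩⟩

variable [WellFoundedLT I]

lemma chain_peak (h : Tower a γ W act) {U S : Set I} (hU : Cl a γ W act U) (hS : Cl a γ W act S)
    (hp : ∀ d ∈ S, d ∉ U → d ∈ act → Pair (alg a γ (U ∪ S ∩ Iio d)) (W d)) {e : ℕ → E}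
    (he : Peak (alg a γ U) e) :
    (∀ c, Peak (alg a γ (U ∪ S ∩ Iio c)) e) ∧ Peak (alg a γ (U ∪ S)) e := by
  have step : ∀ d ∈ S, Peak (alg a γ (U ∪ S ∩ Iio d)) e → Peak (alg a γ (U ∪ S ∩ Iic d)) e := by
    intro d hd h1
    rw [insert_eq' hd]
    exact h.step_peak (hU.union (hS.inter_Iio d))
      (fun h2 => hp d hd fun h3 => h2 (Or.inl h3)) h1
  have key : ∀ c, Peak (alg a γ (U ∪ S ∩ Iio c)) e := by
    intro c
    induction c using WellFoundedLT.induction with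
    | _ c ih =>
      refine peak_lim he fun d hd => ?_
      rw [inter_eq' S hd.2]
      exact step d hd.1 (ih d hd.2)
  exact ⟨key, peak_lim he fun d hd => step d hd (key d)⟩

lemma chain_eqv (h : Tower a γ W act) {U S : Set I} (hU : Cl a γ W act U) (hS : Cl a γ W act S)
    (hp : ∀ d ∈ S, d ∉ U → d ∈ act → Pair (alg a γ (U ∪ S ∩ Iio d)) (W d)) {e e' : ℕ → E}
    (he : Peak (alg a γ U) e) (he' : Peak (alg a γ U) e') (hn : ¬ Eqv (alg a γ U) e e')
    (hb : ∀ d ∈ S, d ∉ U → d ∈ act → ¬ Eqv (alg a γ (U ∪ S ∩ Iio d)) e e' → ∀ ε ε',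
      Eqv (alg a γ (U ∪ S ∩ Iio d)) e (pr (W d ε)) →
      Eqv (alg a γ (U ∪ S ∩ Iio d)) e' (pr (W d ε')) → False) :
    ¬ Eqv (alg a γ (U ∪ S)) e e' := by
  have step : ∀ d ∈ S, ¬ Eqv (alg a γ (U ∪ S ∩ Iio d)) e e' →
      ¬ Eqv (alg a γ (U ∪ S ∩ Iic d)) e e' := by
    intro d hd h1 h2
    rw [insert_eq' hd] at h2
    obtain ⟨h3, h4, ⟨ε, h5⟩, ε', h6⟩ := h.step_eqv (hU.union (hS.inter_Iio d))
      (fun h2 => hp d hd fun h3 => h2 (Or.inl h3)) ((h.chain_peak hU hS hp he).1 d)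
      ((h.chain_peak hU hS hp he').1 d) h1 h2
    exact hb d hd (fun h7 => h3 (Or.inl h7)) h4 h1 ε ε' h5 h6
  have key : ∀ c, ¬ Eqv (alg a γ (U ∪ S ∩ Iio c)) e e' := by
    intro c
    induction c using WellFoundedLT.induction with
    | _ c ih =>
      refine eqv_lim he.toDec he'.toDec hn fun d hd => ?_
      rw [inter_eq' S hd.2]
      exact step d hd.1 (ih d hd.2)
  exact eqv_lim he.toDec he'.toDec hn fun d hd => step d hd (key d)

omit [WellFoundedLT I] in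
lemma pair_end (h : Tower a γ W act) (c : I) {S : Set I} (hS : Cl a γ W act S) :
    ∀ d ∈ S, d ∉ Iio c → d ∈ act → Pair (alg a γ (Iio c ∪ S ∩ Iio d)) (W d) := by
  intro d hd hdc ha
  have hle : alg a γ (Iio c ∪ S ∩ Iio d) ≤ alg a γ (Iio d) := alg_mono <| by
    rintro i (hi | hi)
    exacts [lt_of_lt_of_le hi (not_lt.1 hdc), hi.2]
  have hm : ∀ ε k, W d ε k ∈ alg a γ (Iio c ∪ S ∩ Iio d) := fun ε k =>
    alg_mono subset_union_right (hS d hd ha ε k)
  have hp := h.pair d ha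
  exact ⟨hp.sys, hm, fun ε => (hp.peak ε).anti hle (pr_mem (hm ε)), fun h1 => hp.neq (h1.mono hle)⟩

lemma pair_union (h : Tower a γ W act) {c : I} (ha : c ∈ act) {S : Set I} (hS : Cl a γ W act S)
    (hc : c ∉ S) : Pair (alg a γ (Iio c ∪ S)) (W c) := by
  have hp := h.pair c ha
  have hk := fun ε => h.chain_peak (h.cl_Iio c) hS (h.pair_end c hS) (hp.peak ε)
  refine ⟨hp.sys, fun ε k => alg_mono subset_union_left (hp.mem ε k), fun ε => (hk ε).2,
    h.chain_eqv (h.cl_Iio c) hS (h.pair_end c hS) (hp.peak true) (hp.peak false) hp.neq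
      fun d hd hdc hda hn ε ε' h1 h2 => ?_⟩
  have hq := h.pair_end c hS d hd hdc hda
  by_cases hε : ε = ε'
  · subst hε
    exact hn (Eqv.trans (hq.peak ε) ((hk false).1 d) ((hk true).1 d) h2 h1)
  · have hcd : c < d := lt_of_le_of_ne (not_lt.1 hdc) fun h => hc (h ▸ hd)
    have hle : alg a γ (Iio c ∪ S ∩ Iio d) ≤ alg a γ (Iio d) := alg_mono <| by
      rintro i (hi | hi)
      exacts [lt_trans hi hcd, hi.2]
    have hk' : ∀ ε, Peak (alg a γ (Iio d)) (pr (W c ε)) := fun ε => by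
      have := (h.chain_peak (h.cl_Iio c) h.cl_univ (h.pair_end c h.cl_univ) (hp.peak ε)).1 d
      rwa [univ_inter, union_eq_self_of_subset_left (Iio_subset_Iio hcd.le)] at this
    have hd' := h.pair d hda
    have g1 : Eqv (alg a γ (Iio d)) (pr (W c true)) (pr (W c false)) :=
      (h.glued ha).mono (alg_mono (Iic_subset_Iio.2 hcd))
    have g2 : Eqv (alg a γ (Iio d)) (pr (W d ε)) (pr (W c false)) :=
      Eqv.trans (hk' true) (hk' false) (hd'.peak ε) (g1.symm (hk' _).toDec (hk' _).toDec)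
        ((h1.mono hle).symm (hk' _).toDec (hd'.peak _).toDec)
    have g3 : Eqv (alg a γ (Iio d)) (pr (W d ε')) (pr (W d ε)) :=
      Eqv.trans (hk' false) (hd'.peak ε) (hd'.peak ε') g2
        ((h2.mono hle).symm (hk' _).toDec (hd'.peak _).toDec)
    cases ε <;> cases ε'
    · exact hε rfl
    · exact hd'.neq g3
    · exact hd'.neq (g3.symm (hd'.peak _).toDec (hd'.peak _).toDec)
    · exact hε rfl

theorem peak_univ (h : Tower a γ W act) {S : Set I} (hS : Cl a γ W act S) {e : ℕ → E}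
    (he : Peak (alg a γ S) e) : Peak (alg a γ univ) e := by
  have := (h.chain_peak hS h.cl_univ (fun d _ hd ha => by
    rw [univ_inter, union_comm]
    exact h.pair_union ha hS hd) he).2
  rwa [union_univ] at this

end Tower

end Vale.Agent.P070
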