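import Vale.Agent.P070.Glue

/-! A Fock space model: free unitaries and free isometries acting on reduced words. -/

namespace Vale.Agent.P070
open Filter Topology FreeGroup
open scoped InnerProductSpace Classical

/-- The properties of the model that are used later. -/
structure Fock (α : Type) (σ : Set α) (a : ℕ → α) (H : Type) [NormedAddCommGroup H]
    [InnerProductSpace ℂ H] [CompleteSpace H] where
  Ω : H
  lt : α → H →L[ℂ] H
  Q : α → Bool → H →L[ℂ] H
  R : Set α → Set (H →L[ℂ] H)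
  ρ : ℕ → H →L[ℂ] H
  hΩ : ‖Ω‖ = 1
  iso : ∀ x, star (lt x) * lt x = 1
  uni : ∀ x ∉ σ, lt x * star (lt x) = 1
  mem : ∀ Λ, ∀ x ∈ Λ, lt x ∈ StarSubalgebra.centralizer ℂ (R Λ)
  qsa : ∀ x ε, star (Q x ε) = Q x ε
  free : ∀ Λ, ∀ T ∈ StarSubalgebra.centralizer ℂ (R Λ), ∀ x ∉ Λ, ∀ y ∉ Λ, ∀ ε ε',
    Q x ε * T * Q y ε' = if ε = ε' ∧ x = y then ⟪Ω, T Ω⟫_ℂ • Q x ε else 0
  ql : ∀ x ∈ σ, Q x true * lt x = lt x
  pp : ∀ x, (1 - Q x true) * lt x * (1 - Q x false) = 0
  cyc : ∀ Λ (B : StarSubalgebra ℂ (H →L[ℂ] H)), (∀ x ∈ Λ, lt x ∈ B) → ∀ N : Submodule ℂ H,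
    IsClosed (N : Set H) → (∀ r ∈ R Λ, ∀ b ∈ B, r (b Ω) ∈ N) → ∀ ξ, ξ ∈ N
  ρmem : ∀ Λ i, ρ i ∈ R Λ
  w1 : ∀ η, Tendsto (fun i => ⟪η, star (ρ i) η⟫_ℂ) atTop (𝓝 0)
  w2 : ∀ κ, Tendsto (fun i => ⟪κ, (star (ρ i) * lt (a i)) κ⟫_ℂ) atTop
    (𝓝 (⟪κ, Ω⟫_ℂ * ⟪Ω, κ⟫_ℂ))

variable {α : Type}

/-- All letters of the word lie in `Λ`. -/
def InL (Λ : Set α) (g : FreeGroup α) : Prop := ∀ x ∈ g.toWord, x.1 ∈ Λ

/-- The word does not begin with a letter of `Λ`. -/
def Fr (Λ : Set α) (v : FreeGroup α) : Prop := ∀ x ∈ v.toWord.head?, x.1 ∉ Λ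

lemma InL.mul {Λ : Set α} {g h : FreeGroup α} (hg : InL Λ g) (hh : InL Λ h) : InL Λ (g * h) := by
  intro x hx
  rcases List.mem_append.1 ((toWord_mul_sublist g h).subset hx) with h1 | h1
  exacts [hg x h1, hh x h1]

lemma inL_mk {Λ : Set α} {x : α × Bool} (hx : x.1 ∈ Λ) : InL Λ (mk [x]) := by
  intro y hy
  rw [toWord_mk, reduce_singleton, List.mem_singleton] at hy
  rwa [hy]

lemma of_inv_eq (x : α) : (of x)⁻¹ = mk [(x, false)] := rfl

lemma toWord_append {Λ : Set α} {y v : FreeGroup α} (hy : InL Λ y) (hv : Fr Λ v) :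
    (y * v).toWord = y.toWord ++ v.toWord := by
  rw [toWord_mul]
  refine IsReduced.reduce_eq (List.isChain_append.2 ⟨isReduced_toWord, isReduced_toWord, ?_⟩)
  intro p hp q hq hpq
  exact absurd (hpq ▸ hy p (List.mem_of_mem_getLast? hp)) (hv q hq)

lemma toWord_cons {x : α × Bool} {g : FreeGroup α} (h : g.toWord.head? ≠ some (x.1, !x.2)) :
    (mk [x] * g).toWord = x :: g.toWord := by
  rw [toWord_mul, toWord_mk, reduce_singleton, List.singleton_append]
  refine IsReduced.reduce_eq (List.isChain_cons.2 ⟨fun q hq hpq => ?_, isReduced_toWord⟩)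
  by_contra hne
  refine h (hq.trans ?_)
  congr 1
  refine Prod.ext hpq.symm ?_
  revert hne
  cases q.2 <;> cases x.2 <;> simp

lemma toWord_mk_of_infix {g : FreeGroup α} {l : List (α × Bool)} (h : l <:+: g.toWord) :
    (mk l).toWord = l := by
  obtain ⟨s, t, hst⟩ := h
  have h1 : IsReduced (s ++ l ++ t) := hst ▸ isReduced_toWord
  rw [toWord_mk]
  exact IsReduced.reduce_eq (List.IsChain.right_of_append (List.IsChain.left_of_append h1))

lemma eq_one_of_fr {Λ : Set α} {y v : FreeGroup α} (hy : InL Λ y) (hv : Fr Λ v)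
    (h : Fr Λ (y * v)) : y = 1 := by
  rw [← toWord_eq_nil_iff]
  unfold Fr at h
  rw [toWord_append hy hv] at h
  cases hl : y.toWord with
  | nil => rfl
  | cons x l => exact absurd (hy x (by simp [hl])) (h x (by simp [hl]))

/-- Words in which the letters of `σ` occur only positively. -/
def Wm (σ : Set α) : Submonoid (FreeGroup α) where
  carrier := {g | ∀ x ∈ g.toWord, x.1 ∈ σ → x.2 = true}
  one_mem' := by simp
  mul_mem' := fun {g h} hg hh x hx => by
    rcases List.mem_append.1 ((toWord_mul_sublist g h).subset hx) with h1 | h1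
    exacts [hg x h1, hh x h1]

variable {σ : Set α}

lemma mem_Wm {g : FreeGroup α} : g ∈ Wm σ ↔ ∀ x ∈ g.toWord, x.1 ∈ σ → x.2 = true := Iff.rfl

lemma of_mem_Wm (x : α) : of x ∈ Wm σ := by simp [mem_Wm]

lemma inv_mem_Wm {x : α} (hx : x ∉ σ) : (of x)⁻¹ ∈ Wm σ := by
  rw [of_inv_eq, mem_Wm, toWord_mk, reduce_singleton]
  simpa using hx

lemma mk_mem_Wm {g : Wm σ} {l : List (α × Bool)} (h : l <:+: g.1.toWord) : mk l ∈ Wm σ := by
  rw [mem_Wm, toWord_mk_of_infix h]
  exact fun x hx => g.2 x (h.subset hx)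

lemma decomp (Λ : Set α) (g : Wm σ) : ∃ y v : Wm σ, InL Λ y.1 ∧ Fr Λ v.1 ∧ g = y * v := by
  let p : α × Bool → Bool := fun x => decide (x.1 ∈ Λ)
  have h1 : g.1.toWord.takeWhile p <:+: g.1.toWord := (List.takeWhile_prefix p).isInfix
  have h2 : g.1.toWord.dropWhile p <:+: g.1.toWord := (List.dropWhile_suffix p).isInfix
  refine ⟨⟨_, mk_mem_Wm h1⟩, ⟨_, mk_mem_Wm h2⟩, fun x hx => ?_, fun x hx => ?_, Subtype.ext ?_⟩
  · rw [toWord_mk_of_infix h1] at hx
    simpa [p] using List.mem_takeWhile_imp hx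
  · rw [toWord_mk_of_infix h2] at hx
    have := List.head?_dropWhile_not p g.1.toWord
    rw [Option.mem_def.1 hx] at this
    simpa [p] using this
  · change g.1 = FreeGroup.mk _ * FreeGroup.mk _
    rw [mul_mk, List.takeWhile_append_dropWhile, mk_toWord]

variable {H : Type} [NormedAddCommGroup H] [InnerProductSpace ℂ H] [CompleteSpace H]
  (dl : HilbertBasis (Wm σ) ℂ H)

/-- Left multiplication. -/
noncomputable def lam (w : Wm σ) : H →L[ℂ] H :=
  V dl (fun g => w * g) fun _ _ h => Subtype.ext (mul_left_cancel (congrArg Subtype.val h))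

/-- Right multiplication. -/
noncomputable def rgt (w : Wm σ) : H →L[ℂ] H :=
  V dl (fun g => g * w) fun _ _ h => Subtype.ext (mul_right_cancel (congrArg Subtype.val h))

lemma lam_dl (w g : Wm σ) : lam dl w (dl g) = dl (w * g) := V_dl dl _ g

lemma rgt_dl (w g : Wm σ) : rgt dl w (dl g) = dl (g * w) := V_dl dl _ g

lemma lam_iso (w : Wm σ) : star (lam dl w) * lam dl w = 1 := star_V_mul dl _

lemma rgt_iso (w : Wm σ) : star (rgt dl w) * rgt dl w = 1 := star_V_mul dl _

lemma lam_mul (w w' : Wm σ) : lam dl w * lam dl w' = lam dl (w * w') :=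
  ext_dl dl fun g => by rw [mul_apply_eq_comp, lam_dl, lam_dl, lam_dl, mul_assoc]

lemma lam_one : lam dl 1 = 1 := ext_dl dl fun g => by rw [lam_dl, one_mul]; rfl

lemma lam_rgt (w w' : Wm σ) : rgt dl w' * lam dl w = lam dl w * rgt dl w' :=
  ext_dl dl fun g => by
    rw [mul_apply_eq_comp, mul_apply_eq_comp, lam_dl, rgt_dl, rgt_dl, lam_dl, mul_assoc]

lemma star_lam {w w' : Wm σ} (h : w * w' = 1) : star (lam dl w) = lam dl w' := by
  rw [← mul_one (star (lam dl w)), ← lam_one dl, ← h, ← lam_mul, ← mul_assoc, lam_iso, one_mul]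

lemma star_rgt {w w' : Wm σ} (h : w' * w = 1) : star (rgt dl w) = rgt dl w' := by
  have : rgt dl w * rgt dl w' = 1 := ext_dl dl fun g => by
    rw [mul_apply_eq_comp, rgt_dl, rgt_dl, mul_assoc, h, mul_one]; rfl
  rw [← mul_one (star (rgt dl w)), ← this, ← mul_assoc, rgt_iso, one_mul]

/-- Appending a word to the words with letters in `Λ`. -/
noncomputable def app (Λ : Set α) (v : Wm σ) : H →L[ℂ] H := rgt dl v * proj dl {g | InL Λ g.1}

lemma app_dl {Λ : Set α} (v : Wm σ) {g : Wm σ} (hg : InL Λ g.1) :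
    app dl Λ v (dl g) = dl (g * v) := by
  rw [app, mul_apply_eq_comp, proj_dl_of_mem dl (S := {g | InL Λ g.1}) hg, rgt_dl]

lemma app_dl_not {Λ : Set α} (v : Wm σ) {g : Wm σ} (hg : ¬ InL Λ g.1) :
    app dl Λ v (dl g) = 0 := by
  rw [app, mul_apply_eq_comp, proj_dl_of_not dl (S := {g | InL Λ g.1}) hg, map_zero]

lemma inL_one (Λ : Set α) : InL Λ (1 : Wm σ).1 := by simp [InL]

lemma app_lam {Λ : Set α} {x : α} (hx : x ∈ Λ) (v : Wm σ) :
    app dl Λ v * lam dl ⟨of x, of_mem_Wm x⟩ = lam dl ⟨of x, of_mem_Wm x⟩ * app dl Λ v := by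
  refine ext_dl dl fun g => ?_
  rw [mul_apply_eq_comp, mul_apply_eq_comp, lam_dl]
  by_cases hg : InL Λ g.1
  · rw [app_dl dl v hg, lam_dl, app_dl dl v ((inL_mk (x := (x, true)) hx).mul hg), mul_assoc]
  · rw [app_dl_not dl v hg, map_zero, app_dl_not]
    intro h
    have := (inL_mk (x := (x, false)) hx).mul h
    rw [← of_inv_eq] at this
    exact hg (by simpa using this)

lemma star_app_lam {Λ : Set α} {x : α} (hx : x ∈ Λ) {v : Wm σ} (hv : Fr Λ v.1) :
    star (app dl Λ v) * lam dl ⟨of x, of_mem_Wm x⟩ =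
      lam dl ⟨of x, of_mem_Wm x⟩ * star (app dl Λ v) := by
  refine star_injective ?_
  rw [star_mul, star_mul, star_star]
  refine ext_dl dl fun g => ?_
  set s : Wm σ := ⟨of x, of_mem_Wm x⟩
  by_cases hg : ∃ k, s * k = g
  · obtain ⟨k, rfl⟩ := hg
    rw [← lam_dl, ← mul_apply_eq_comp, ← mul_apply_eq_comp, mul_assoc, mul_assoc, app_lam dl hx,
      ← mul_assoc, lam_iso, one_mul, mul_one]
  · push Not at hg
    have h0 : star (lam dl s) (dl g) = 0 := star_V_dl_of_not dl _ hg
    rw [mul_apply_eq_comp, mul_apply_eq_comp, h0, map_zero]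
    by_cases hi : InL Λ g.1
    · rw [app_dl dl v hi]
      refine star_V_dl_of_not dl _ fun k hk => ?_
      have h1 := (inL_mk (x := (x, false)) hx).mul hi
      rw [← of_inv_eq] at h1
      have h2 : k.1 = (of x)⁻¹ * g.1 * v.1 := by
        have : of x * k.1 = g.1 * v.1 := congrArg Subtype.val hk
        rw [mul_assoc, ← this, inv_mul_cancel_left]
      have h3 : (of x)⁻¹ * g.1 ∈ Wm σ := fun y hy =>
        k.2 y (by rw [h2, toWord_append h1 hv]; exact List.mem_append_left _ hy)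
      exact hg ⟨_, h3⟩ (Subtype.ext (mul_inv_cancel_left _ _))
    · rw [app_dl_not dl v hi, map_zero]

lemma star_app_dl {Λ : Set α} {v v' : Wm σ} (hv : Fr Λ v.1) (hv' : Fr Λ v'.1) :
    star (app dl Λ v) (dl v') = if v = v' then dl 1 else 0 := by
  refine ext_vec dl fun k => ?_
  rw [inner_star_right]
  by_cases hk : k = 1
  · subst hk
    rw [app_dl dl v (inL_one Λ), one_mul, inner_dl]
    split_ifs <;> simp [norm_dl]
  · have h1 : ⟪dl k, if v = v' then dl 1 else 0⟫_ℂ = 0 := by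
      split_ifs <;> simp [inner_dl, hk]
    rw [h1]
    by_cases hi : InL Λ k.1
    · rw [app_dl dl v hi, inner_dl, if_neg]
      rintro rfl
      exact hk (Subtype.ext (eq_one_of_fr hi hv hv'))
    · rw [app_dl_not dl v hi, inner_zero_left]

lemma lam_mem {Λ : Set α} {B : StarSubalgebra ℂ (H →L[ℂ] H)}
    (hB : ∀ x ∈ Λ, lam dl ⟨of x, of_mem_Wm x⟩ ∈ B) (y : Wm σ) (hy : InL Λ y.1) : lam dl y ∈ B := by
  generalize hl : y.1.toWord = l
  induction l generalizing y with
  | nil =>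
    have : y = 1 := Subtype.ext (toWord_eq_nil_iff.1 hl)
    rw [this, lam_one]; exact B.one_mem
  | cons x l ih =>
    have h1 : [x] <:+: y.1.toWord := by rw [hl]; exact (List.prefix_append [x] l).isInfix
    have h2 : l <:+: y.1.toWord := by rw [hl]; exact (List.suffix_cons x l).isInfix
    have h3 : y = ⟨_, mk_mem_Wm h1⟩ * ⟨_, mk_mem_Wm h2⟩ := by
      refine Subtype.ext ?_
      change y.1 = FreeGroup.mk _ * FreeGroup.mk _
      rw [mul_mk, List.singleton_append, ← hl, mk_toWord]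
    have h4 := toWord_mk_of_infix h2
    rw [h3, ← lam_mul]
    refine mul_mem ?_ (ih _ (fun z hz => hy z (h2.subset (h4 ▸ hz))) h4)
    have hx : x ∈ y.1.toWord := by simp [hl]
    obtain ⟨x, ε⟩ := x
    cases ε
    · have := star_mem (hB x (hy _ hx))
      rwa [star_lam dl (w' := ⟨_, mk_mem_Wm h1⟩) (Subtype.ext (mul_inv_cancel (of x)))] at this
    · exact hB x (hy _ hx)

lemma head_lam {x : α} {g : Wm σ} (h : g.1.toWord.head? ≠ some (x, false)) :
    ((⟨of x, of_mem_Wm x⟩ : Wm σ) * g).1.toWord.head? = some (x, true) := by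
  change (mk [(x, true)] * g.1).toWord.head? = _
  rw [toWord_cons h]; rfl

lemma ev_not_mem {a : ℕ → α} (ha : Function.Injective a) (g : FreeGroup α) :
    ∀ᶠ i in atTop, InL {a i}ᶜ g := by
  have h1 : (a ⁻¹' {x | x ∈ g.toWord.map Prod.fst}).Finite :=
    (List.finite_toSet _).preimage ha.injOn
  have := h1.eventually_cofinite_notMem
  rw [Nat.cofinite_eq_atTop] at this
  filter_upwards [this] with i hi x hx hxi
  exact hi (List.mem_map.2 ⟨x, hx, hxi⟩)

lemma conj_eq {x : α} {g k : FreeGroup α} (hg : InL {x}ᶜ g) (hk : InL {x}ᶜ k)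
    (h : g * of x = of x * k) : g = 1 ∧ k = 1 := by
  have h1 : Fr {x}ᶜ (of x) := by simp [Fr]
  have h2 : Fr {x} k := fun y hy => hk y (List.mem_of_mem_head? hy)
  have h3 : Fr {x}ᶜ (of x * k) := by
    unfold Fr
    rw [toWord_append (Λ := {x}) (y := of x) (inL_mk (x := (x, true)) rfl) h2]
    simp
  have h4 := eq_one_of_fr hg h1 (h ▸ h3)
  subst h4
  exact ⟨rfl, by simpa using h⟩

/-- The model. -/
noncomputable def fock {a : ℕ → α} (ha : Function.Injective a) (haσ : ∀ i, a i ∉ σ) :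
    Fock α σ a H where
  Ω := dl 1
  lt x := lam dl ⟨of x, of_mem_Wm x⟩
  Q x ε := proj dl {g | g.1.toWord.head? = some (x, ε)}
  R Λ := {r | ∃ v : Wm σ, Fr Λ v.1 ∧ r = app dl Λ v} ∪
    Set.range fun i => rgt dl ⟨of (a i), of_mem_Wm _⟩
  ρ i := rgt dl ⟨of (a i), of_mem_Wm _⟩
  hΩ := norm_dl dl 1
  iso x := lam_iso dl _
  uni x hx := by
    rw [star_lam dl (w' := ⟨_, inv_mem_Wm hx⟩) (Subtype.ext (mul_inv_cancel (of x))), lam_mul,
      ← lam_one dl]
    congr 1
    exact Subtype.ext (mul_inv_cancel (of x))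
  mem Λ x hx := by
    rw [StarSubalgebra.mem_centralizer_iff]
    rintro r (⟨v, hv, rfl⟩ | ⟨i, rfl⟩)
    · exact ⟨app_lam dl hx v, star_app_lam dl hx hv⟩
    · refine ⟨lam_rgt dl _ _, ?_⟩
      rw [star_rgt dl (w' := ⟨_, inv_mem_Wm (haσ i)⟩) (Subtype.ext (inv_mul_cancel (of (a i))))]
      exact lam_rgt dl _ _
  qsa x ε := star_proj dl _
  free Λ T hT x hx y hy ε ε' := by
    rw [StarSubalgebra.mem_centralizer_iff] at hT
    refine ext_mat dl fun g k => ?_
    rw [mul_apply_eq_comp, mul_apply_eq_comp, inner_proj, proj_dl]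
    by_cases hg : g.1.toWord.head? = some (x, ε)
    · by_cases hk : k.1.toWord.head? = some (y, ε')
      · have fg : Fr Λ g.1 := fun z hz => by rw [hg] at hz; cases hz; exact hx
        have fk : Fr Λ k.1 := fun z hz => by rw [hk] at hz; cases hz; exact hy
        have h1 : ⟪dl g, T (dl k)⟫_ℂ = if g = k then ⟪dl 1, T (dl 1)⟫_ℂ else 0 := by
          have e1 : dl g = app dl Λ g (dl 1) := by rw [app_dl dl g (inL_one Λ), one_mul]
          rw [e1, ← inner_star_right, ← mul_apply_eq_comp, (hT _ (Or.inl ⟨g, fg, rfl⟩)).2,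
            mul_apply_eq_comp, star_app_dl dl fg fk]
          split_ifs <;> simp
        simp only [Set.mem_setOf_eq, hg, hk, if_true, h1]
        by_cases hgk : g = k
        · subst hgk
          rw [hg] at hk
          cases hk
          simp [inner_smul_right, proj_dl, hg, norm_dl]
        · rw [if_neg hgk]
          split_ifs
          · simp [inner_smul_right, inner_proj, inner_dl, hgk]
          · simp
      · simp only [Set.mem_setOf_eq, hg, hk, if_true, if_false, map_zero, inner_zero_right]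
        split_ifs with h
        · obtain ⟨rfl, rfl⟩ := h
          simp [proj_dl, hk]
        · simp
    · simp only [Set.mem_setOf_eq, hg, if_false]
      split_ifs with h
      · simp [inner_smul_right, inner_proj, hg]
      · simp
  ql x hx := ext_dl dl fun g => by
    rw [mul_apply_eq_comp, lam_dl, proj_dl_of_mem]
    refine head_lam fun h => ?_
    have := g.2 _ (List.mem_of_mem_head? h) hx
    simp at this
  pp x := ext_dl dl fun g => by
    rw [mul_apply_eq_comp, mul_apply_eq_comp]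
    by_cases hg : g.1.toWord.head? = some (x, false)
    · simp [proj_dl, hg]
    · have := head_lam hg
      simp only [Submonoid.coe_mul] at this
      simp [proj_dl, hg, lam_dl, this]
  cyc Λ B hB N hN h := dl_ind dl hN fun g => by
    obtain ⟨y, v, hy, hv, rfl⟩ := decomp Λ g
    have := h _ (Or.inl ⟨v, hv, rfl⟩) _ (lam_mem dl hB y hy)
    rwa [lam_dl, mul_one, app_dl dl v hy] at this
  ρmem Λ i := Or.inr ⟨i, rfl⟩
  w1 η := by
    refine weak_of_basis dl (C := 1) (fun i => ?_) (fun g k => ?_) η η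
    · rw [norm_star]; exact norm_le_one_of_iso (rgt_iso dl _)
    · filter_upwards [ev_not_mem ha (g.1⁻¹ * k.1)] with i hi
      rw [inner_star_right, rgt_dl, inner_dl, if_neg]
      rintro rfl
      exact hi (a i, true) (by simp) rfl
  w2 κ := by
    have h1 : ⟪κ, proj dl {1} κ⟫_ℂ = ⟪κ, dl 1⟫_ℂ * ⟪dl 1, κ⟫_ℂ := by
      have : proj dl {1} κ = ⟪dl 1, κ⟫_ℂ • dl 1 := ext_vec dl fun g => by
        rw [inner_proj, inner_smul_right, inner_dl]
        by_cases h : g = 1 <;> simp [h]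
      rw [this, inner_smul_right, mul_comm]
    have h2 := weak_of_basis dl (C := 1 * 1 + 1) (T := fun i =>
      star (rgt dl ⟨of (a i), of_mem_Wm _⟩) * lam dl ⟨of (a i), of_mem_Wm _⟩ - proj dl {1})
      (fun i => ?_) (fun g k => ?_) κ κ
    · rw [← h1]
      have := h2.add_const ⟪κ, proj dl {1} κ⟫_ℂ
      simpa [inner_sub_right] using this
    · refine (norm_sub_le _ _).trans (add_le_add ((_root_.norm_mul_le _ _).trans (mul_le_mul ?_
        (norm_le_one_of_iso (lam_iso dl _)) (norm_nonneg _) zero_le_one)) ?_)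
      · rw [norm_star]; exact norm_le_one_of_iso (rgt_iso dl _)
      · exact norm_le_one_of_proj (star_proj dl _) (by rw [proj_mul, Set.inter_self])
    · filter_upwards [ev_not_mem ha g.1, ev_not_mem ha k.1] with i hg hk
      rw [ContinuousLinearMap.sub_apply, inner_sub_right, mul_apply_eq_comp, inner_star_right,
        rgt_dl, lam_dl, inner_dl, inner_proj, inner_dl, sub_eq_zero]
      split_ifs with h3 h4 h5 h4 h5
      · rfl
      · obtain ⟨h6, h7⟩ := conj_eq hg hk (congrArg Subtype.val h3)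
        exact absurd (Subtype.ext (h6.trans h7.symm)) h5
      · exact absurd (Subtype.ext (conj_eq hg hk (congrArg Subtype.val h3)).1) h4
      · subst h5
        rw [Set.mem_singleton_iff.1 h4] at h3
        simp at h3
      · rfl
      · rfl

lemma exists_fock (σ : Set α) {a : ℕ → α} (ha : Function.Injective a) (haσ : ∀ i, a i ∉ σ) :
    ∃ (H : Type) (_ : NormedAddCommGroup H) (_ : InnerProductSpace ℂ H) (_ : CompleteSpace H),
      Nonempty (Fock α σ a H) :=
  ⟨lp (fun _ : Wm σ => ℂ) 2, _, _, inferInstance, ⟨fock default ha haσ⟩⟩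

end Vale.Agent.P070
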