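import Vale.Agent.P070.Book
import Vale.Agent.P070.Fock

/-! The transfinite construction inside the Fock model. -/

namespace Vale.Agent.P070
open Filter Topology Set
open scoped InnerProductSpace

/-- Letters. -/
abbrev Lt (I : Type) : Type := ℕ ⊕ (I × ℕ) ⊕ I

variable {I : Type}

/-- Gluing letters. -/
def zl (i : I) (k : ℕ) : Lt I := Sum.inr (Sum.inl (i, k))

/-- Isometry letters. -/
def sl (i : I) : Lt I := Sum.inr (Sum.inr i)

variable {H : Type} [NormedAddCommGroup H] [InnerProductSpace ℂ H] [CompleteSpace H]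
  (F : Fock (Lt I) (range sl) Sum.inl H)

/-- The base unitaries. -/
def ba (n : ℕ) : H →L[ℂ] H := F.lt (Sum.inl n)

variable [LinearOrder I]

/-- Specification of the construction. -/
structure Model (γ : I → H →L[ℂ] H) (W : I → Bool → ℕ → H →L[ℂ] H) (act tp : Set I) : Prop where
  pair : ∀ i ∈ act, Pair (alg (ba F) γ (Iio i)) (W i)
  glue : ∀ i ∈ act, ∀ k, γ i * W i false k = W i true k * F.lt (zl i k)
  toep : ∀ i ∈ tp, γ i = F.lt (sl i)
  zero : ∀ i ∉ act, i ∉ tp → γ i = 0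
  disj : ∀ i ∈ tp, i ∉ act
  cof : ∀ j, ∃ i ≥ j, i ∈ tp
  book : ∀ j (W0 : Bool → ℕ → H →L[ℂ] H), (∀ ε k, W0 ε k ∈ alg (ba F) γ (Iio j)) →
    ∃ i ≥ j, Pair (alg (ba F) γ (Iio i)) W0 → i ∈ act ∧ W i = W0

theorem exists_model [WellFoundedLT I] (hI : Long I) : ∃ γ W act tp, Model F γ W act tp := by
  obtain ⟨β, hβ⟩ := hI.book
  let P : I → (I → (H →L[ℂ] H) × (Bool → ℕ → H →L[ℂ] H)) →
      (H →L[ℂ] H) × (Bool → ℕ → H →L[ℂ] H) → Prop := fun i v x =>
    (β i = none → x.1 = F.lt (sl i)) ∧ ∀ j r, β i = some (j, r) →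
      x.2 = enum (alg (ba F) (fun k => (v k).1) (Iio j ∩ Iio i)) r ∧
      (Pair (alg (ba F) (fun k => (v k).1) (Iio i)) x.2 →
        ∀ k, x.1 * x.2 false k = x.2 true k * F.lt (zl i k)) ∧
      (¬ Pair (alg (ba F) (fun k => (v k).1) (Iio i)) x.2 → x.1 = 0)
  obtain ⟨w, hw⟩ := exists_rec P (fun n v v' hv x hx => by
    refine ⟨hx.1, fun j r hjr => ?_⟩
    have h1 : alg (ba F) (fun k => (v k).1) (Iio j ∩ Iio n) =
      alg (ba F) (fun k => (v' k).1) (Iio j ∩ Iio n) := alg_congr fun k hk => by rw [hv k hk.2]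
    have h2 : alg (ba F) (fun k => (v k).1) (Iio n) =
      alg (ba F) (fun k => (v' k).1) (Iio n) := alg_congr fun k hk => by rw [hv k hk]
    rw [← h1, ← h2]
    exact hx.2 j r hjr) (fun n v _ => by
    cases hb : β n with
    | none => exact ⟨(F.lt (sl n), 0), fun _ => rfl, fun j r h => by rw [hb] at h; cases h⟩
    | some t =>
      obtain ⟨j, r⟩ := t
      set W0 := enum (alg (ba F) (fun k => (v k).1) (Iio j ∩ Iio n)) r
      by_cases hp : Pair (alg (ba F) (fun k => (v k).1) (Iio n)) W0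
      · obtain ⟨T, hT⟩ := exists_osum (hp.sys false) (hp.sys true)
          (y := fun k => F.lt (zl n k)) fun k => norm_le_one_of_iso (F.iso _)
        refine ⟨(T, W0), fun h => (by rw [hb] at h; cases h), fun j' r' h => ?_⟩
        rw [hb] at h; cases h
        exact ⟨rfl, fun _ => hT, fun h => absurd hp h⟩
      · refine ⟨(0, W0), fun h => (by rw [hb] at h; cases h), fun j' r' h => ?_⟩
        rw [hb] at h; cases h
        exact ⟨rfl, fun h => absurd h hp, fun _ => rfl⟩)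
  refine ⟨fun k => (w k).1, fun k => (w k).2,
    {i | β i ≠ none ∧ Pair (alg (ba F) (fun k => (w k).1) (Iio i)) (w i).2}, {i | β i = none},
    fun i hi => hi.2, fun i hi => ?_, fun i hi => (hw i).1 hi, fun i hi ht => ?_,
    fun i hi h => h.1 hi, hβ none, fun j W0 hW => ?_⟩
  · obtain ⟨⟨j, r⟩, h⟩ := Option.ne_none_iff_exists'.1 hi.1
    exact ((hw i).2 j r h).2.1 hi.2
  · obtain ⟨⟨j, r⟩, h⟩ := Option.ne_none_iff_exists'.1 ht
    exact ((hw i).2 j r h).2.2 fun hp => hi ⟨ht, hp⟩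
  · obtain ⟨r, hr⟩ := enum_spec (card_alg _ _ (hI.small j)) hW
    obtain ⟨i, hij, hi⟩ := hβ (some (j, r)) j
    have h1 := ((hw i).2 j r hi).1
    rw [inter_eq_self_of_subset_left (Iio_subset_Iio hij), hr] at h1
    exact ⟨i, hij, fun hp => ⟨⟨by rw [hi]; simp, by rw [h1]; exact hp⟩, h1⟩⟩

/-- The letters used by a set of indices. -/
def Lam (act tp U : Set I) : Set (Lt I) :=
  {x | (∃ n, x = Sum.inl n) ∨ (∃ i ∈ U, i ∈ act ∧ ∃ k, x = zl i k) ∨ ∃ i ∈ U, i ∈ tp ∧ x = sl i}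

omit [LinearOrder I] in
lemma zl_not {act tp U : Set I} {i : I} (hi : i ∉ U) (k : ℕ) : zl i k ∉ Lam act tp U := by
  rintro (⟨n, h⟩ | ⟨j, hj, -, l, h⟩ | ⟨j, -, -, h⟩)
  · cases h
  · cases h; exact hi hj
  · cases h

omit [LinearOrder I] in
lemma sl_not {act tp U : Set I} {i : I} (hi : i ∉ U) : sl i ∉ Lam act tp U := by
  rintro (⟨n, h⟩ | ⟨j, -, -, l, h⟩ | ⟨j, hj, -, h⟩)
  · cases h
  · cases h
  · cases h; exact hi hj

omit [LinearOrder I] in
lemma diff_fock {Λ : Set (Lt I)} {B : StarSubalgebra ℂ (H →L[ℂ] H)}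
    (hB : B ≤ StarSubalgebra.centralizer ℂ (F.R Λ)) (ha : ∀ n, ba F n ∈ B) :
    ∀ e, Peak B e → ∀ b ∈ B, Tendsto (fun n => e n (b F.Ω)) atTop (𝓝 0) := fun _ he _ hb =>
  diff_of ha (fun _ => norm_le_one_of_iso (F.iso _))
    (fun i b hb => ((StarSubalgebra.mem_centralizer_iff ℂ).1 (hB hb) _ (F.ρmem Λ i)).1)
    F.w1 F.w2 he hb

omit [LinearOrder I] in
lemma full_fock {Λ : Set (Lt I)} {B : StarSubalgebra ℂ (H →L[ℂ] H)}
    (hB : B ≤ StarSubalgebra.centralizer ℂ (F.R Λ)) (ha : ∀ n, ba F n ∈ B)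
    (hl : ∀ x ∈ Λ, F.lt x ∈ B) {w : ℕ → H →L[ℂ] H} (hw : Peak B (pr w)) : Full w := by
  refine F.cyc Λ B hl (limS (pr w)) (isClosed_limS fun n => (hw.toDec.norm_eq n).le)
    fun r hr b hb => ?_
  have := (r.continuous.tendsto 0).comp (diff_fock F hB ha _ hw b hb)
  rw [map_zero] at this
  refine this.congr fun n => ?_
  change (r * pr w n) _ = (pr w n * r) _
  rw [((StarSubalgebra.mem_centralizer_iff ℂ).1 (hB (hw.mem n)) r hr).1]

omit [LinearOrder I] in
lemma comp_fock {Λ : Set (Lt I)} {i : I} (hi : sl i ∉ Λ) {T : H →L[ℂ] H}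
    (hT : T ∈ StarSubalgebra.centralizer ℂ (F.R Λ)) :
    star (F.lt (sl i)) * T * F.lt (sl i) = ⟪F.Ω, T F.Ω⟫_ℂ • 1 := by
  have h1 := F.ql (sl i) ⟨i, rfl⟩
  have h2 := F.free Λ T hT _ hi _ hi true true
  rw [if_pos ⟨rfl, rfl⟩] at h2
  have h3 : star (F.lt (sl i)) = star (F.lt (sl i)) * F.Q (sl i) true := by
    conv_lhs => rw [← h1, star_mul, F.qsa]
  calc _ = star (F.lt (sl i)) * (F.Q (sl i) true * T * F.Q (sl i) true) * F.lt (sl i) := by
        have : star (F.lt (sl i)) * (F.Q (sl i) true * T * F.Q (sl i) true) * F.lt (sl i) =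
          (star (F.lt (sl i)) * F.Q (sl i) true) * T * (F.Q (sl i) true * F.lt (sl i)) := by
          noncomm_ring
        rw [this, ← h3, h1]
    _ = _ := by rw [h2, mul_smul_comm, smul_mul_assoc, mul_assoc, h1, F.iso]

omit [LinearOrder I] in
lemma orth_fock {i j : I} (hij : i ≠ j) : star (F.lt (sl i)) * F.lt (sl j) = 0 := by
  have h2 := F.free ∅ 1 (one_mem _) (sl i) (notMem_empty _) (sl j) (notMem_empty _) true true
  rw [if_neg (fun h => by cases h.2; exact hij rfl), mul_one] at h2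
  rw [← F.ql (sl i) ⟨i, rfl⟩, ← F.ql (sl j) ⟨j, rfl⟩, star_mul, F.qsa, mul_assoc,
    ← mul_assoc (F.Q _ _), h2, zero_mul, mul_zero]

variable {F} {γ : I → H →L[ℂ] H} {W : I → Bool → ℕ → H →L[ℂ] H} {act tp : Set I}

namespace Model

lemma cl_Iio (h : Model F γ W act tp) (d : I) : Cl (ba F) γ W act (Iio d) :=
  fun i hi ha ε k => by
    rw [inter_eq_self_of_subset_right (Iio_subset_Iio (le_of_lt hi))]
    exact (h.pair i ha).mem ε k

lemma letters (h : Model F γ W act tp) {U : Set I} (hU : Cl (ba F) γ W act U) :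
    ∀ x ∈ Lam act tp U, F.lt x ∈ alg (ba F) γ U := by
  rintro x (⟨n, rfl⟩ | ⟨i, hi, ha, k, rfl⟩ | ⟨i, hi, ht, rfl⟩)
  · exact a_mem U n
  · have h1 : F.lt (zl i k) = star (W i true k) * (γ i * W i false k) := by
      rw [h.glue i ha, ← mul_assoc, ((h.pair i ha).sys true).self, one_mul]
    rw [h1]
    exact mul_mem (star_mem (alg_mono inter_subset_left (hU i hi ha true k)))
      (mul_mem (γ_mem hi) (alg_mono inter_subset_left (hU i hi ha false k)))
  · rw [← h.toep i ht]; exact γ_mem hi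

variable [WellFoundedLT I]

lemma γ_cent (h : Model F γ W act tp) (i : I) : ∀ U, Cl (ba F) γ W act U → i ∈ U →
    γ i ∈ StarSubalgebra.centralizer ℂ (F.R (Lam act tp U)) := by
  induction i using WellFoundedLT.induction with
  | _ i ih =>
    intro U hU hi
    have key : ∀ V, Cl (ba F) γ W act V →
        alg (ba F) γ (V ∩ Iio i) ≤ StarSubalgebra.centralizer ℂ (F.R (Lam act tp V)) :=
      fun V hV => alg_le (Set.isClosed_centralizer _) (fun n => F.mem _ _ (Or.inl ⟨n, rfl⟩))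
        fun j hj => ih j hj.2 V hV hj.1
    by_cases ha : i ∈ act
    · have h1 := key _ (h.cl_Iio i)
      rw [inter_self] at h1
      have h2 := full_fock F h1 (a_mem _) (h.letters (h.cl_Iio i)) ((h.pair i ha).peak false)
      refine h2.mem_centralizer (fun k => key U hU (hU i hi ha false k)) fun k => ?_
      rw [h.glue i ha]
      exact mul_mem (key U hU (hU i hi ha true k)) (F.mem _ _ (Or.inr (Or.inl ⟨i, hi, ha, k, rfl⟩)))
    · by_cases ht : i ∈ tp
      · rw [h.toep i ht]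
        exact F.mem _ _ (Or.inr (Or.inr ⟨i, hi, ht, rfl⟩))
      · rw [h.zero i ha ht]; exact zero_mem _

lemma alg_cent (h : Model F γ W act tp) {U : Set I} (hU : Cl (ba F) γ W act U) :
    alg (ba F) γ U ≤ StarSubalgebra.centralizer ℂ (F.R (Lam act tp U)) :=
  alg_le (Set.isClosed_centralizer _) (fun n => F.mem _ _ (Or.inl ⟨n, rfl⟩))
    fun j hj => h.γ_cent j U hU hj

theorem tower (h : Model F γ W act tp) : Tower (ba F) γ W act where
  pair := h.pair
  tstep U hU i hi ha := by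
    by_cases ht : i ∈ tp
    · rw [h.toep i ht]
      exact tdata_of (F.iso _) (fun b hb => comp_fock F (sl_not hi) (h.alg_cent hU hb))
        (diff_fock F (h.alg_cent hU) (a_mem _))
    · rw [h.zero i ha ht]; exact tdata_zero _
  hstep U hU i hi ha hp := by
    have hz : ∀ k, zl i k ∉ range (sl (I := I)) := by rintro k ⟨j, hj⟩; cases hj
    refine hdata_of F.hΩ hp (Z := fun ε k => bif ε then F.lt (zl i k) else star (F.lt (zl i k)))
      (Q := fun ε k => F.Q (zl i k) ε) ⟨fun ε k => ?_, fun ε k => ?_, fun ε k => F.qsa _ _,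
        fun ε k => ?_, fun b hb ε k ε' l => ?_⟩
      (fun ε => full_fock F (h.alg_cent hU) (a_mem _) (h.letters hU) (hp.peak ε))
      (diff_fock F (h.alg_cent hU) (a_mem _)) (h.glue i ha)
    · cases ε <;> simp
    · cases ε
      · exact F.uni _ (hz k)
      · exact F.iso _
    · cases ε
      · have := congrArg star (F.pp (zl i k))
        simpa [F.qsa, mul_assoc] using this
      · exact F.pp _
    · rw [F.free _ b (h.alg_cent hU hb) _ (zl_not hi k) _ (zl_not hi l)]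
      simp [zl]

theorem pinf (h : Model F γ W act tp) (hI : Long I) {c : H →L[ℂ] H} (hc : c ∈ alg (ba F) γ univ)
    (h0 : c ≠ 0) : ∃ y ∈ alg (ba F) γ univ, star (c * y) * (c * y) = 1 := by
  obtain ⟨S, -, hS, hcS⟩ := exists_countable hc
  obtain ⟨j, hj⟩ := hI.bdd hS
  have hcj := alg_mono hj hcS
  have hM := h.alg_cent (h.cl_Iio j)
  obtain ⟨b, hb, hcb⟩ : ∃ b ∈ alg (ba F) γ (Iio j), c (b F.Ω) ≠ 0 := by
    by_contra hn
    push Not at hn
    refine h0 (ContinuousLinearMap.ext fun ξ => ?_)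
    refine F.cyc _ _ (h.letters (h.cl_Iio j)) c.ker c.isClosed_ker (fun r hr b hb => ?_) ξ
    change (c * r) _ = 0
    rw [← ((StarSubalgebra.mem_centralizer_iff ℂ).1 (hM hcj) r hr).1, mul_apply_eq_comp, hn b hb,
      map_zero]
  obtain ⟨i, hij, hi⟩ := h.cof j
  have hx := mul_mem hcj hb
  have h1 := comp_fock F (sl_not (act := act) (tp := tp) (U := Iio j) (not_lt.2 hij))
    (hM (mul_mem (star_mem hx) hx))
  rw [inner_star_mul] at h1
  have hn : ‖(c * b) F.Ω‖ ≠ 0 := norm_ne_zero_iff.2 hcb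
  refine ⟨((‖(c * b) F.Ω‖⁻¹ : ℝ) : ℂ) • (b * γ i), SMulMemClass.smul_mem _
    (mul_mem (alg_mono (subset_univ _) hb) (γ_mem (mem_univ i))), ?_⟩
  rw [h.toep i hi, mul_smul_comm, star_smul, smul_mul_smul_comm,
    show star (c * (b * F.lt (sl i))) * (c * (b * F.lt (sl i))) =
      star (F.lt (sl i)) * (star (c * b) * (c * b)) * F.lt (sl i) by
        simp only [star_mul, mul_assoc], h1, smul_smul]
  have : star ((‖(c * b) F.Ω‖⁻¹ : ℝ) : ℂ) * ((‖(c * b) F.Ω‖⁻¹ : ℝ) : ℂ) *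
      ((‖(c * b) F.Ω‖ ^ 2 : ℝ) : ℂ) = 1 := by
    rw [Complex.star_def, Complex.conj_ofReal, ← Complex.ofReal_mul, ← Complex.ofReal_mul,
      ← Complex.ofReal_one]
    congr 1
    field_simp
  rw [this, one_smul]

omit [WellFoundedLT I] in
theorem exists_sys (h : Model F γ W act tp) (hI : Long I) :
    ∃ s : ℕ → H →L[ℂ] H, Sys s ∧ ∀ k, s k ∈ alg (ba F) γ univ := by
  have hinf : tp.Infinite := fun hf => by
    obtain ⟨j, hj⟩ := hI.bdd hf.countable
    obtain ⟨i, hij, hi⟩ := h.cof j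
    exact not_lt.2 hij (hj hi)
  let f := hinf.natEmbedding
  refine ⟨fun k => F.lt (sl (f k).1), fun k l => ?_, fun k => ?_⟩
  · split_ifs with hkl
    · subst hkl; exact F.iso _
    · exact orth_fock F fun h => hkl (f.injective (Subtype.ext h))
  · change F.lt (sl (f k).1) ∈ _
    rw [← h.toep _ (f k).2]; exact γ_mem (mem_univ _)

theorem eqv (h : Model F γ W act tp) (hI : Long I) {W0 : Bool → ℕ → H →L[ℂ] H}
    (hs : ∀ ε, Sys (W0 ε)) (hm : ∀ ε k, W0 ε k ∈ alg (ba F) γ univ)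
    (hp : ∀ ε, Peak (alg (ba F) γ univ) (pr (W0 ε))) :
    Eqv (alg (ba F) γ univ) (pr (W0 true)) (pr (W0 false)) := by
  choose S _ hS hW using fun ε k => exists_countable (hm ε k)
  obtain ⟨j, hj⟩ := hI.bdd (countable_iUnion fun ε => countable_iUnion fun k => hS ε k)
  have h1 : ∀ ε k, W0 ε k ∈ alg (ba F) γ (Iio j) := fun ε k =>
    alg_mono (fun x hx => hj (mem_iUnion₂.2 ⟨ε, k, hx⟩)) (hW ε k)
  obtain ⟨i, hij, hi⟩ := h.book j W0 h1
  have h2 : ∀ ε k, W0 ε k ∈ alg (ba F) γ (Iio i) := fun ε k =>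
    alg_mono (Iio_subset_Iio hij) (h1 ε k)
  by_cases he : Eqv (alg (ba F) γ (Iio i)) (pr (W0 true)) (pr (W0 false))
  · exact he.mono (alg_mono (subset_univ _))
  · obtain ⟨ha, rfl⟩ := hi ⟨hs, h2, fun ε => (hp ε).anti (alg_mono (subset_univ _))
      (pr_mem (h2 ε)), he⟩
    exact (h.tower.glued ha).mono (alg_mono (subset_univ _))

end Model

end Vale.Agent.P070
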