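import Vale.Agent.P070.Seq
import Vale.Agent.P070.Rec

/-! The counterexample. -/

namespace Vale.Agent.P070
open Filter Topology Set
open scoped InnerProductSpace

section
variable {E : Type*} [CStarAlgebra E] {I : Type}

lemma exists_gen (a : ℕ → E) (γ : I → E) {S : Set I} (hS : S.Countable) :
    ∃ D : ℕ → E, (∀ n, D n ∈ alg a γ S) ∧ ∀ Q : Submodule ℂ E, IsClosed (Q : Set E) →
      (∀ n, D n ∈ Q) → ∀ x ∈ alg a γ S, x ∈ Q := by
  set G : Set E := range a ∪ γ '' S with hG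
  have h1 : G.Countable := (countable_range a).union (hS.image γ)
  have h2 : (G ∪ star G).Countable := h1.union (by rw [← image_star]; exact h1.image _)
  have := h2.to_subtype
  obtain ⟨f, hf⟩ := exists_surjective_nat (List (G ∪ star G : Set E))
  have hm : ∀ x ∈ G ∪ star G, x ∈ alg a γ S := by
    have h3 : ∀ x ∈ G, x ∈ alg a γ S := by
      rintro x (⟨n, rfl⟩ | ⟨i, hi, rfl⟩)
      exacts [a_mem S n, γ_mem hi]
    rintro x (hx | hx)
    · exact h3 x hx
    · simpa using star_mem (h3 _ hx)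
  refine ⟨fun n => ((f n).map Subtype.val).prod, fun n => list_prod_mem fun x hx => ?_,
    fun Q hQ hD x hx => ?_⟩
  · obtain ⟨y, -, rfl⟩ := List.mem_map.1 hx
    exact hm _ y.2
  · have hx' : x ∈ closure (StarAlgebra.adjoin ℂ G : Set E) := hx
    refine closure_minimal (fun y hy => ?_) hQ hx'
    have h3 : y ∈ Subalgebra.toSubmodule (Algebra.adjoin ℂ (G ∪ star G)) := by
      rw [← StarAlgebra.adjoin_toSubalgebra]; exact hy
    rw [Algebra.adjoin_eq_span] at h3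
    refine Submodule.span_le.2 (fun z hz => ?_) h3
    obtain ⟨l, hl, rfl⟩ := Submonoid.exists_list_of_mem_closure hz
    obtain ⟨n, hn⟩ := hf (l.attachWith _ hl)
    have := hD n
    beta_reduce at this
    rw [hn, List.attachWith_map_subtype_val] at this
    exact this

variable [LinearOrder I] {a : ℕ → E} {γ : I → E} {W : I → Bool → ℕ → E} {act : Set I}

lemma Tower.exists_hull (h : Tower a γ W act) : ∃ hull : Set I → Set I, Monotone hull ∧
    (∀ T, T ⊆ hull T) ∧ (∀ T, T.Countable → (hull T).Countable) ∧ ∀ T, Cl a γ W act (hull T) := by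
  have : ∀ i, ∃ S : Set I, S ⊆ Iio i ∧ S.Countable ∧ (i ∈ act → ∀ ε k, W i ε k ∈ alg a γ S) := by
    intro i
    by_cases hi : i ∈ act
    · choose S h1 h2 h3 using fun ε k => exists_countable ((h.pair i hi).mem ε k)
      exact ⟨⋃ ε, ⋃ k, S ε k, iUnion₂_subset h1,
        countable_iUnion fun ε => countable_iUnion (h2 ε),
        fun _ ε k => alg_mono (subset_iUnion₂ (s := S) ε k) (h3 ε k)⟩
    · exact ⟨∅, empty_subset _, countable_empty, fun h => absurd h hi⟩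
  choose sp h1 h2 h3 using this
  let F : Set I → Set I := fun T => T ∪ ⋃ i ∈ T, sp i
  have hF : Monotone F := fun T T' h => union_subset_union h (biUnion_subset_biUnion_left h)
  refine ⟨fun T => ⋃ n, F^[n] T, fun T T' h => iUnion_mono fun n => hF.iterate n h,
    fun T => subset_iUnion (fun n => F^[n] T) 0, fun T hT => countable_iUnion fun n => ?_,
    fun T i hi ha ε k => alg_mono (subset_inter (fun j hj => ?_) (h1 i)) (h3 i ha ε k)⟩
  · induction n with
    | zero => exact hT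
    | succ n ih =>
      rw [Function.iterate_succ_apply']
      exact ih.union (ih.biUnion fun i _ => h2 i)
  · obtain ⟨n, hn⟩ := mem_iUnion.1 hi
    refine mem_iUnion.2 ⟨n + 1, ?_⟩
    rw [Function.iterate_succ_apply']
    exact Or.inr (mem_biUnion hn hj)

instance (a : ℕ → E) (γ : I → E) (S : Set I) : IsClosed (alg a γ S : Set E) := isClosed_alg S

lemma coe_pr {B : StarSubalgebra ℂ E} [IsClosed (B : Set E)] (w : ℕ → B) (n : ℕ) :
    ((pr w n : B) : E) = pr (fun k => (w k : E)) n := by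
  simp [pr]

lemma sys_coe {B : StarSubalgebra ℂ E} [IsClosed (B : Set E)] {w : ℕ → B} :
    Sys w ↔ Sys fun k => (w k : E) := by
  refine forall₂_congr fun k l => ?_
  rw [Subtype.ext_iff]
  split_ifs <;> rfl

lemma nul_coe {B : StarSubalgebra ℂ E} [IsClosed (B : Set E)] {w w' : ℕ → B} {x : B} :
    Nul (pr w) (pr w') x ↔ Nul (pr fun k => (w k : E)) (pr fun k => (w' k : E)) (x : E) := by
  simp only [Nul, ← coe_pr]
  rfl

theorem Tower.exists_peak [WellFoundedLT I] [Nontrivial E] (h : Tower a γ W act)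
    (h1 : ∀ c ∈ alg a γ univ, c ≠ 0 → ∃ y ∈ alg a γ univ, star (c * y) * (c * y) = 1)
    {s : ℕ → E} (hs : Sys s) (hsm : ∀ k, s k ∈ alg a γ univ)
    {K : Type*} [NormedAddCommGroup K] [InnerProductSpace ℂ K] [CompleteSpace K]
    {π : alg a γ univ →⋆ₐ[ℂ] (K →L[ℂ] K)} (hπ : Irr π) {ξ : K} (hξ : ξ ≠ 0) :
    ∃ w : ℕ → alg a γ univ, Sys w ∧ Peak (alg a γ univ) (pr fun k => (w k : E)) ∧
      ∃ η ≠ 0, ∀ n, π (pr w n) η = η := by
  obtain ⟨hull, hm, hsub, hc, hcl⟩ := h.exists_hull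
  choose sp _ hsp hspm using fun x : alg a γ univ => exists_countable x.2
  let S : ℕ → (ℕ → alg a γ univ) → Set I := fun m v => hull (⋃ k < m, sp (v k))
  have hS : ∀ m v, (S m v).Countable := fun m v =>
    hc _ (countable_iUnion fun k => countable_iUnion fun _ => hsp _)
  have : ∀ T : Set I, ∃ D : ℕ → alg a γ univ, T.Countable → ∀ Q : Submodule ℂ E,
      IsClosed (Q : Set E) → (∀ n, (D n : E) ∈ Q) → ∀ x ∈ alg a γ T, x ∈ Q := by
    intro T
    by_cases hT : T.Countable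
    · obtain ⟨D, h2, h3⟩ := exists_gen a γ hT
      exact ⟨fun n => ⟨D n, alg_mono (subset_univ _) (h2 n)⟩, fun _ => h3⟩
    · exact ⟨0, fun h => absurd h hT⟩
  choose D hD using this
  obtain ⟨w, hw, hη, hap⟩ := hπ.seq (fun c hc => by
      obtain ⟨y, hy, h2⟩ := h1 c c.2 fun h => hc (Subtype.ext h)
      exact ⟨⟨y, hy⟩, Subtype.ext h2⟩) (s := fun k => ⟨s k, hsm k⟩) (sys_coe.2 hs) hξ
    (fun n v => D (S n.unpair.1 v) n.unpair.2.unpair.1) (fun n v v' hv => by
      have : S n.unpair.1 v = S n.unpair.1 v' := by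
        simp only [S]
        congr 1
        exact iUnion₂_congr fun k hk => by rw [hv k (hk.trans_le (Nat.unpair_left_le n))]
      rw [this])
  refine ⟨w, hw, h.peak_univ (S := ⋃ m, S m w) (fun i hi ha ε k => ?_) ?_, hη⟩
  · obtain ⟨m, hm⟩ := mem_iUnion.1 hi
    exact alg_mono (inter_subset_inter_left _ (subset_iUnion (fun m => S m w) m))
      (hcl _ i hm ha ε k)
  have hd := (sys_coe.1 hw).dec
  refine ⟨hd, pr_mem fun k => alg_mono (fun i hi => mem_iUnion.2 ⟨k + 1, hsub _ ?_⟩) (hspm (w k)),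
    fun x hx => mem_scS.1 (alg_ind_fin (isClosed_scS hd) (fun Φ h2 h3 y hy => ?_) x hx)⟩
  · exact mem_iUnion₂.2 ⟨k, Nat.lt_succ_self k, hi⟩
  have hmono : Monotone fun m => S m w := fun m m' hmm =>
    hm (biUnion_subset_biUnion_left (t := fun k => sp (w k)) fun k hk => lt_of_lt_of_le hk hmm)
  obtain ⟨m, h4⟩ := hmono.directed_le.exists_mem_subset_of_finset_subset_biUnion
    (s := h3.toFinset) (by rwa [h3.coe_toFinset])
  rw [h3.coe_toFinset] at h4
  refine hD _ (hS m w) _ (isClosed_scS hd) (fun b => sc_of_approx hd fun ε hε => ?_) y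
    (alg_mono h4 hy)
  have t : Tendsto (fun n : ℕ => ‖ξ‖ / 2 ^ (n + 2)) atTop (𝓝 0) :=
    tendsto_const_nhds.div_atTop ((tendsto_pow_atTop_atTop_of_one_lt one_lt_two).comp
      (tendsto_add_atTop_nat 2))
  obtain ⟨N, hN⟩ := eventually_atTop.1 (t.eventually (ge_mem_nhds hε))
  obtain ⟨c, hc⟩ := hap (Nat.pair m (Nat.pair b N))
  simp only [Nat.unpair_pair] at hc
  refine ⟨c, Nat.pair m (Nat.pair b N) + 1, le_trans ?_ (hc.trans
    (hN _ ((Nat.right_le_pair b N).trans (Nat.right_le_pair _ _))))⟩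
  rw [← coe_pr]
  exact le_rfl

theorem Tower.all_equiv [WellFoundedLT I] [Nontrivial E] (h : Tower a γ W act)
    (h1 : ∀ c ∈ alg a γ univ, c ≠ 0 → ∃ y ∈ alg a γ univ, star (c * y) * (c * y) = 1)
    {s : ℕ → E} (hs : Sys s) (hsm : ∀ k, s k ∈ alg a γ univ)
    (hq : ∀ W0 : Bool → ℕ → E, (∀ ε, Sys (W0 ε)) → (∀ ε k, W0 ε k ∈ alg a γ univ) →
      (∀ ε, Peak (alg a γ univ) (pr (W0 ε))) → Eqv (alg a γ univ) (pr (W0 true)) (pr (W0 false)))
    {K : Type*} [NormedAddCommGroup K] [InnerProductSpace ℂ K] [CompleteSpace K]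
    {K' : Type*} [NormedAddCommGroup K'] [InnerProductSpace ℂ K'] [CompleteSpace K']
    {π : alg a γ univ →⋆ₐ[ℂ] (K →L[ℂ] K)} {π' : alg a γ univ →⋆ₐ[ℂ] (K' →L[ℂ] K')}
    (hπ : Irr π) (hπ' : Irr π') {ξ : K} (hξ : ξ ≠ 0) {ξ' : K'} (hξ' : ξ' ≠ 0) :
    ∃ U : K ≃ₗᵢ[ℂ] K', ∀ a x, U (π a x) = π' a (U x) := by
  obtain ⟨w, hw, hp, η, hη, hf⟩ := h.exists_peak h1 hs hsm hπ hξ
  obtain ⟨w', hw', hp', η', hη', hf'⟩ := h.exists_peak h1 hs hsm hπ' hξ'
  have key : ∀ {w : ℕ → alg a γ univ}, Sys w →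
      Peak (alg a γ univ) (pr fun k => (w k : E)) → Peak ⊤ (pr w) :=
    fun hw hp => ⟨hw.dec, fun _ => trivial, fun b _ => by
      obtain ⟨c, hc⟩ := hp.sc b b.2
      exact ⟨c, nul_coe.2 hc⟩⟩
  obtain ⟨v, hv, hn⟩ := hq (fun ε k => bif ε then (w k : E) else w' k)
    (fun ε => by cases ε; exacts [sys_coe.1 hw', sys_coe.1 hw])
    (fun ε k => by cases ε; exacts [(w' k).2, (w k).2]) (fun ε => by cases ε; exacts [hp', hp])
  obtain ⟨ζ, hζ, hfz⟩ := exists_fixed hw.dec (key hw' hp')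
    ⟨⟨v, hv⟩, trivial, fun h => hn (nul_coe.1 h)⟩ hη' hf'
  exact hπ.equiv hπ' (key hw hp) hη hf hζ hfz

end

section
variable {A : Type*} [CStarAlgebra A] {K : Type*} [NormedAddCommGroup K] [InnerProductSpace ℂ K]
  [CompleteSpace K]

lemma exists_unital (π : A →⋆ₙₐ[ℂ] (K →L[ℂ] K)) (h0 : π ≠ 0)
    (h : ∀ N : Submodule ℂ K, IsClosed (N : Set K) → (∀ a, ∀ ξ ∈ N, π a ξ ∈ N) → N = ⊥ ∨ N = ⊤) :
    ∃ π' : A →⋆ₐ[ℂ] (K →L[ℂ] K), (∀ a, π' a = π a) ∧ Irr π' ∧ ∃ ξ : K, ξ ≠ 0 := by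
  have h1 : π 1 = 1 := by
    rcases h (1 - π 1).ker (1 - π 1).isClosed_ker (fun a ξ hξ => by
      have h2 : ξ - π 1 ξ = 0 := hξ
      change π a ξ - (π 1 * π a) ξ = 0
      rw [← map_mul, one_mul, sub_self]) with h2 | h2
    · refine absurd (NonUnitalStarAlgHom.ext fun a => ContinuousLinearMap.ext fun ξ => ?_) h0
      have : π a ξ ∈ (1 - π 1).ker := by
        change π a ξ - (π 1 * π a) ξ = 0
        rw [← map_mul, one_mul, sub_self]
      rw [h2] at this
      exact this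
    · refine ContinuousLinearMap.ext fun ξ => ?_
      have : ξ ∈ (1 - π 1).ker := by rw [h2]; trivial
      exact (sub_eq_zero.1 this).symm
  refine ⟨{ toFun := π, map_one' := h1, map_mul' := map_mul π, map_zero' := map_zero π
            map_add' := map_add π, map_star' := map_star π
            commutes' := fun c => by
              rw [Algebra.algebraMap_eq_smul_one, Algebra.algebraMap_eq_smul_one, map_smul, h1] },
    fun _ => rfl, h, ?_⟩
  by_contra hc
  push Not at hc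
  exact h0 (NonUnitalStarAlgHom.ext fun a => ContinuousLinearMap.ext fun ξ => hc _)

lemma not_compacts [Nontrivial A] {s : ℕ → A} (hs : Sys s) (φ : A →⋆ₙₐ[ℂ] (K →L[ℂ] K))
    (hi : Function.Injective φ) (hr : range φ = {T : K →L[ℂ] K | IsCompactOperator T}) : False := by
  have h1 : φ 1 = 1 := by
    refine ContinuousLinearMap.ext fun ζ => ?_
    by_cases hζ : ζ = 0
    · simp [hζ]
    have hc : IsCompactOperator
        ((ContinuousLinearMap.toSpanSingleton ℂ ζ).comp (innerSL ℂ ζ)) :=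
      (isCompactOperator_of_locallyCompactSpace_dom (innerSL ℂ ζ)).clm_comp
        (ContinuousLinearMap.toSpanSingleton ℂ ζ)
    obtain ⟨a, ha⟩ : (ContinuousLinearMap.toSpanSingleton ℂ ζ).comp (innerSL ℂ ζ) ∈ range φ := by
      rw [hr]; exact hc
    have h2 : φ 1 (φ a ζ) = φ a ζ := by rw [← mul_apply_eq_comp, ← map_mul, one_mul]
    rw [ha] at h2
    change φ 1 (⟪ζ, ζ⟫_ℂ • ζ) = ⟪ζ, ζ⟫_ℂ • ζ at h2
    rw [map_smul] at h2
    exact smul_right_injective K (inner_self_ne_zero.2 hζ) h2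
  have h2 : IsCompactOperator (φ 1) := by
    have : φ 1 ∈ range φ := ⟨1, rfl⟩
    rwa [hr] at this
  rw [h1] at h2
  have : FiniteDimensional ℂ K := isCompactOperator_id_iff_finiteDimensional.1 h2
  have : IsArtinianRing (K →L[ℂ] K) := IsArtinianRing.of_finite ℂ _
  have h3 : star (φ (s 0)) * φ (s 0) = 1 := by rw [← map_star, ← map_mul, hs.self, h1]
  have h4 : φ (s 1) = φ 0 := by
    rw [← one_mul (φ (s 1)), ← mul_eq_one_comm.1 h3, mul_assoc, ← map_star, ← map_mul, hs 0 1]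
    simp
  have h5 := hs.self 1
  rw [hi h4, mul_zero] at h5
  exact zero_ne_one h5

end

theorem main : ∃ (A : Type) (_ : CStarAlgebra A), Nontrivial A ∧ (∃ s : ℕ → A, Sys s) ∧
    ∀ (K : Type*) [NormedAddCommGroup K] [InnerProductSpace ℂ K] [CompleteSpace K]
      (K' : Type*) [NormedAddCommGroup K'] [InnerProductSpace ℂ K'] [CompleteSpace K']
      (π : A →⋆ₐ[ℂ] (K →L[ℂ] K)) (π' : A →⋆ₐ[ℂ] (K' →L[ℂ] K')), Irr π → Irr π' →
      (∃ ξ : K, ξ ≠ 0) → (∃ ξ : K', ξ ≠ 0) →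
      ∃ U : K ≃ₗᵢ[ℂ] K', ∀ a x, U (π a x) = π' a (U x) := by
  obtain ⟨I, _, _, hI⟩ := exists_long
  obtain ⟨H, _, _, _, ⟨F⟩⟩ := exists_fock (range (sl (I := I))) (a := Sum.inl) Sum.inl_injective
    (by rintro i ⟨j, hj⟩; cases hj)
  obtain ⟨γ, W, act, tp, h⟩ := exists_model F hI
  have : Nontrivial H := ⟨F.Ω, 0, by rw [← norm_ne_zero_iff, F.hΩ]; exact one_ne_zero⟩
  obtain ⟨s, hs, hsm⟩ := h.exists_sys hI
  refine ⟨alg (ba F) γ univ, inferInstance, inferInstance,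
    ⟨fun k => ⟨s k, hsm k⟩, sys_coe.2 hs⟩, ?_⟩
  rintro K _ _ _ K' _ _ _ π π' hπ hπ' ⟨ξ, hξ⟩ ⟨ξ', hξ'⟩
  exact h.tower.all_equiv (fun c hc => h.pinf hI hc) hs hsm (fun _ => h.eqv hI) hπ hπ' hξ hξ'

end Vale.Agent.P070
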