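import Vale.Agent.P070.Sys

/-! The gluing unitary satisfies the hypotheses of the gluing step. -/

namespace Vale.Agent.P070
open Filter Topology
open scoped InnerProductSpace

variable {H : Type*} [NormedAddCommGroup H] [InnerProductSpace ℂ H] [CompleteSpace H]

/-- A pair of inequivalent peaks given by systems. -/
structure Pair {E : Type*} [CStarAlgebra E] (B : StarSubalgebra ℂ E) (W : Bool → ℕ → E) :
    Prop where
  sys : ∀ ε, Sys (W ε)
  mem : ∀ ε k, W ε k ∈ B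
  peak : ∀ ε, Peak B (pr (W ε))
  neq : ¬ Eqv B (pr (W true)) (pr (W false))

/-- Fresh unitaries with their ping-pong projections. -/
structure Fresh (B : StarSubalgebra ℂ (H →L[ℂ] H)) (Ω : H) (Z Q : Bool → ℕ → H →L[ℂ] H) :
    Prop where
  st : ∀ ε k, star (Z ε k) = Z (!ε) k
  uni : ∀ ε k, Z (!ε) k * Z ε k = 1
  qsa : ∀ ε k, star (Q ε k) = Q ε k
  pp : ∀ ε k, (1 - Q ε k) * Z ε k * (1 - Q (!ε) k) = 0
  free : ∀ b ∈ B, ∀ ε k ε' l, Q ε k * b * Q ε' l =
    if ε = ε' ∧ k = l then ⟪Ω, b Ω⟫_ℂ • Q ε k else 0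

theorem hdata_of {B : StarSubalgebra ℂ (H →L[ℂ] H)} {Ω : H} (hΩ : ‖Ω‖ = 1)
    {W Z Q : Bool → ℕ → H →L[ℂ] H} (hW : Pair B W) (hZ : Fresh B Ω Z Q) (hF : ∀ ε, Full (W ε))
    (hdiff : ∀ e, Peak B e → ∀ b ∈ B, Tendsto (fun n => e n (b Ω)) atTop (𝓝 0))
    {u : H →L[ℂ] H} (hu : ∀ k, u * W false k = W true k * Z true k) :
    ∃ P, HData B (fun ε => bif ε then u else star u) (fun ε => pr (W ε)) P := by
  have hΩ1 : ⟪Ω, Ω⟫_ℂ = 1 := by rw [inner_self_eq_norm_sq_to_K, hΩ]; simp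
  have hQQ : ∀ ε k, Q ε k * Q ε k = Q ε k := fun ε k => by
    have := hZ.free 1 B.one_mem ε k ε k
    simpa [hΩ] using this
  have hQn : ∀ ε k, ‖Q ε k‖ ≤ 1 := fun ε k => norm_le_one_of_proj (hZ.qsa ε k) (hQQ ε k)
  choose P hP using fun ε => exists_osum (hW.sys ε) (hW.sys ε) (hQn ε)
  set U : Bool → H →L[ℂ] H := fun ε => bif ε then u else star u with hUdef
  have hst : ∀ ε, star (U ε) = U (!ε) := by intro ε; cases ε <;> simp [U]
  have hU : ∀ ε k, U ε * W (!ε) k = W ε k * Z ε k := by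
    intro ε k
    cases ε
    · refine (hF false).ext' fun m => ?_
      change star (W false m) * (star u * W true k) = _
      rw [← mul_assoc, ← star_mul, hu, star_mul, mul_assoc, hW.sys true, ← mul_assoc,
        hW.sys false, hZ.st]
      split_ifs with h
      · subst h; simp
      · simp
    · exact hu k
  have hU' : ∀ ε k, U (!ε) * W ε k = W (!ε) k * Z (!ε) k := fun ε k => by
    simpa using hU (!ε) k
  have hZ' : ∀ ε k, Z ε k * Z (!ε) k = 1 := fun ε k => by simpa using hZ.uni (!ε) k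
  have huni : ∀ ε, U (!ε) * U ε = 1 := fun ε => (hF (!ε)).ext fun k => by
    rw [mul_assoc, hU, ← mul_assoc, hU', mul_assoc, hZ.uni, mul_one, one_mul]
  have hpsa : ∀ ε, star (P ε) = P ε := fun ε => (hF ε).ext fun k => (hF ε).ext' fun m => by
    rw [← mul_assoc, ← star_mul, hP, hP, star_mul, mul_assoc, hW.sys ε, ← mul_assoc, hW.sys ε,
      hZ.qsa]
    split_ifs with h
    · subst h; simp
    · simp
  have hP' : ∀ ε k, star (W ε k) * P ε = Q ε k * star (W ε k) := fun ε k => by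
    have := congrArg star (hP ε k)
    rwa [star_mul, star_mul, hpsa, hZ.qsa] at this
  have hPP : ∀ ε, P ε * P ε = P ε := fun ε => (hF ε).ext fun k => by
    rw [mul_assoc, hP, ← mul_assoc, hP, mul_assoc, hQQ]
  have mat : ∀ ε ε' b, b ∈ B → (∀ k, ε = ε' → ⟪Ω, (star (W ε k) * b * W ε k) Ω⟫_ℂ = 0) →
      P ε * b * P ε' = 0 := by
    intro ε ε' b hb h0
    refine (hF ε').ext fun k => (hF ε).ext' fun m => ?_
    have e1 : star (W ε m) * (P ε * b * P ε' * W ε' k) =
        (star (W ε m) * P ε) * b * (P ε' * W ε' k) := by noncomm_ring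
    have e2 : Q ε m * star (W ε m) * b * (W ε' k * Q ε' k) =
        Q ε m * (star (W ε m) * b * W ε' k) * Q ε' k := by noncomm_ring
    rw [e1, hP, hP', e2, hZ.free _ (mul_mem (mul_mem (star_mem (hW.mem _ _)) hb) (hW.mem _ _))]
    split_ifs with h
    · obtain ⟨rfl, rfl⟩ := h
      rw [h0 _ rfl]; simp
    · simp
  have hUn : ∀ ε, ‖U ε‖ ≤ 1 := fun ε => norm_le_one_of_iso (by rw [hst, huni])
  refine ⟨P, hW.peak, hW.neq, hst, huni, fun ε m => (hF (!ε)).ext fun k => ?_, hpsa,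
    fun ε => norm_le_one_of_proj (by simp [hpsa]) (by simp [mul_sub, sub_mul, hPP]),
    fun ε => (hF (!ε)).ext fun k => ?_, fun ε b hb => mat _ _ b hb fun _ h => by simp at h,
    fun ε b hb δ hδ => ?_, fun ε e he b hb m => ?_⟩
  · rw [mul_assoc, mul_assoc, (hW.sys _).pr_mul, hU, ← mul_assoc, (hW.sys _).pr_mul]
    split_ifs
    · simp
    · exact hU ε k
  · have e1 : (1 - P (!ε)) * W (!ε) k = W (!ε) k * (1 - Q (!ε) k) := by
      rw [sub_mul, mul_sub, hP]; simp
    have e2 : (1 - P ε) * W ε k = W ε k * (1 - Q ε k) := by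
      rw [sub_mul, mul_sub, hP]; simp
    calc (1 - P ε) * U ε * (1 - P (!ε)) * W (!ε) k
        = (1 - P ε) * (U ε * W (!ε) k) * (1 - Q (!ε) k) := by
          rw [mul_assoc _ (1 - P (!ε)), e1]; noncomm_ring
      _ = W ε k * ((1 - Q ε k) * Z ε k * (1 - Q (!ε) k)) := by
          rw [hU, ← mul_assoc (1 - P ε), e2]; noncomm_ring
      _ = 0 * W (!ε) k := by rw [hZ.pp]; simp
  · obtain ⟨c, hc⟩ := (hW.peak ε).sc b hb
    obtain ⟨m, hm⟩ := (nul_iff.1 hc δ hδ).exists
    set r := pr (W ε) m * (b - c • 1) * pr (W ε) m with hr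
    have hrB : r ∈ B := mul_mem (mul_mem (pr_mem (hW.mem ε) m)
      (sub_mem hb (SMulMemClass.smul_mem c B.one_mem))) (pr_mem (hW.mem ε) m)
    let μ : ℕ → ℂ := fun k => ⟪Ω, (star (W ε k) * (b - c • 1) * W ε k) Ω⟫_ℂ
    let d : Bool → H →L[ℂ] H := fun a =>
      c • 1 + ∑ k ∈ Finset.range m, μ k • (W a k * star (W a k))
    have hd : ∀ a, d a ∈ B := fun a => add_mem (SMulMemClass.smul_mem c B.one_mem)
      (sum_mem fun k _ => SMulMemClass.smul_mem _ (mul_mem (hW.mem _ _) (star_mem (hW.mem _ _))))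
    have hdW : ∀ a k, d a * W a k = (c + if k < m then μ k else 0) • W a k := by
      intro a k
      simp only [d, add_mul, smul_mul_assoc, one_mul, Finset.sum_mul, mul_assoc, hW.sys a _ k,
        mul_ite, mul_one, mul_zero, smul_ite, smul_zero, Finset.sum_ite_eq', Finset.mem_range,
        add_smul, ite_smul, zero_smul]
    refine ⟨b - r - d ε, sub_mem (sub_mem hb hrB) (hd ε), d (!ε), hd _,
      mat _ _ _ (sub_mem (sub_mem hb hrB) (hd ε)) fun k _ => ?_, ?_⟩
    · have e1 : star (W ε k) * (b - r - d ε) * W ε k = star (W ε k) * (b - c • 1) * W ε k -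
          (star (W ε k) * pr (W ε) m) * (b - c • 1) * (pr (W ε) m * W ε k) -
          (if k < m then μ k else 0) • 1 := by
        have : star (W ε k) * d ε * W ε k = c • 1 + (if k < m then μ k else 0) • 1 := by
          rw [mul_assoc, hdW, mul_smul_comm, (hW.sys ε).self, add_smul]
        have h2 : star (W ε k) * (c • (1 : H →L[ℂ] H)) * W ε k = c • 1 := by
          rw [mul_smul_comm, mul_one, smul_mul_assoc, (hW.sys ε).self]
        rw [mul_sub, sub_mul, this, mul_sub (star (W ε k)) b (c • 1), sub_mul, h2, hr]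
        noncomm_ring
      rw [e1, (hW.sys ε).pr_mul, (hW.sys ε).mul_pr]
      split_ifs
      · simp [μ, inner_sub_right, inner_smul_right, hΩ]
      · simp
    · have e1 : U (!ε) * d ε = d (!ε) * U (!ε) := (hF ε).ext fun k => by
        rw [mul_assoc, hdW, mul_assoc, hU', ← mul_assoc, hdW, mul_smul_comm, hU', smul_mul_assoc]
      have e2 : U (!ε) * (b - (b - r - d ε)) * U ε - d (!ε) = U (!ε) * r * U ε := by
        have : U (!ε) * d ε * U ε = d (!ε) := by rw [e1, mul_assoc, huni, mul_one]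
        rw [← this]; noncomm_ring
      rw [e2]
      have := norm_mul3_le (hUn (!ε)) hm (hUn ε)
      linarith
  · have e1 : ∀ n, e n * b * (1 - pr (W ε) m) * P ε =
        ∑ k ∈ Finset.range m, e n * (b * W ε k) * Q ε k * star (W ε k) := by
      intro n
      rw [pr, sub_sub_cancel, Finset.mul_sum, Finset.sum_mul]
      refine Finset.sum_congr rfl fun k _ => ?_
      rw [mul_assoc (e n * b), mul_assoc (W ε k), hP']; noncomm_ring
    have t : Tendsto (fun n => ∑ k ∈ Finset.range m, ‖e n ((b * W ε k) Ω)‖) atTop (𝓝 0) := by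
      have := tendsto_finset_sum (Finset.range m) fun k _ =>
        tendsto_zero_iff_norm_tendsto_zero.1 (hdiff e he _ (mul_mem hb (hW.mem ε k)))
      simpa using this
    refine squeeze_zero (fun _ => norm_nonneg _) (fun n => ?_) t
    rw [e1]
    refine (norm_sum_le _ _).trans (Finset.sum_le_sum fun k _ => ?_)
    have hx := mul_mem (he.mem n) (mul_mem hb (hW.mem ε k))
    have h1 : ‖e n * (b * W ε k) * Q ε k‖ ≤ ‖(e n * (b * W ε k)) Ω‖ := by
      refine norm_mul_le_of_comp (by rw [hZ.qsa, hQQ]; exact hQn ε k) ?_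
      rw [hZ.qsa, hQQ, hZ.free _ (mul_mem (star_mem hx) hx), if_pos ⟨rfl, rfl⟩]
    have h2 : ‖star (W ε k)‖ ≤ 1 := by rw [norm_star]; exact norm_le_one_of_iso ((hW.sys ε).self k)
    refine (norm_mul_le _ _).trans ?_
    have := mul_le_mul h1 h2 (norm_nonneg _) (norm_nonneg _)
    rw [mul_one] at this
    exact this

/-- A peak kills the orbit of the vacuum when the vacuum state is diffuse. -/
theorem diff_of {B : StarSubalgebra ℂ (H →L[ℂ] H)} {Ω : H} {a ρ : ℕ → H →L[ℂ] H}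
    (ha : ∀ i, a i ∈ B) (han : ∀ i, ‖a i‖ ≤ 1) (hρ : ∀ i, ∀ b ∈ B, ρ i * b = b * ρ i)
    (h1 : ∀ η, Tendsto (fun i => ⟪η, star (ρ i) η⟫_ℂ) atTop (𝓝 0))
    (h2 : ∀ κ, Tendsto (fun i => ⟪κ, (star (ρ i) * a i) κ⟫_ℂ) atTop (𝓝 (⟪κ, Ω⟫_ℂ * ⟪Ω, κ⟫_ℂ)))
    {e : ℕ → H →L[ℂ] H} (he : Peak B e) {b : H →L[ℂ] H} (hb : b ∈ B) :
    Tendsto (fun n => e n (b Ω)) atTop (𝓝 0) := by
  obtain ⟨η, hη, hfix⟩ := exists_lim he.sa he.mul (b Ω)
  suffices η = 0 by rwa [this] at hη
  have key : ∀ x ∈ B, ∀ i, ‖⟪ρ i η, x η⟫_ℂ‖ ≤ ‖x‖ * ‖⟪ρ i η, η⟫_ℂ‖ := by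
    intro x hx i
    obtain ⟨c, hc⟩ := he.sc x hx
    have hcn : ‖c‖ ≤ ‖x‖ := (hc.norm_le he.toDec 0).trans (he.toDec.two_le he.toDec 0 0 x)
    have hfix' : ∀ n, e n (ρ i η) = ρ i η := fun n => by
      rw [← ContinuousLinearMap.mul_apply, ← hρ i _ (he.mem n), ContinuousLinearMap.mul_apply, hfix]
    have h3 : ∀ n, ⟪ρ i η, (x - c • 1) η⟫_ℂ = ⟪ρ i η, (e n * (x - c • 1) * e n) η⟫_ℂ := by
      intro n
      rw [ContinuousLinearMap.mul_apply, ContinuousLinearMap.mul_apply, hfix, ← he.sa n,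
        inner_star_right, hfix']
    have h4 : ‖⟪ρ i η, (x - c • 1) η⟫_ℂ‖ ≤ 0 := by
      have t := (hc.mul_const ‖η‖).const_mul ‖ρ i η‖
      simp only [zero_mul, mul_zero] at t
      refine ge_of_tendsto' t fun n => ?_
      rw [h3 n]
      exact (norm_inner_le_norm _ _).trans (by gcongr; exact ContinuousLinearMap.le_opNorm _ _)
    have h5 : ⟪ρ i η, x η⟫_ℂ = c * ⟪ρ i η, η⟫_ℂ := by
      have := norm_le_zero_iff.1 h4
      simpa [inner_sub_right, inner_smul_right, sub_eq_zero] using this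
    rw [h5, norm_mul]
    gcongr
  have t1 : Tendsto (fun i => ⟪star b η, (star (ρ i) * a i) (star b η)⟫_ℂ) atTop (𝓝 0) := by
    rw [tendsto_zero_iff_norm_tendsto_zero]
    have t := (tendsto_zero_iff_norm_tendsto_zero.1 (h1 η)).const_mul (‖b‖ * 1 * ‖star b‖)
    rw [mul_zero] at t
    refine squeeze_zero (fun _ => norm_nonneg _) (fun i => ?_) t
    have e1 : ⟪star b η, (star (ρ i) * a i) (star b η)⟫_ℂ = ⟪ρ i η, (b * a i * star b) η⟫_ℂ := by
      rw [ContinuousLinearMap.mul_apply, inner_star_right, ← ContinuousLinearMap.mul_apply,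
        hρ i _ (star_mem hb), ContinuousLinearMap.mul_apply, inner_star_left]
      rfl
    rw [e1, inner_star_right]
    refine (key _ (mul_mem (mul_mem hb (ha i)) (star_mem hb)) i).trans ?_
    gcongr
    exact norm_mul3_le le_rfl (han i) le_rfl
  have h6 := tendsto_nhds_unique (h2 (star b η)) t1
  have h7 : ⟪b Ω, η⟫_ℂ = 0 := by
    rw [← inner_star_right]
    rcases mul_eq_zero.1 h6 with h | h
    · exact inner_eq_zero_symm.1 h
    · exact h
  have h8 : Tendsto (fun n => ⟪e n (b Ω), η⟫_ℂ) atTop (𝓝 ⟪η, η⟫_ℂ) := hη.inner tendsto_const_nhds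
  have h9 : ∀ n, ⟪e n (b Ω), η⟫_ℂ = 0 := fun n => by
    rw [← inner_star_right, he.sa, hfix, h7]
  simp only [h9] at h8
  exact inner_self_eq_zero.1 (tendsto_nhds_unique h8 tendsto_const_nhds |>.symm).symm

end Vale.Agent.P070
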