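import Vale.Agent.P070.Words

/-! The gluing step: a unitary carrying one peak to another, free otherwise. -/

namespace Vale.Agent.P070
open Filter Topology

variable {E : Type*} [CStarAlgebra E]

/-- Hypotheses of the gluing step. `L false` is carried to `L true` by `U true`. -/
structure HData (B : StarSubalgebra ℂ E) (U : Bool → E) (L : Bool → ℕ → E) (P : Bool → E) :
    Prop where
  peak : ∀ ε, Peak B (L ε)
  neq : ¬ Eqv B (L true) (L false)
  st : ∀ ε, star (U ε) = U (!ε)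
  uni : ∀ ε, U (!ε) * U ε = 1
  inter : ∀ ε m, U ε * L (!ε) m = L ε m * U ε
  psa : ∀ ε, star (P ε) = P ε
  pn : ∀ ε, ‖1 - P ε‖ ≤ 1
  pp : ∀ ε, (1 - P ε) * U ε * (1 - P (!ε)) = 0
  orth : ∀ ε, ∀ b ∈ B, P (!ε) * b * P ε = 0
  red : ∀ ε, ∀ b ∈ B, ∀ δ > 0, ∃ b' ∈ B, ∃ c ∈ B, P ε * b' * P ε = 0 ∧
    ‖U (!ε) * (b - b') * U ε - c‖ ≤ δ
  small : ∀ ε e, Peak B e → ∀ b ∈ B, ∀ m,
    Tendsto (fun n => ‖e n * b * (1 - L ε m) * P ε‖) atTop (𝓝 0)

/-- Words beginning and ending with a letter. -/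
inductive In (B : StarSubalgebra ℂ E) (U : Bool → E) : ℕ → Bool → Bool → E → Prop
  | one (ε : Bool) : In B U 0 ε ε (U ε)
  | step {k : ℕ} {ε' ε'' : Bool} {b w : E} (ε : Bool) : b ∈ B → In B U k ε' ε'' w →
      In B U (k + 1) ε ε'' (U ε * b * w)

section
variable {B : StarSubalgebra ℂ E} {U : Bool → E}

lemma In.wd {k ε ε' w} (h : In B U k ε ε' w) : Wd B U (k + 1) w := by
  induction h with
  | one ε => exact Wd.letter ε
  | step ε hb _ ih => rw [mul_assoc]; exact (ih.mul_left hb).cons ε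

lemma In.left {k ε ε' w} (h : In B U k ε ε' w) : ∃ y, Wd B U k y ∧ w = U ε * y := by
  cases h with
  | one ε => exact ⟨1, Wd.base B.one_mem, by simp⟩
  | step ε hb h => exact ⟨_, h.wd.mul_left hb, mul_assoc _ _ _⟩

lemma In.right {k ε ε' w} (h : In B U k ε ε' w) : ∃ y, Wd B U k y ∧ w = y * U ε' := by
  induction h with
  | one ε => exact ⟨1, Wd.base B.one_mem, by simp⟩
  | step ε hb _ ih =>
    obtain ⟨y, hy, rfl⟩ := ih
    exact ⟨_, (hy.mul_left hb).cons ε, by noncomm_ring⟩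

lemma Wd.split {k x} (h : Wd B U (k + 1) x) :
    ∃ b ∈ B, ∃ b' ∈ B, ∃ ε ε' w, In B U k ε ε' w ∧ x = b * w * b' := by
  induction k generalizing x with
  | zero =>
    cases h with
    | step ε hb hy =>
      cases hy with
      | base hy => exact ⟨_, hb, _, hy, ε, ε, _, In.one ε, rfl⟩
  | succ k ih =>
    cases h with
    | step ε hb hy =>
      obtain ⟨b1, h1, b2, h2, ε1, ε2, w, hw, rfl⟩ := ih hy
      exact ⟨_, hb, _, h2, ε, ε2, _, In.step ε h1 hw, by noncomm_ring⟩

end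

/-- Ping-pong property of a reduced word. -/
def Good (P : Bool → E) (ε ε' : Bool) (w : E) : Prop := (1 - P ε) * w * (1 - P (!ε')) = 0

namespace HData
variable {B : StarSubalgebra ℂ E} {U : Bool → E} {L : Bool → ℕ → E} {P : Bool → E}

lemma norm_U (h : HData B U L P) (ε : Bool) : ‖U ε‖ ≤ 1 := by
  have : Nontrivial E := ⟨⟨_, _, (h.peak true).ne 0⟩⟩
  have h1 : ‖U ε‖ * ‖U ε‖ = 1 := by
    rw [← CStarRing.norm_star_mul_self, h.st, h.uni, norm_one]
  nlinarith [norm_nonneg (U ε)]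

lemma good_step (h : HData B U L P) {ε ε' ε'' : Bool} {b w : E} (hw : Good P ε' ε'' w)
    (hb : P (!ε) * b * P ε' = 0) : Good P ε ε'' (U ε * b * w) := by
  have h1 := h.pp ε
  unfold Good at hw ⊢
  calc (1 - P ε) * (U ε * b * w) * (1 - P (!ε''))
      = ((1 - P ε) * U ε * (1 - P (!ε))) * b * P ε' * w * (1 - P (!ε'')) +
        (1 - P ε) * U ε * (P (!ε) * b * P ε') * w * (1 - P (!ε'')) +
        (1 - P ε) * U ε * b * ((1 - P ε') * w * (1 - P (!ε''))) := by noncomm_ring
    _ = 0 := by rw [h1, hb, hw]; simp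

lemma reduce (h : HData B U L P) {k ε ε' w} (hw : In B U k ε ε' w) :
    ∀ δ > 0, ∃ w', In B U k ε ε' w' ∧ Good P ε ε' w' ∧
      ∃ v ∈ Submodule.span ℂ {y | ∃ j ≤ k, Wd B U j y}, ‖w - w' - v‖ ≤ δ := by
  induction hw with
  | one ε => exact fun δ hδ => ⟨_, In.one ε, h.pp ε, 0, zero_mem _, by simpa using hδ.le⟩
  | @step k ε' ε'' b w ε hb hw ih =>
    intro δ hδ
    obtain ⟨w', h1, h2, v, hv, h3⟩ := ih (δ / (2 * (‖b‖ + 1))) (by positivity)
    have hv' : U ε * b * v ∈ Submodule.span ℂ {y | ∃ j ≤ k + 1, Wd B U j y} := by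
      clear h3
      induction hv using Submodule.span_induction with
      | mem y hy =>
        obtain ⟨j, hj, hy⟩ := hy
        refine Submodule.subset_span ⟨j + 1, by omega, ?_⟩
        rw [mul_assoc]; exact (hy.mul_left hb).cons ε
      | zero => simp
      | add y z _ _ h1 h2 => rw [mul_add]; exact add_mem h1 h2
      | smul c y _ h1 => rw [mul_smul_comm]; exact Submodule.smul_mem _ _ h1
    have h4 : ‖U ε * b * (w - w' - v)‖ ≤ δ / 2 := by
      calc _ ≤ ‖U ε‖ * ‖b‖ * ‖w - w' - v‖ :=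
            (norm_mul_le _ _).trans (by gcongr; exact norm_mul_le _ _)
        _ ≤ 1 * (‖b‖ + 1) * (δ / (2 * (‖b‖ + 1))) := by
            gcongr
            · exact h.norm_U ε
            · linarith
        _ = δ / 2 := by field_simp
    by_cases he : ε' = ε
    · subst he
      refine ⟨_, In.step ε' hb h1, h.good_step h2 (h.orth ε' b hb), _, hv', ?_⟩
      rw [← mul_sub, ← mul_sub]; linarith
    · have he' : ε = !ε' := by cases ε <;> cases ε' <;> simp_all
      subst he'
      obtain ⟨y, hy, hwy⟩ := h1.left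
      obtain ⟨b', hb', c, hc, h5, h6⟩ := h.red ε' b hb (δ / (2 * (‖y‖ + 1))) (by positivity)
      refine ⟨_, In.step (!ε') hb' h1, h.good_step h2 (by simpa using h5), _,
        add_mem hv' (Submodule.subset_span ⟨k, by omega, hy.mul_left hc⟩), ?_⟩
      have e1 : U (!ε') * b * w - U (!ε') * b' * w' - (U (!ε') * b * v + c * y) =
          U (!ε') * b * (w - w' - v) + (U (!ε') * (b - b') * U ε' - c) * y := by
        rw [hwy]; noncomm_ring
      rw [e1]
      have h7 : ‖(U (!ε') * (b - b') * U ε' - c) * y‖ ≤ δ / 2 := by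
        calc _ ≤ (δ / (2 * (‖y‖ + 1))) * (‖y‖ + 1) :=
              (norm_mul_le _ _).trans (by gcongr; linarith)
          _ = δ / 2 := by field_simp
      linarith [norm_add_le (U (!ε') * b * (w - w' - v)) ((U (!ε') * (b - b') * U ε' - c) * y)]

lemma ind (h : HData B U L P) {Q : Submodule ℂ E} (hQ : IsClosed (Q : Set E))
    (h0 : ∀ b ∈ B, b ∈ Q)
    (h1 : ∀ k, (∀ y, Wd B U k y → y ∈ Q) → ∀ ε ε' w, In B U k ε ε' w → Good P ε ε' w →
      ∀ b ∈ B, ∀ b' ∈ B, b * w * b' ∈ Q) : ∀ x ∈ ext B (U true), x ∈ Q := by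
  refine ext_le_of_words h.st hQ fun k => ?_
  induction k using Nat.strong_induction_on with
  | _ k ih =>
    intro x hx
    cases k with
    | zero => cases hx with | base hx => exact h0 _ hx
    | succ k =>
      obtain ⟨b, hb, b', hb', ε, ε', w, hw, rfl⟩ := hx.split
      refine hQ.closure_subset (Metric.mem_closure_iff.2 fun δ hδ => ?_)
      obtain ⟨w', h2, h3, v, hv, h4⟩ := h.reduce hw (δ / (2 * ((‖b‖ + 1) * (‖b'‖ + 1))))
        (by positivity)
      have hv' : b * v * b' ∈ Q := by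
        clear h4
        induction hv using Submodule.span_induction with
        | mem y hy =>
          obtain ⟨j, hj, hy⟩ := hy
          exact ih j (by omega) _ ((hy.mul_left hb).mul_right hb')
        | zero => simp
        | add y z _ _ h1 h2 => rw [mul_add, add_mul]; exact add_mem h1 h2
        | smul c y _ h1 => rw [mul_smul_comm, smul_mul_assoc]; exact Submodule.smul_mem _ _ h1
      refine ⟨_, add_mem (h1 k (ih k (by omega)) ε ε' w' h2 h3 b hb b' hb') hv', ?_⟩
      rw [dist_eq_norm]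
      have e1 : b * w * b' - (b * w' * b' + b * v * b') = b * (w - w' - v) * b' := by noncomm_ring
      rw [e1]
      calc _ ≤ ‖b‖ * ‖w - w' - v‖ * ‖b'‖ :=
            (norm_mul_le _ _).trans (by gcongr; exact norm_mul_le _ _)
        _ ≤ (‖b‖ + 1) * (δ / (2 * ((‖b‖ + 1) * (‖b'‖ + 1)))) * (‖b'‖ + 1) := by
            gcongr <;> linarith
        _ = δ / 2 := by field_simp
        _ < δ := by linarith

lemma core (h : HData B U L P) {ε ε' : Bool} {w : E} (hw : Good P ε ε' w) {e e' : ℕ → E}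
    (he : Peak B e) (he' : Peak B e') {b b' : E} (hb : b ∈ B) (hb' : b' ∈ B) (m : ℕ) :
    Nul e e' (b * (1 - L ε m) * w * ((1 - L (!ε') m) * b')) := by
  have t1 := h.small ε e he b hb m
  have t2 := h.small (!ε') e' he' (star b') (star_mem hb') m
  have t3 := (t2.const_mul (‖b‖ * ‖w‖)).add (t1.mul_const (‖w‖ * ‖b'‖))
  simp only [mul_zero, zero_mul, add_zero] at t3
  refine squeeze_zero (fun _ => norm_nonneg _) (fun n => ?_) t3
  set X := e n * b * (1 - L ε m) with hX
  set Y := (1 - L (!ε') m) * b' * e' n with hY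
  have e1 : e n * (b * (1 - L ε m) * w * ((1 - L (!ε') m) * b')) * e' n =
      X * w * (P (!ε') * Y) + X * P ε * w * ((1 - P (!ε')) * Y) +
        X * ((1 - P ε) * w * (1 - P (!ε'))) * Y := by
    rw [hX, hY]; noncomm_ring
  rw [e1, hw, mul_zero, zero_mul, add_zero]
  have nX : ‖X‖ ≤ ‖b‖ := by
    refine (norm_mul_le _ _).trans ?_
    have := mul_le_mul (he.toDec.left_le n b) ((h.peak ε).toDec.norm_one_sub_le m) (norm_nonneg _)
      (norm_nonneg _)
    linarith
  have nY : ‖Y‖ ≤ ‖b'‖ := by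
    refine (he'.toDec.right_le _ _).trans ((norm_mul_le _ _).trans ?_)
    have := mul_le_mul_of_nonneg_right ((h.peak (!ε')).toDec.norm_one_sub_le m) (norm_nonneg b')
    linarith
  have nPY : ‖P (!ε') * Y‖ = ‖e' n * star b' * (1 - L (!ε') m) * P (!ε')‖ := by
    rw [← norm_star, hY]
    simp only [star_mul, star_sub, star_one, h.psa, he'.sa, (h.peak (!ε')).sa, mul_assoc]
  refine (norm_add_le _ _).trans (add_le_add ?_ ?_)
  · rw [← nPY]
    refine (norm_mul_le _ _).trans ?_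
    gcongr
    exact (norm_mul_le _ _).trans (by gcongr)
  · refine (norm_mul_le _ _).trans ?_
    have h5 : ‖(1 - P (!ε')) * Y‖ ≤ ‖b'‖ := by
      refine (norm_mul_le _ _).trans ?_
      have := mul_le_mul (h.pn (!ε')) nY (norm_nonneg _) zero_le_one
      linarith
    calc ‖X * P ε * w‖ * ‖(1 - P (!ε')) * Y‖ ≤ (‖X * P ε‖ * ‖w‖) * ‖b'‖ :=
          mul_le_mul (norm_mul_le _ _) h5 (norm_nonneg _) (by positivity)
      _ = _ := by ring

end HData

/-- Left coefficient of `b` between `e` and `l`. -/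
def LCo (e l : ℕ → E) (b : E) (c : ℂ) : Prop :=
  ∀ δ > 0, ∃ m0, ∀ m ≥ m0, ∀ n ≥ m, ‖e n * (b * l m - c • 1)‖ ≤ δ

lemma lco_zero {e l : ℕ → E} (he : Dec e) (_hl : Dec l) {b : E} (h : Nul e l b) : LCo e l b 0 := by
  intro δ hδ
  obtain ⟨m0, hm0⟩ := eventually_atTop.1 (nul_iff.1 h δ hδ)
  refine ⟨m0, fun m hm n hn => ?_⟩
  rw [zero_smul, sub_zero]
  exact (he.left_anti hn _).trans (by rw [← mul_assoc]; exact hm0 m hm)

lemma lco_self {e : ℕ → E} (he : Dec e) {b : E} {c : ℂ} (h : Nul e e (b - c • 1)) :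
    LCo e e b c := by
  intro δ hδ
  obtain ⟨m0, hm0⟩ := eventually_atTop.1 (nul_iff.1 h δ hδ)
  refine ⟨m0, fun m hm n hn => ?_⟩
  have : e n * (b * e m - c • 1) = e n * ((b - c • 1) * e m) := by
    rw [sub_mul, mul_sub, mul_sub, smul_mul_assoc, one_mul, mul_smul_comm, mul_smul_comm, mul_one,
      he.mul' hn]
  rw [this]
  exact (he.left_anti hn _).trans (by rw [← mul_assoc]; exact hm0 m hm)

end Vale.Agent.P070
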