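import Vale.Agent.P070.HNN

/-! Peaks survive the gluing step; new links pass through the glued peaks. -/

namespace Vale.Agent.P070
open Filter Topology

variable {E : Type*} [CStarAlgebra E]

lemma norm_mul3_le {x y z : E} {a b c : ℝ} (hx : ‖x‖ ≤ a) (hy : ‖y‖ ≤ b) (hz : ‖z‖ ≤ c) :
    ‖x * y * z‖ ≤ a * b * c := by
  have ha := (norm_nonneg _).trans hx
  have hb := (norm_nonneg _).trans hy
  exact (norm_mul_le _ _).trans (mul_le_mul ((norm_mul_le _ _).trans
    (mul_le_mul hx hy (norm_nonneg _) ha)) hz (norm_nonneg _) (mul_nonneg ha hb))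

lemma nul_of_bound {e e' : ℕ → E} {x : E} (K : ℝ)
    (H : ∀ δ > 0, ∀ᶠ n in atTop, ‖e n * x * e' n‖ ≤ K * δ) : Nul e e' x := by
  rw [nul_iff]
  intro ε hε
  filter_upwards [H (ε / (|K| + 1)) (by positivity)] with n hn
  refine hn.trans ?_
  calc K * (ε / (|K| + 1)) ≤ (|K| + 1) * (ε / (|K| + 1)) := by
        gcongr; linarith [le_abs_self K]
    _ = ε := by field_simp

namespace HData
variable {B : StarSubalgebra ℂ E} {U : Bool → E} {L : Bool → ℕ → E} {P : Bool → E}

lemma expand (h : HData B U L P) {ε ε' : Bool} {w : E} (hw : Good P ε ε' w) {e e' : ℕ → E}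
    (he : Peak B e) (he' : Peak B e') {b b' : E} (hb : b ∈ B) (hb' : b' ∈ B) {c c' : ℂ}
    (hc : LCo e (L ε) b c) (hc' : LCo e' (L (!ε')) (star b') (star c')) :
    Nul e e' (b * w * b' - (c • (w * b') + c' • (b * w) - (c * c') • w)) := by
  refine nul_of_bound (1 + ‖w‖ * ‖b'‖ + ‖b‖ * ‖w‖ + ‖w‖ * ‖b'‖ + ‖c‖ * ‖w‖) fun δ hδ => ?_
  obtain ⟨m1, h1⟩ := hc δ hδ
  obtain ⟨m2, h2⟩ := hc' δ hδ
  set m := max m1 m2
  filter_upwards [nul_iff.1 (h.core hw he he' hb hb' m) δ hδ, eventually_ge_atTop m] with n h3 h4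
  have h5 := h1 m (le_max_left _ _) n h4
  have h6 : ‖(L (!ε') m * b' - c' • 1) * e' n‖ ≤ δ := by
    rw [← norm_star]
    simpa only [star_mul, star_sub, star_smul, star_one, he'.sa, (h.peak (!ε')).sa] using
      h2 m (le_max_right _ _) n h4
  set X := b * L ε m - c • 1 with hX
  set Y := L (!ε') m * b' - c' • 1 with hY
  have e1 : e n * (b * w * b' - (c • (w * b') + c' • (b * w) - (c * c') • w)) * e' n =
      e n * (b * (1 - L ε m) * w * ((1 - L (!ε') m) * b')) * e' n +
      e n * X * w * (b' * e' n) + e n * b * w * (Y * e' n) -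
      e n * X * w * (L (!ε') m * b' * e' n) - c • (e n * w * (Y * e' n)) := by
    simp only [hX, hY, mul_sub, sub_mul, mul_add, add_mul, mul_smul_comm, smul_mul_assoc, mul_one,
      one_mul, mul_assoc, smul_sub, smul_smul]
    abel
  rw [e1]
  have b1 : ‖e n * X * w * (b' * e' n)‖ ≤ δ * ‖w‖ * ‖b'‖ :=
    norm_mul3_le h5 le_rfl (he'.toDec.right_le _ _)
  have b2 : ‖e n * b * w * (Y * e' n)‖ ≤ ‖b‖ * ‖w‖ * δ :=
    norm_mul3_le (he.toDec.left_le _ _) le_rfl h6
  have b3 : ‖e n * X * w * (L (!ε') m * b' * e' n)‖ ≤ δ * ‖w‖ * ‖b'‖ :=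
    norm_mul3_le h5 le_rfl ((h.peak _).toDec.two_le he'.toDec _ _ _)
  have b4 : ‖c • (e n * w * (Y * e' n))‖ ≤ ‖c‖ * (1 * ‖w‖ * δ) := by
    rw [norm_smul]
    gcongr
    exact norm_mul3_le (he.toDec.norm_eq n).le le_rfl h6
  refine (norm_sub_le _ _).trans ?_
  refine le_trans (add_le_add_left ((norm_sub_le _ _).trans (add_le_add_left
    ((norm_add_le _ _).trans (add_le_add_left (norm_add_le _ _) _)) _)) _) ?_
  nlinarith

lemma free_step (h : HData B U L P) {ε ε' : Bool} {w y : E} (hw : Good P ε ε' w)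
    (hy : w = y * U ε') {e e' : ℕ → E} (he : Peak B e) (he' : Peak B e') {b b' : E}
    (hb : b ∈ B) (hb' : b' ∈ B) (hc : Nul e (L ε) b) (hc' : Nul e (L ε') (b * y)) :
    Nul e e' (b * w * b') := by
  refine nul_of_bound (1 + ‖w‖ * ‖b'‖ + ‖b'‖) fun δ hδ => ?_
  obtain ⟨m, h1, h2⟩ := ((nul_iff.1 hc δ hδ).and (nul_iff.1 hc' δ hδ)).exists
  filter_upwards [nul_iff.1 (h.core hw he he' hb hb' m) δ hδ, eventually_ge_atTop m] with n h3 h4
  have e1 : e n * (b * w * b') * e' n =
      e n * (b * (1 - L ε m) * w * ((1 - L (!ε') m) * b')) * e' n +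
      e n * b * L ε m * w * ((1 - L (!ε') m) * b' * e' n) +
      e n * (b * y) * L ε' m * U ε' * (b' * e' n) := by
    have := h.inter ε' m
    rw [mul_assoc (e n * (b * y)) (L ε' m), ← this, hy]
    noncomm_ring
  rw [e1]
  have b1 : ‖e n * b * L ε m * w * ((1 - L (!ε') m) * b' * e' n)‖ ≤ δ * ‖w‖ * ‖b'‖ := by
    refine norm_mul3_le ((he.toDec.two_anti (h.peak ε).toDec h4 le_rfl _).trans h1) le_rfl ?_
    refine (he'.toDec.right_le _ _).trans ((norm_mul_le _ _).trans ?_)
    have := mul_le_mul_of_nonneg_right ((h.peak (!ε')).toDec.norm_one_sub_le m) (norm_nonneg b')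
    linarith
  have b2 : ‖e n * (b * y) * L ε' m * U ε' * (b' * e' n)‖ ≤ δ * 1 * ‖b'‖ :=
    norm_mul3_le ((he.toDec.two_anti (h.peak ε').toDec h4 le_rfl _).trans h2) (h.norm_U _)
      (he'.toDec.right_le _ _)
  refine (norm_add_le _ _).trans (le_trans (add_le_add_left (norm_add_le _ _) _) ?_)
  nlinarith

lemma free_nul (h : HData B U L P) {e : ℕ → E} (he : Peak B e) (hn : ∀ ε, ¬ Eqv B e (L ε)) :
    ∀ x ∈ ext B (U true), ∀ ε, Nul e (L ε) x := by
  have h0 : ∀ ε, ∀ b ∈ B, Nul e (L ε) b := fun ε b hb => by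
    by_contra hc; exact hn ε ⟨b, hb, hc⟩
  have := h.ind (Q := ⨅ ε, nulS e (L ε)) (by
    rw [Submodule.coe_iInf]
    exact isClosed_iInter fun ε => isClosed_nulS he.toDec (h.peak ε).toDec)
    (fun b hb => (Submodule.mem_iInf _).2 fun ε => h0 ε b hb)
    (fun k ih ε ε' w hw hg b hb b' hb' => (Submodule.mem_iInf _).2 fun ε'' => by
      obtain ⟨y, hy, hwy⟩ := hw.right
      exact h.free_step hg hwy he (h.peak ε'') hb hb' (h0 ε b hb)
        ((Submodule.mem_iInf _).1 (ih _ (hy.mul_left hb)) ε'))
  exact fun x hx ε => (Submodule.mem_iInf _).1 (this x hx) ε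

lemma free_ind (h : HData B U L P) {e e' : ℕ → E} (he : Peak B e) (he' : Peak B e')
    (hn : ∀ ε, ¬ Eqv B e (L ε)) {Q : Submodule ℂ E} (hQ : IsClosed (Q : Set E))
    (h0 : ∀ b ∈ B, b ∈ Q) (h1 : nulS e e' ≤ Q) : ∀ x ∈ ext B (U true), x ∈ Q := by
  refine h.ind hQ h0 fun k _ ε ε' w hw hg b hb b' hb' => h1 ?_
  obtain ⟨y, hy, hwy⟩ := hw.right
  refine h.free_step hg hwy he he' hb hb' ?_
    (h.free_nul he hn _ ((hy.mul_left hb).mem_ext h.st) ε')
  by_contra hc; exact hn ε ⟨b, hb, hc⟩

/-- Identification of the two glued corners. -/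
def J (U : Bool → E) (a : Bool) : E := bif a then U true else 1

lemma J_inter (h : HData B U L P) (a : Bool) (n : ℕ) : J U a * L false n = L a n * J U a := by
  cases a
  · simp [J]
  · exact h.inter true n

lemma J_uni (h : HData B U L P) (a : Bool) : star (J U a) * J U a = 1 := by
  cases a
  · simp [J]
  · simp only [J, cond_true, h.st]; exact h.uni true

lemma J_left (h : HData B U L P) (a : Bool) : star (J U a) * U a = star (J U (!a)) := by
  cases a
  · simp [J, h.st]
  · simp only [J, cond_true, h.st, Bool.not_true, cond_false, star_one]; exact h.uni true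

lemma J_right (h : HData B U L P) (a : Bool) : U a * J U (!a) = J U a := by
  cases a
  · simp only [J, Bool.not_false, cond_true, cond_false]; exact h.uni true
  · simp [J]

lemma norm_J (h : HData B U L P) (a : Bool) : ‖J U a‖ ≤ 1 := by
  have : Nontrivial E := ⟨⟨_, _, (h.peak true).ne 0⟩⟩
  cases a
  · simp [J]
  · exact h.norm_U true

lemma J_nul (h : HData B U L P) {a b : Bool} {x : E} (hx : Nul (L a) (L b) x) :
    Nul (L false) (L false) (star (J U a) * x * J U b) := by
  refine squeeze_zero (fun _ => norm_nonneg _) (fun n => ?_) hx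
  have e1 : L false n * star (J U a) = star (J U a) * L a n := by
    have := congrArg star (h.J_inter a n)
    rwa [star_mul, star_mul, (h.peak false).sa, (h.peak a).sa] at this
  have e2 : L false n * (star (J U a) * x * J U b) * L false n =
      star (J U a) * (L a n * x * L b n) * J U b := by
    calc _ = (L false n * star (J U a)) * x * (J U b * L false n) := by noncomm_ring
      _ = _ := by rw [e1, h.J_inter]; noncomm_ring
  rw [e2]
  have := norm_mul3_le (x := star (J U a)) (y := L a n * x * L b n) (z := J U b)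
    ((norm_star _).le.trans (h.norm_J a)) le_rfl (h.norm_J b)
  linarith

lemma neq' (h : HData B U L P) {a b : Bool} (hab : a ≠ b) {x : E} (hx : x ∈ B) :
    Nul (L a) (L b) x := by
  by_contra hc
  have h1 : Eqv B (L a) (L b) := ⟨x, hx, hc⟩
  cases a <;> cases b
  · exact hab rfl
  · exact h.neq (h1.symm (h.peak _).toDec (h.peak _).toDec)
  · exact h.neq h1
  · exact hab rfl

lemma exists_lco (h : HData B U L P) (a ε : Bool) {b : E} (hb : b ∈ B) :
    ∃ c : ℂ, (c = 0 ∨ a = ε) ∧ LCo (L a) (L ε) b c := by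
  by_cases hae : a = ε
  · subst hae
    obtain ⟨c, hc⟩ := (h.peak a).sc b hb
    exact ⟨c, Or.inr rfl, lco_self (h.peak a).toDec hc⟩
  · exact ⟨0, Or.inl rfl, lco_zero (h.peak a).toDec (h.peak ε).toDec (h.neq' hae hb)⟩

lemma nodes (h : HData B U L P) : ∀ x ∈ ext B (U true), ∀ a b,
    star (J U a) * x * J U b ∈ scS (L false) := by
  let φ : Bool × Bool → E →L[ℂ] E := fun p =>
    ContinuousLinearMap.mulLeftRight ℂ E (star (J U p.1)) (J U p.2)
  have hφ : ∀ p x, φ p x = star (J U p.1) * x * J U p.2 := fun p x => rfl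
  have hm : ∀ x, x ∈ ⨅ p, (scS (L false)).comap (φ p : E →ₗ[ℂ] E) ↔
      ∀ a b, star (J U a) * x * J U b ∈ scS (L false) := by
    intro x
    rw [Submodule.mem_iInf]
    exact ⟨fun H a b => H (a, b), fun H p => H p.1 p.2⟩
  have := h.ind (Q := ⨅ p, (scS (L false)).comap (φ p : E →ₗ[ℂ] E)) (by
    rw [Submodule.coe_iInf]
    exact isClosed_iInter fun p =>
      (isClosed_scS (h.peak false).toDec).preimage (φ p).continuous)
    (fun x hx => (hm x).2 fun a b => by
      by_cases hab : a = b
      · subst hab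
        obtain ⟨c, hc⟩ := (h.peak a).sc x hx
        refine mem_scS.2 ⟨c, ?_⟩
        convert h.J_nul hc using 1
        rw [mul_sub, sub_mul, mul_smul_comm, smul_mul_assoc, mul_one, h.J_uni]
      · exact Submodule.mem_sup_left (h.J_nul (h.neq' hab hx)))
    (fun k ih ε ε' w hw hg b hb b' hb' => (hm _).2 fun a a' => by
      obtain ⟨c, hc0, hc⟩ := h.exists_lco a ε hb
      obtain ⟨c', hc0', hc'⟩ := h.exists_lco a' (!ε') (star_mem hb')
      have h1 := h.J_nul (h.expand hg (h.peak a) (h.peak a') hb hb' hc (c' := star c')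
        (by rwa [star_star]))
      obtain ⟨y, hy, hwy⟩ := hw.left
      obtain ⟨y', hy', hwy'⟩ := hw.right
      have t1 : ∀ d ∈ B, c • (star (J U a) * (w * d) * J U a') ∈ scS (L false) := by
        intro d hd
        rcases hc0 with rfl | rfl
        · simp
        · refine Submodule.smul_mem _ _ ?_
          have := (hm _).1 (ih _ (hy.mul_right hd)) (!a) a'
          rw [← h.J_left] at this
          convert this using 1
          rw [hwy]; noncomm_ring
      have t2 : star c' • (star (J U a) * (b * w) * J U a') ∈ scS (L false) := by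
        rcases hc0' with rfl | rfl
        · simp
        · refine Submodule.smul_mem _ _ ?_
          have := (hm _).1 (ih _ (hy'.mul_left hb)) a ε'
          rw [← h.J_right ε'] at this
          convert this using 1
          rw [hwy']; noncomm_ring
      have t3 := Submodule.smul_mem _ (star c') (t1 1 B.one_mem)
      have t4 := add_mem (Submodule.mem_sup_left h1 : _ ∈ scS (L false))
        (sub_mem (add_mem (t1 b' hb') t2) t3)
      have e9 : star (J U a) * (b * w * b') * J U a' =
          star (J U a) * (b * w * b' - (c • (w * b') + star c' • (b * w) - (c * star c') • w)) *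
            J U a' + (c • (star (J U a) * (w * b') * J U a') +
            star c' • (star (J U a) * (b * w) * J U a') -
            star c' • c • (star (J U a) * (w * 1) * J U a')) := by
        simp only [mul_sub, sub_mul, mul_add, add_mul, mul_smul_comm, smul_mul_assoc, mul_one,
          smul_smul, mul_comm c]
        abel
      rw [e9]
      exact t4)
  exact fun x hx => (hm x).1 (this x hx)

lemma peak_L (h : HData B U L P) (a : Bool) : Peak (ext B (U true)) (L a) := by
  refine ⟨(h.peak a).toDec, fun n => le_ext _ _ ((h.peak a).mem n), fun x hx => ?_⟩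
  obtain ⟨c, hc⟩ := mem_scS.1 (h.nodes x hx a a)
  refine ⟨c, squeeze_zero (fun _ => norm_nonneg _) (fun n => ?_) hc⟩
  have hJ : J U a * star (J U a) = 1 := by
    cases a
    · simp [J]
    · simp only [J, cond_true, h.st]; exact h.uni false
  have e1 : L false n * star (J U a) = star (J U a) * L a n := by
    have := congrArg star (h.J_inter a n)
    rwa [star_mul, star_mul, (h.peak false).sa, (h.peak a).sa] at this
  have e2 : L a n * (x - c • 1) * L a n =
      J U a * (L false n * (star (J U a) * x * J U a - c • 1) * L false n) * star (J U a) := by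
    calc _ = L a n * ((J U a * star (J U a)) * x * (J U a * star (J U a)) -
          c • (J U a * star (J U a))) * L a n := by rw [hJ]; simp
      _ = (L a n * J U a) * (star (J U a) * x * J U a - c • 1) * (star (J U a) * L a n) := by
          simp only [mul_sub, sub_mul, mul_smul_comm, smul_mul_assoc, mul_one, mul_assoc]
      _ = _ := by rw [← h.J_inter, ← e1]; noncomm_ring
  rw [e2]
  have := norm_mul3_le (x := J U a) (z := star (J U a))
    (y := L false n * (star (J U a) * x * J U a - c • 1) * L false n) (h.norm_J a) le_rfl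
    ((norm_star _).le.trans (h.norm_J a))
  linarith

theorem peak_ext (h : HData B U L P) {e : ℕ → E} (he : Peak B e) : Peak (ext B (U true)) e := by
  by_cases hn : ∀ ε, ¬ Eqv B e (L ε)
  · exact ⟨he.toDec, fun n => le_ext _ _ (he.mem n), fun x hx => mem_scS.1 <|
      h.free_ind he he hn (isClosed_scS he.toDec) (fun b hb => mem_scS.2 (he.sc b hb))
        le_sup_left x hx⟩
  · push Not at hn
    obtain ⟨ε, hε⟩ := hn
    exact he.of_eqv (le_ext _ _) (h.peak ε) (h.peak_L ε) (hε.symm he.toDec (h.peak ε).toDec)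

theorem eqv_ext (h : HData B U L P) {e e' : ℕ → E} (he : Peak B e) (he' : Peak B e')
    (hn : ¬ Eqv B e e') (H : Eqv (ext B (U true)) e e') :
    (∃ ε, Eqv B e (L ε)) ∧ ∃ ε, Eqv B e' (L ε) := by
  have key : ∀ {e e' : ℕ → E}, Peak B e → Peak B e' → ¬ Eqv B e e' → Eqv (ext B (U true)) e e' →
      ∃ ε, Eqv B e (L ε) := by
    intro e e' he he' hn H
    by_contra hc
    push Not at hc
    obtain ⟨v, hv, h1⟩ := H
    refine h1 (h.free_ind he he' hc (isClosed_nulS he.toDec he'.toDec) (fun b hb => ?_) le_rfl v hv)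
    by_contra h2
    exact hn ⟨b, hb, h2⟩
  exact ⟨key he he' hn H, key he' he (fun h1 => hn (h1.symm he'.toDec he.toDec))
    (H.symm he.toDec he'.toDec)⟩

theorem eqv_L (h : HData B U L P) : Eqv (ext B (U true)) (L true) (L false) := by
  refine ⟨U true, self_mem_ext _ _, fun h1 => ?_⟩
  have h2 := h.J_nul (a := true) (b := false) h1
  have h3 : star (J U true) * U true * J U false = 1 := by
    rw [h.J_left]; simp [J]
  rw [h3] at h2
  have := Nul.norm_le (h.peak false).toDec (x := 0) (c := -1) (by simpa using h2) 0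
  simp at this
  linarith

end HData

end Vale.Agent.P070
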