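import Mathlib

/-! Operators on `ℓ²` coming from injections and subsets. -/

namespace Vale.Agent.P070
open Filter Topology
open scoped InnerProductSpace Classical

variable {X : Type} {H : Type} [NormedAddCommGroup H] [InnerProductSpace ℂ H] [CompleteSpace H]
  (dl : HilbertBasis X ℂ H)

omit [CompleteSpace H] in
lemma inner_dl (g h : X) : ⟪dl g, dl h⟫_ℂ = if g = h then 1 else 0 :=
  orthonormal_iff_ite.1 dl.orthonormal g h

omit [CompleteSpace H] in
lemma norm_dl (g : X) : ‖dl g‖ = 1 := dl.orthonormal.1 g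

omit [CompleteSpace H] in
lemma dl_ind {Q : Submodule ℂ H} (hQ : IsClosed (Q : Set H)) (h : ∀ g, dl g ∈ Q)
    (ξ : H) : ξ ∈ Q :=
  hQ.mem_of_tendsto (dl.hasSum_repr ξ) (Eventually.of_forall fun _ =>
    Submodule.sum_mem _ fun g _ => Q.smul_mem _ (h g))

omit [CompleteSpace H] in
lemma ext_dl {F : Type*} [NormedAddCommGroup F] [NormedSpace ℂ F] {T T' : H →L[ℂ] F}
    (h : ∀ g, T (dl g) = T' (dl g)) : T = T' := by
  ext ξ
  have := dl_ind dl (Q := (T - T').ker) (T - T').isClosed_ker (fun g => by simp [h]) ξ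
  simpa [sub_eq_zero] using this

omit [CompleteSpace H] in
lemma ext_vec {ξ η : H} (h : ∀ g, ⟪dl g, ξ⟫_ℂ = ⟪dl g, η⟫_ℂ) : ξ = η := by
  apply dl.repr.injective
  ext g
  simpa only [HilbertBasis.repr_apply_apply] using h g

omit [CompleteSpace H] in
lemma ext_mat {T T' : H →L[ℂ] H}
    (h : ∀ g k, ⟪dl g, T (dl k)⟫_ℂ = ⟪dl g, T' (dl k)⟫_ℂ) : T = T' :=
  ext_dl dl fun k => ext_vec dl fun g => h g k

/-- The isometry given by an injection. -/
noncomputable def V (φ : X → X) (hφ : Function.Injective φ) : H →L[ℂ] H :=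
  ((dl.orthonormal.comp φ hφ).orthogonalFamily.linearIsometry.comp
    dl.repr.toLinearIsometry).toContinuousLinearMap

lemma V_dl {φ : X → X} (hφ : Function.Injective φ) (g : X) : V dl φ hφ (dl g) = dl (φ g) := by
  change (dl.orthonormal.comp φ hφ).orthogonalFamily.linearIsometry (dl.repr (dl g)) = _
  rw [dl.repr_self, OrthogonalFamily.linearIsometry_apply_single]
  simp

lemma star_V_dl {φ : X → X} (hφ : Function.Injective φ) (g : X) :
    star (V dl φ hφ) (dl (φ g)) = dl g := by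
  refine ext_vec dl fun k => ?_
  rw [ContinuousLinearMap.star_eq_adjoint, ContinuousLinearMap.adjoint_inner_right, V_dl,
    inner_dl, inner_dl]
  simp only [hφ.eq_iff]

lemma star_V_dl_of_not {φ : X → X} (hφ : Function.Injective φ) {g : X} (hg : ∀ k, φ k ≠ g) :
    star (V dl φ hφ) (dl g) = 0 := by
  refine ext_vec dl fun k => ?_
  rw [ContinuousLinearMap.star_eq_adjoint, ContinuousLinearMap.adjoint_inner_right, V_dl,
    inner_dl, if_neg (hg k), inner_zero_right]

lemma star_V_mul {φ : X → X} (hφ : Function.Injective φ) : star (V dl φ hφ) * V dl φ hφ = 1 :=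
  ext_dl dl fun g => by rw [ContinuousLinearMap.mul_apply, V_dl, star_V_dl]; rfl

/-- The projection on a set of basis vectors. -/
noncomputable def proj (S : Set X) : H →L[ℂ] H :=
  dl.repr.symm.toLinearIsometry.toContinuousLinearMap.comp
    ((lp.mapCLM 2 (fun g => if g ∈ S then (1 : ℂ →L[ℂ] ℂ) else 0) zero_le_one fun g => by
      split_ifs <;> simp).comp dl.repr.toLinearIsometry.toContinuousLinearMap)

omit [CompleteSpace H] in
lemma inner_proj (S : Set X) (g : X) (ξ : H) :
    ⟪dl g, proj dl S ξ⟫_ℂ = if g ∈ S then ⟪dl g, ξ⟫_ℂ else 0 := by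
  rw [← dl.repr_apply_apply, ← dl.repr_apply_apply]
  change dl.repr (dl.repr.symm _) g = _
  rw [LinearIsometryEquiv.apply_symm_apply]
  change (if g ∈ S then (1 : ℂ →L[ℂ] ℂ) else 0) (dl.repr ξ g) = _
  split_ifs <;> simp

omit [CompleteSpace H] in
lemma proj_dl (S : Set X) (g : X) : proj dl S (dl g) = if g ∈ S then dl g else 0 := by
  refine ext_vec dl fun k => ?_
  rw [inner_proj]
  by_cases hk : k = g
  · subst hk
    by_cases h : k ∈ S <;> simp [h]
  · by_cases h : g ∈ S <;> simp [h, hk, inner_dl]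

omit [CompleteSpace H] in
lemma proj_dl_of_mem {S : Set X} {g : X} (h : g ∈ S) : proj dl S (dl g) = dl g := by
  rw [proj_dl, if_pos h]

omit [CompleteSpace H] in
lemma proj_dl_of_not {S : Set X} {g : X} (h : g ∉ S) : proj dl S (dl g) = 0 := by
  rw [proj_dl, if_neg h]

lemma star_proj (S : Set X) : star (proj dl S) = proj dl S := by
  refine ext_mat dl fun g k => ?_
  rw [ContinuousLinearMap.star_eq_adjoint, ContinuousLinearMap.adjoint_inner_right, proj_dl,
    proj_dl]
  by_cases hk : g = k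
  · subst hk
    by_cases h : g ∈ S <;> simp [h]
  · by_cases h : g ∈ S <;> by_cases h' : k ∈ S <;> simp [h, h', hk, inner_dl]

omit [CompleteSpace H] in
lemma proj_mul (S T : Set X) : proj dl S * proj dl T = proj dl (S ∩ T) := by
  refine ext_dl dl fun g => ?_
  rw [ContinuousLinearMap.mul_apply]
  by_cases h : g ∈ T
  · rw [proj_dl_of_mem dl h, proj_dl, proj_dl]; simp [h]
  · rw [proj_dl_of_not dl h, proj_dl_of_not dl (fun h' => h h'.2), map_zero]

section
variable {H F : Type*} [NormedAddCommGroup H] [NormedSpace ℂ H] [NormedAddCommGroup F]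
  [NormedSpace ℂ F]

/-- Vectors killed in the limit. -/
def limS (T : ℕ → H →L[ℂ] F) : Submodule ℂ H where
  carrier := {ξ | Tendsto (fun n => T n ξ) atTop (𝓝 0)}
  zero_mem' := by simp
  add_mem' := fun {x y} hx hy => by simpa using hx.add hy
  smul_mem' := fun c x hx => by simpa using hx.const_smul c

lemma isClosed_limS {T : ℕ → H →L[ℂ] F} {C : ℝ} (hC : ∀ n, ‖T n‖ ≤ C) :
    IsClosed (limS T : Set H) := by
  have hC0 : 0 ≤ C := (norm_nonneg _).trans (hC 0)
  refine isClosed_of_closure_subset fun x hx => Metric.tendsto_nhds.2 fun ε hε => ?_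
  obtain ⟨y, hy, hxy⟩ := Metric.mem_closure_iff.1 hx (ε / (2 * (C + 1))) (by positivity)
  filter_upwards [Metric.tendsto_nhds.1 hy (ε / 2) (by linarith)] with n hn
  rw [dist_zero_right] at hn ⊢
  rw [dist_eq_norm] at hxy
  have h1 : T n x = T n y + T n (x - y) := by rw [map_sub]; abel
  have h2 : ‖T n (x - y)‖ ≤ ε / 2 := by
    calc _ ≤ C * ‖x - y‖ := (T n).le_of_opNorm_le (hC n) _
      _ ≤ (C + 1) * (ε / (2 * (C + 1))) := by gcongr; linarith
      _ = ε / 2 := by field_simp
  rw [h1]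
  linarith [norm_add_le (T n y) (T n (x - y))]

end

lemma weak_of_basis {T : ℕ → H →L[ℂ] H} {C : ℝ} (hC : ∀ n, ‖T n‖ ≤ C)
    (h : ∀ g k, ∀ᶠ n in atTop, ⟪dl g, T n (dl k)⟫_ℂ = 0) (η ζ : H) :
    Tendsto (fun n => ⟪η, T n ζ⟫_ℂ) atTop (𝓝 0) := by
  have bd : ∀ (ξ : H) (S : H →L[ℂ] H), ‖S‖ ≤ C → ‖(innerSL ℂ ξ).comp S‖ ≤ ‖ξ‖ * C := by
    intro ξ S hS
    refine (ContinuousLinearMap.opNorm_comp_le _ _).trans ?_
    rw [innerSL_apply_norm]
    gcongr
  have h1 : ∀ g, Tendsto (fun n => ⟪dl g, T n ζ⟫_ℂ) atTop (𝓝 0) := fun g =>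
    dl_ind dl (Q := limS fun n => (innerSL ℂ (dl g)).comp (T n))
      (isClosed_limS fun n => bd _ _ (hC n))
      (fun k => tendsto_const_nhds.congr' ((h g k).mono fun n hn => hn.symm)) ζ
  have h2 : Tendsto (fun n => ⟪ζ, star (T n) η⟫_ℂ) atTop (𝓝 0) :=
    dl_ind dl (Q := limS fun n => (innerSL ℂ ζ).comp (star (T n)))
      (isClosed_limS fun n => bd _ _ (by rw [norm_star]; exact hC n))
      (fun g => by
        have := (Complex.continuous_conj.tendsto 0).comp (h1 g)
        rw [map_zero] at this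
        refine this.congr fun n => ?_
        change (starRingEnd ℂ) _ = ⟪ζ, star (T n) (dl g)⟫_ℂ
        rw [inner_conj_symm, ContinuousLinearMap.star_eq_adjoint,
          ContinuousLinearMap.adjoint_inner_right]) η
  have := (Complex.continuous_conj.tendsto 0).comp h2
  rw [map_zero] at this
  refine this.congr fun n => ?_
  change (starRingEnd ℂ) _ = _
  rw [inner_conj_symm, ContinuousLinearMap.star_eq_adjoint, ContinuousLinearMap.adjoint_inner_left]

end Vale.Agent.P070
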