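import Mathlib

/-! Decreasing sequences of projections that excise a state (peaks). -/

namespace Vale.Agent.P070
open Filter Topology

variable {E : Type*} [CStarAlgebra E]

/-- A decreasing sequence of nonzero projections. -/
structure Dec (e : ℕ → E) : Prop where
  sa : ∀ n, star (e n) = e n
  mul : ∀ {n m}, n ≤ m → e n * e m = e m
  ne : ∀ n, e n ≠ 0

/-- The corner of `x` between two sequences vanishes in the limit. -/
def Nul (e e' : ℕ → E) (x : E) : Prop := Tendsto (fun n => ‖e n * x * e' n‖) atTop (𝓝 0)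

/-- A peak for the subalgebra `B`. -/
structure Peak (B : StarSubalgebra ℂ E) (e : ℕ → E) : Prop extends Dec e where
  mem : ∀ n, e n ∈ B
  sc : ∀ b ∈ B, ∃ c : ℂ, Nul e e (b - c • 1)

/-- Two sequences are linked inside `B`. -/
def Eqv (B : StarSubalgebra ℂ E) (e e' : ℕ → E) : Prop := ∃ v ∈ B, ¬ Nul e e' v

namespace Dec
variable {e e' : ℕ → E}

lemma mul' (h : Dec e) {n m : ℕ} (hnm : n ≤ m) : e m * e n = e m := by
  have := congrArg star (h.mul hnm)
  rwa [star_mul, h.sa, h.sa] at this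

lemma norm_eq (h : Dec e) (n : ℕ) : ‖e n‖ = 1 := by
  have h1 : ‖e n‖ * ‖e n‖ = ‖e n‖ := by
    rw [← CStarRing.norm_star_mul_self, h.sa, h.mul le_rfl]
  have h2 : ‖e n‖ ≠ 0 := norm_ne_zero_iff.2 (h.ne n)
  exact mul_left_cancel₀ h2 (h1.trans (mul_one _).symm)

lemma left_le (h : Dec e) (n : ℕ) (x : E) : ‖e n * x‖ ≤ ‖x‖ :=
  (norm_mul_le _ _).trans (by rw [h.norm_eq, one_mul])

lemma right_le (h : Dec e) (n : ℕ) (x : E) : ‖x * e n‖ ≤ ‖x‖ :=
  (norm_mul_le _ _).trans (by rw [h.norm_eq, mul_one])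

lemma left_anti (h : Dec e) {n m : ℕ} (hnm : n ≤ m) (x : E) : ‖e m * x‖ ≤ ‖e n * x‖ := by
  conv_lhs => rw [← h.mul' hnm, mul_assoc]
  exact h.left_le _ _

lemma right_anti (h : Dec e) {n m : ℕ} (hnm : n ≤ m) (x : E) : ‖x * e m‖ ≤ ‖x * e n‖ := by
  conv_lhs => rw [← h.mul hnm, ← mul_assoc]
  exact h.right_le _ _

lemma two_anti (h : Dec e) (h' : Dec e') {n m n' m' : ℕ} (hnm : n ≤ m) (hnm' : n' ≤ m') (x : E) :
    ‖e m * x * e' m'‖ ≤ ‖e n * x * e' n'‖ := by
  refine (h'.right_anti hnm' _).trans ?_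
  rw [mul_assoc, mul_assoc]
  exact h.left_anti hnm _

lemma two_le (h : Dec e) (h' : Dec e') (n m : ℕ) (x : E) : ‖e n * x * e' m‖ ≤ ‖x‖ :=
  (h'.right_le _ _).trans (h.left_le _ _)

lemma norm_one_sub_le (h : Dec e) (n : ℕ) : ‖1 - e n‖ ≤ 1 := by
  have h1 : ‖1 - e n‖ * ‖1 - e n‖ = ‖1 - e n‖ := by
    rw [← CStarRing.norm_star_mul_self, star_sub, star_one, h.sa, sub_mul, mul_sub, mul_sub,
      h.mul le_rfl]
    simp
  nlinarith [norm_nonneg (1 - e n)]

end Dec

lemma nul_iff {e e' : ℕ → E} {x : E} :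
    Nul e e' x ↔ ∀ ε > 0, ∀ᶠ n in atTop, ‖e n * x * e' n‖ ≤ ε := by
  constructor
  · intro h ε hε
    exact (h.eventually (ge_mem_nhds hε))
  · intro h
    refine Metric.tendsto_nhds.2 fun ε hε => ?_
    filter_upwards [h (ε / 2) (by linarith)] with n hn
    rw [Real.dist_eq, sub_zero, abs_of_nonneg (norm_nonneg _)]
    linarith

lemma nul_iff_exists {e e' : ℕ → E} (h : Dec e) (h' : Dec e') {x : E} :
    Nul e e' x ↔ ∀ ε > 0, ∃ n m, ‖e n * x * e' m‖ ≤ ε := by
  rw [nul_iff]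
  constructor
  · intro H ε hε
    obtain ⟨n, hn⟩ := (H ε hε).exists
    exact ⟨n, n, hn⟩
  · intro H ε hε
    obtain ⟨n, m, hn⟩ := H ε hε
    filter_upwards [eventually_ge_atTop n, eventually_ge_atTop m] with k h1 h2
    exact (h.two_anti h' h1 h2 x).trans hn

/-- The null elements form a submodule. -/
def nulS (e e' : ℕ → E) : Submodule ℂ E where
  carrier := {x | Nul e e' x}
  zero_mem' := by simp [Nul]
  add_mem' := fun {x y} hx hy => by
    refine squeeze_zero (fun _ => norm_nonneg _) (fun n => ?_) (by simpa using hx.add hy)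
    rw [mul_add, add_mul]
    exact norm_add_le _ _
  smul_mem' := fun c x hx => by
    have := Tendsto.const_mul ‖c‖ hx
    rw [mul_zero] at this
    refine this.congr fun n => ?_
    rw [mul_smul_comm, smul_mul_assoc, norm_smul]

lemma mem_nulS {e e' : ℕ → E} {x : E} : x ∈ nulS e e' ↔ Nul e e' x := Iff.rfl

lemma Nul.add {e e' : ℕ → E} {x y : E} (hx : Nul e e' x) (hy : Nul e e' y) : Nul e e' (x + y) :=
  (nulS e e').add_mem hx hy

lemma Nul.sub {e e' : ℕ → E} {x y : E} (hx : Nul e e' x) (hy : Nul e e' y) : Nul e e' (x - y) :=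
  (nulS e e').sub_mem hx hy

lemma Nul.smul {e e' : ℕ → E} {x : E} (c : ℂ) (hx : Nul e e' x) : Nul e e' (c • x) :=
  (nulS e e').smul_mem c hx

lemma Nul.zero {e e' : ℕ → E} : Nul e e' 0 := (nulS e e').zero_mem

lemma Nul.star {e e' : ℕ → E} (h : Dec e) (h' : Dec e') {x : E} (hx : Nul e e' x) :
    Nul e' e (star x) := by
  refine hx.congr fun n => ?_
  rw [← norm_star, star_mul, star_mul, h.sa, h'.sa, mul_assoc]

lemma nul_of_approx {e e' : ℕ → E} (h : Dec e) (h' : Dec e') {x : E}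
    (H : ∀ ε > 0, ∃ y, Nul e e' y ∧ ‖x - y‖ ≤ ε) : Nul e e' x := by
  rw [nul_iff]
  intro ε hε
  obtain ⟨y, hy, hxy⟩ := H (ε / 2) (by linarith)
  filter_upwards [nul_iff.1 hy (ε / 2) (by linarith)] with n hn
  have : e n * x * e' n = e n * y * e' n + e n * (x - y) * e' n := by noncomm_ring
  rw [this]
  have := h.two_le h' n n (x - y)
  linarith [norm_add_le (e n * y * e' n) (e n * (x - y) * e' n)]

lemma isClosed_nulS {e e' : ℕ → E} (h : Dec e) (h' : Dec e') : IsClosed (nulS e e' : Set E) := by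
  refine isClosed_of_closure_subset fun x hx => nul_of_approx h h' fun ε hε => ?_
  obtain ⟨y, hy, hxy⟩ := Metric.mem_closure_iff.1 hx ε hε
  exact ⟨y, hy, by rw [← dist_eq_norm]; exact hxy.le⟩

/-- Elements that are scalar in the corner. -/
noncomputable def scS (e : ℕ → E) : Submodule ℂ E := nulS e e ⊔ Submodule.span ℂ {1}

lemma mem_scS {e : ℕ → E} {x : E} : x ∈ scS e ↔ ∃ c : ℂ, Nul e e (x - c • 1) := by
  rw [scS, Submodule.mem_sup]
  constructor
  · rintro ⟨y, hy, z, hz, rfl⟩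
    obtain ⟨c, rfl⟩ := Submodule.mem_span_singleton.1 hz
    exact ⟨c, by simpa [mem_nulS] using hy⟩
  · rintro ⟨c, hc⟩
    exact ⟨_, hc, c • 1, Submodule.mem_span_singleton.2 ⟨c, rfl⟩, by simp⟩

lemma isClosed_scS {e : ℕ → E} (h : Dec e) : IsClosed (scS e : Set E) :=
  Submodule.isClosed_sup_finiteDimensional _ _ (isClosed_nulS h h)

lemma sc_of_approx {e : ℕ → E} (h : Dec e) {x : E}
    (H : ∀ ε > 0, ∃ c : ℂ, ∃ n, ‖e n * (x - c • 1) * e n‖ ≤ ε) : x ∈ scS e := by
  refine (isClosed_scS h).closure_subset (Metric.mem_closure_iff.2 fun ε hε => ?_)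
  obtain ⟨c, n, hn⟩ := H (ε / 2) (by linarith)
  refine ⟨x - e n * (x - c • 1) * e n, mem_scS.2 ⟨c, ?_⟩, ?_⟩
  · refine tendsto_const_nhds.congr' ?_
    filter_upwards [eventually_ge_atTop n] with k hk
    have : e k * (x - e n * (x - c • 1) * e n - c • 1) * e k =
        e k * (x - c • 1) * e k - (e k * e n) * (x - c • 1) * (e n * e k) := by noncomm_ring
    rw [this, h.mul' hk, h.mul hk, sub_self, norm_zero]
  · rw [dist_eq_norm, sub_sub_cancel]; linarith

lemma Nul.norm_le {e : ℕ → E} (h : Dec e) {x : E} {c : ℂ} (hx : Nul e e (x - c • 1)) (n : ℕ) :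
    ‖c‖ ≤ ‖e n * x * e n‖ := by
  refine le_of_forall_pos_le_add fun ε hε => ?_
  obtain ⟨k, h1, h2⟩ := ((nul_iff.1 hx ε hε).and (eventually_ge_atTop n)).exists
  have h3 : c • e k = e k * x * e k - e k * (x - c • 1) * e k := by
    rw [mul_sub, sub_mul, mul_smul_comm, smul_mul_assoc, mul_one, h.mul le_rfl]; simp
  have h4 : ‖c • e k‖ = ‖c‖ := by rw [norm_smul, h.norm_eq, mul_one]
  rw [← h4, h3]
  have := h.two_anti h h2 h2 x
  linarith [norm_sub_le (e k * x * e k) (e k * (x - c • 1) * e k)]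

lemma Nul.unique {e : ℕ → E} (h : Dec e) {x : E} {c d : ℂ} (hc : Nul e e (x - c • 1))
    (hd : Nul e e (x - d • 1)) : c = d := by
  have h1 : Nul e e (0 - (c - d) • (1 : E)) := by
    convert hc.sub hd using 1
    rw [sub_smul]; abel
  have := h1.norm_le h 0
  simpa [sub_eq_zero] using this

/-- The limit of `‖y * e n‖`. -/
noncomputable def rho (e : ℕ → E) (y : E) : ℝ := ⨅ n, ‖y * e n‖

lemma tendsto_rho {e : ℕ → E} (h : Dec e) (y : E) :
    Tendsto (fun n => ‖y * e n‖) atTop (𝓝 (rho e y)) :=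
  tendsto_atTop_ciInf (fun _ _ hnm => h.right_anti hnm y)
    ⟨0, by rintro _ ⟨n, rfl⟩; exact norm_nonneg _⟩

lemma rho_nonneg (e : ℕ → E) (y : E) : 0 ≤ rho e y := le_ciInf fun _ => norm_nonneg _

lemma norm_corner {e : ℕ → E} (h : Dec e) (y : E) (n : ℕ) :
    ‖e n * (star y * y) * e n‖ = ‖y * e n‖ ^ 2 := by
  rw [sq, ← CStarRing.norm_star_mul_self, star_mul, h.sa]
  congr 1; noncomm_ring

lemma Peak.sq {B : StarSubalgebra ℂ E} {e : ℕ → E} (h : Peak B e) {y : E} (hy : y ∈ B) :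
    Nul e e (star y * y - ((rho e y ^ 2 : ℝ) : ℂ) • 1) := by
  obtain ⟨c, hc⟩ := h.sc _ (mul_mem (star_mem hy) hy)
  have hd := h.toDec
  -- `c` is real
  have hre : star c = c := by
    have := hc.star hd hd
    rw [star_sub, star_mul, star_star, star_smul, star_one] at this
    exact this.unique hd hc
  -- `‖c‖ = rho ^ 2`
  have hn : ‖c‖ = rho e y ^ 2 := by
    have h1 : Tendsto (fun n => ‖e n * (star y * y) * e n‖) atTop (𝓝 (rho e y ^ 2)) := by
      simp only [norm_corner hd]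
      exact (tendsto_rho hd y).pow 2
    refine tendsto_nhds_unique ?_ h1
    rw [tendsto_iff_norm_sub_tendsto_zero]
    refine squeeze_zero (fun _ => norm_nonneg _) (fun n => ?_) hc
    have h3 : e n * (star y * y - c • 1) * e n = e n * (star y * y) * e n - c • e n := by
      rw [mul_sub, sub_mul, mul_smul_comm, smul_mul_assoc, mul_one, hd.mul le_rfl]
    have h4 : ‖c • e n‖ = ‖c‖ := by rw [norm_smul, hd.norm_eq, mul_one]
    rw [h3, ← h4]
    exact abs_norm_sub_norm_le _ _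
  -- `c ≥ 0`
  have hpos : 0 ≤ c.re := by
    let _ := CStarAlgebra.spectralOrder E
    have := CStarAlgebra.spectralOrderedRing E
    have h1 : Nul e e ((((‖y‖ ^ 2 : ℝ) : ℂ) • 1 - star y * y) -
        (((‖y‖ ^ 2 : ℝ) : ℂ) - c) • (1 : E)) := by
      convert hc.smul (-1) using 1
      rw [sub_smul]; simp
    have h2 := (h1.norm_le hd 0).trans (hd.two_le hd 0 0 _)
    have : Nontrivial E := ⟨⟨_, _, hd.ne 0⟩⟩
    have h3 : ‖((‖y‖ ^ 2 : ℝ) : ℂ) • (1 : E) - star y * y‖ ≤ ‖y‖ ^ 2 := by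
      have e1 : ((‖y‖ ^ 2 : ℝ) : ℂ) • (1 : E) = algebraMap ℝ E (‖y‖ ^ 2) := by
        rw [Algebra.algebraMap_eq_smul_one, Complex.coe_smul]
      rw [e1]
      have h4 : star y * y ≤ algebraMap ℝ E (‖y‖ ^ 2) := CStarAlgebra.star_mul_le_algebraMap_norm_sq
      have h5 := CStarAlgebra.norm_le_norm_of_nonneg_of_le (sub_nonneg.2 h4)
        (sub_le_self _ (star_mul_self_nonneg y))
      rwa [norm_algebraMap', Real.norm_of_nonneg (sq_nonneg _)] at h5
    have h6 := (Complex.re_le_norm _).trans (h2.trans h3)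
    simp only [Complex.sub_re, Complex.ofReal_re] at h6
    linarith
  have him : c.im = 0 := by
    have := congrArg Complex.im hre
    simp only [Complex.star_def, Complex.conj_im] at this
    linarith
  have hcr : c = (c.re : ℂ) := Complex.ext (by simp) (by simp [him])
  have : c = ((rho e y ^ 2 : ℝ) : ℂ) := by
    rw [← hn]
    conv_rhs => rw [hcr, Complex.norm_real, Real.norm_eq_abs, abs_of_nonneg hpos]
    exact hcr
  rw [← this]; exact hc

lemma Eqv.symm {B : StarSubalgebra ℂ E} {e f : ℕ → E} (he : Dec e) (hf : Dec f)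
    (h : Eqv B e f) : Eqv B f e := by
  obtain ⟨v, hv, h1⟩ := h
  exact ⟨star v, star_mem hv, fun h2 => h1 (by simpa using h2.star hf he)⟩

lemma Eqv.mono {B B' : StarSubalgebra ℂ E} (hB : B ≤ B') {e f : ℕ → E} (h : Eqv B e f) :
    Eqv B' e f := by
  obtain ⟨v, hv, h1⟩ := h
  exact ⟨v, hB hv, h1⟩

lemma Peak.anti {B B' : StarSubalgebra ℂ E} (hB : B ≤ B') {e : ℕ → E} (h : Peak B' e)
    (hm : ∀ n, e n ∈ B) : Peak B e :=
  ⟨h.toDec, hm, fun b hb => h.sc b (hB hb)⟩

lemma Dec.eqv_self {B : StarSubalgebra ℂ E} {e : ℕ → E} (h : Dec e) : Eqv B e e := by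
  refine ⟨1, B.one_mem, fun h1 => ?_⟩
  have := Nul.norm_le h (x := 0) (c := -1) (by simpa using h1) 0
  simp at this
  linarith

end Vale.Agent.P070
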