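import Vale.Agent.P070.Sys

/-! Schur's lemma and a transitivity statement for irreducible representations. -/

namespace Vale.Agent.P070
open Filter Topology
open scoped InnerProductSpace

variable {A : Type*} [CStarAlgebra A] {K : Type*} [NormedAddCommGroup K] [InnerProductSpace ℂ K]
  [CompleteSpace K]

/-- No proper closed invariant subspace. -/
def Irr (π : A →⋆ₐ[ℂ] (K →L[ℂ] K)) : Prop :=
  ∀ N : Submodule ℂ K, IsClosed (N : Set K) → (∀ a, ∀ ξ ∈ N, π a ξ ∈ N) → N = ⊥ ∨ N = ⊤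

variable {π : A →⋆ₐ[ℂ] (K →L[ℂ] K)}

lemma Irr.ker (h : Irr π) {S T : K →L[ℂ] K} (hS : ∀ a, S * π a = π a * S) (hST : S * T = 0) :
    S = 0 ∨ T = 0 := by
  rcases h S.ker S.isClosed_ker (fun a ξ hξ => by
    change (S * π a) ξ = 0
    rw [hS, mul_apply_eq_comp, show S ξ = 0 from hξ, map_zero]) with h1 | h1
  · refine Or.inr (ContinuousLinearMap.ext fun ξ => ?_)
    have : T ξ ∈ S.ker := by change (S * T) ξ = 0; rw [hST]; rfl
    rw [h1] at this
    exact this
  · refine Or.inl (ContinuousLinearMap.ext fun ξ => ?_)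
    have : ξ ∈ S.ker := by rw [h1]; trivial
    exact this

lemma Irr.schur_sa (h : Irr π) {T : K →L[ℂ] K} (hs : IsSelfAdjoint T)
    (hT : ∀ a, T * π a = π a * T) : ∃ c : ℂ, T = c • 1 := by
  rcases subsingleton_or_nontrivial (K →L[ℂ] K) with h0 | h0
  · exact ⟨0, Subsingleton.elim _ _⟩
  obtain ⟨l, hl⟩ := ContinuousFunctionalCalculus.spectrum_nonempty (R := ℝ) T hs
  have key : ∀ m ∈ spectrum ℝ T, m = l := by
    intro m hm
    by_contra hne
    have hr : 0 < |m - l| / 2 := by have := abs_pos.2 (sub_ne_zero.2 hne); linarith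
    have nz : ∀ x ∈ spectrum ℝ T, cfc (fun t => max 0 (|m - l| / 2 - |t - x|)) T ≠ 0 := by
      intro x hx h1
      have := norm_apply_le_norm_cfc (fun t => max 0 (|m - l| / 2 - |t - x|)) T hx
      rw [h1, norm_zero, sub_self, abs_zero, sub_zero, max_eq_right hr.le, Real.norm_eq_abs,
        abs_of_pos hr] at this
      linarith
    have h2 : cfc (fun t => max 0 (|m - l| / 2 - |t - l|)) T *
        cfc (fun t => max 0 (|m - l| / 2 - |t - m|)) T = 0 := by
      rw [← cfc_mul _ _ T, ← cfc_const_zero ℝ T]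
      refine cfc_congr fun t _ => ?_
      have := abs_sub_le m t l
      rw [abs_sub_comm m t] at this
      rcases le_total (|m - l| / 2) |t - l| with h3 | h3
      · simp [max_eq_left (sub_nonpos.2 h3)]
      · simp [max_eq_left (show |m - l| / 2 - |t - m| ≤ 0 by linarith)]
    rcases h.ker (fun a => (Commute.cfc_real (hT a) _).eq) h2 with h3 | h3
    exacts [nz l hl h3, nz m hm h3]
  refine ⟨l, ?_⟩
  calc T = cfc (id : ℝ → ℝ) T := (cfc_id ℝ T).symm
    _ = cfc (fun _ => l) T := cfc_congr fun t ht => key t ht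
    _ = _ := by rw [cfc_const l T, Algebra.algebraMap_eq_smul_one, Complex.coe_smul]

lemma Irr.schur (h : Irr π) {T : K →L[ℂ] K} (hT : ∀ a, T * π a = π a * T) :
    ∃ c : ℂ, T = c • 1 := by
  have hT' : ∀ a, star T * π a = π a * star T := fun a => by
    have := congrArg star (hT (star a))
    rw [star_mul, star_mul, ← map_star, star_star] at this
    exact this.symm
  obtain ⟨c, hc⟩ := h.schur_sa (T := T + star T) (IsSelfAdjoint.add_star_self T)
    fun a => by rw [add_mul, mul_add, hT, hT']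
  obtain ⟨d, hd⟩ := h.schur_sa (T := Complex.I • (T - star T))
    (by rw [IsSelfAdjoint, star_smul, star_sub, star_star, Complex.star_def, Complex.conj_I,
      neg_smul, ← smul_neg, neg_sub])
    fun a => by rw [smul_mul_assoc, mul_smul_comm, sub_mul, mul_sub, hT, hT']
  refine ⟨2⁻¹ * (c - Complex.I * d), ?_⟩
  rw [mul_smul, sub_smul, mul_smul, ← hc, ← hd, smul_smul, Complex.I_mul_I, neg_smul, one_smul,
    sub_neg_eq_add, add_add_sub_cancel, ← two_smul ℂ T, smul_smul]
  simp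

lemma Irr.two_vec (h : Irr π) {α β ξ η : K} (hξη : ⟪ξ, η⟫_ℂ = 0)
    (H : ∀ d, ⟪ξ, π d α⟫_ℂ + ⟪β, π d η⟫_ℂ = 0) : ⟪ξ, α⟫_ℂ = 0 := by
  let e := WithLp.prodContinuousLinearEquiv 2 ℂ K K
  let D : A → WithLp 2 (K × K) →L[ℂ] WithLp 2 (K × K) := fun a =>
    e.symm.toContinuousLinearMap.comp (((π a).prodMap (π a)).comp e.toContinuousLinearMap)
  have hD : ∀ a u v, D a (WithLp.toLp 2 (u, v)) = WithLp.toLp 2 (π a u, π a v) := fun _ _ _ => rfl
  have hDs : ∀ a x y, ⟪D a x, y⟫_ℂ = ⟪x, D (star a) y⟫_ℂ := by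
    rintro a ⟨u, v⟩ ⟨u', v'⟩
    rw [hD, hD, WithLp.prod_inner_apply, WithLp.prod_inner_apply, map_star]
    simp only [inner_star_right]
  let N0 : Submodule ℂ (WithLp 2 (K × K)) :=
    { carrier := {x | ∃ d, x = WithLp.toLp 2 (π d α, π d η)}
      zero_mem' := ⟨0, by rw [map_zero]; rfl⟩
      add_mem' := by
        rintro _ _ ⟨d, rfl⟩ ⟨d', rfl⟩
        exact ⟨d + d', by rw [map_add]; rfl⟩
      smul_mem' := by
        rintro c _ ⟨d, rfl⟩
        exact ⟨c • d, by rw [map_smul]; rfl⟩ }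
  let N := N0.topologicalClosure
  have hN : ∀ a, ∀ x ∈ N, D a x ∈ N := fun a x hx =>
    map_mem_closure (D a).continuous hx (by
      rintro _ ⟨d, rfl⟩
      exact ⟨a * d, by rw [hD, map_mul]; rfl⟩)
  let P := N.starProjection
  have hP : ∀ a x, P (D a x) = D a (P x) := fun a x =>
    N.eq_starProjection_of_mem_of_inner_eq_zero (hN a _ (N.starProjection_apply_mem x))
      fun w hw => by
        rw [← map_sub, hDs]
        exact N.starProjection_inner_eq_zero x _ (hN _ w hw)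
  let i1 : K →L[ℂ] WithLp 2 (K × K) := e.symm.toContinuousLinearMap.comp (.inl ℂ K K)
  let i2 : K →L[ℂ] WithLp 2 (K × K) := e.symm.toContinuousLinearMap.comp (.inr ℂ K K)
  let p1 : WithLp 2 (K × K) →L[ℂ] K := (ContinuousLinearMap.fst ℂ K K).comp e.toContinuousLinearMap
  let p2 : WithLp 2 (K × K) →L[ℂ] K := (ContinuousLinearMap.snd ℂ K K).comp e.toContinuousLinearMap
  have sc : ∀ (i : K →L[ℂ] WithLp 2 (K × K)) (p : WithLp 2 (K × K) →L[ℂ] K),
      (∀ a u, i (π a u) = D a (i u)) → (∀ a x, p (D a x) = π a (p x)) →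
      ∃ c : ℂ, ∀ u, p (P (i u)) = c • u := by
    intro i p hi hp
    obtain ⟨c, hc⟩ := h.schur (T := p.comp (P.comp i)) fun a => ContinuousLinearMap.ext fun u => by
      change p (P (i (π a u))) = π a (p (P (i u)))
      rw [hi, hP, hp]
    exact ⟨c, fun u => congrArg (fun T : K →L[ℂ] K => T u) hc⟩
  have hi1 : ∀ a u, i1 (π a u) = D a (i1 u) := fun a u => by
    change WithLp.toLp 2 (π a u, 0) = D a (WithLp.toLp 2 (u, 0))
    rw [hD, map_zero]
  have hi2 : ∀ a u, i2 (π a u) = D a (i2 u) := fun a u => by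
    change WithLp.toLp 2 (0, π a u) = D a (WithLp.toLp 2 (0, u))
    rw [hD, map_zero]
  obtain ⟨c11, h11⟩ := sc i1 p1 hi1 fun _ _ => rfl
  obtain ⟨c12, h12⟩ := sc i2 p1 hi2 fun _ _ => rfl
  obtain ⟨c21, h21⟩ := sc i1 p2 hi1 fun _ _ => rfl
  obtain ⟨c22, h22⟩ := sc i2 p2 hi2 fun _ _ => rfl
  have h1 : P (i1 α + i2 η) = i1 α + i2 η :=
    Submodule.starProjection_eq_self_iff.2 (N0.le_topologicalClosure ⟨1, by
      rw [map_one]
      change WithLp.toLp 2 ((α, 0) + (0, η)) = _
      simp⟩)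
  have h2 : c11 • α + c12 • η = α := by
    have := congrArg p1 h1
    rw [map_add, map_add, h11, h12] at this
    exact this.trans (add_zero α)
  have h3 : c21 • α + c22 • η = η := by
    have := congrArg p2 h1
    rw [map_add, map_add, h21, h22] at this
    exact this.trans (zero_add η)
  set t := ⟪ξ, α⟫_ℂ with ht
  have h4 : c11 * t = t := by
    have := congrArg (fun x => ⟪ξ, x⟫_ℂ) h2
    simpa [inner_add_right, inner_smul_right, hξη] using this
  have h5 : c21 * t = 0 := by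
    have := congrArg (fun x => ⟪ξ, x⟫_ℂ) h3
    simpa [inner_add_right, inner_smul_right, hξη] using this
  have h6 : ∀ x ∈ N, ⟪WithLp.toLp 2 (ξ, β), x⟫_ℂ = 0 := fun x hx =>
    closure_minimal (t := {x | ⟪WithLp.toLp 2 (ξ, β), x⟫_ℂ = 0}) (by
      rintro _ ⟨d, rfl⟩
      exact H d) (isClosed_eq (by fun_prop) continuous_const) hx
  have h7 := h6 _ (N.starProjection_apply_mem (i1 (t • α)))
  change ⟪ξ, p1 (P _)⟫_ℂ + ⟪β, p2 (P _)⟫_ℂ = 0 at h7
  rw [h11, h21, smul_smul, smul_smul, h4, h5, zero_smul, inner_zero_right, add_zero,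
    inner_smul_right] at h7
  exact mul_self_eq_zero.1 h7

lemma Irr.exists_c (h : Irr π) {ξ η : K} (hξη : ⟪ξ, η⟫_ℂ = 0) {δ : ℝ} (hδ : 0 < δ) :
    ∃ c, ‖ξ - π c ξ‖ ≤ δ ∧ ‖π (star c) η‖ ≤ δ := by
  let t : Set (K × K) := Set.range fun c => (π c ξ, π (star c) η)
  have hm : ((ξ, 0) : K × K) ∈ closure t := by
    by_contra hn
    have hc : Convex ℝ t := by
      rintro _ ⟨c, rfl⟩ _ ⟨d, rfl⟩ a b _ _ _
      refine ⟨(a : ℂ) • c + (b : ℂ) • d, ?_⟩
      simp only [map_add, map_smul, star_add, star_smul, Complex.star_def, Complex.conj_ofReal,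
        ContinuousLinearMap.add_apply, ContinuousLinearMap.smul_apply]
      simp only [Complex.coe_smul, Prod.smul_mk, Prod.mk_add_mk]
    obtain ⟨f, u, h1, h2⟩ := RCLike.geometric_hahn_banach_point_closed (𝕜 := ℂ) hc.closure
      isClosed_closure hn
    let α := (InnerProductSpace.toDual ℂ K).symm (f.comp (.inl ℂ K K))
    let β := (InnerProductSpace.toDual ℂ K).symm (f.comp (.inr ℂ K K))
    have hf : ∀ x y, f (x, y) = ⟪α, x⟫_ℂ + ⟪β, y⟫_ℂ := fun x y => by
      rw [InnerProductSpace.toDual_symm_apply, InnerProductSpace.toDual_symm_apply]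
      change _ = f (x, 0) + f (0, y)
      rw [← map_add]; simp
    let g : A → ℂ := fun d => ⟪ξ, π d α⟫_ℂ + ⟪β, π d η⟫_ℂ
    have hg : ∀ (c : ℂ) d, g (c • d) = c * g d := fun c d => by
      simp only [g, map_smul, ContinuousLinearMap.smul_apply, inner_smul_right, mul_add]
    have h3 : ∀ d, u < (g d).re := fun d => by
      have := h2 _ (subset_closure ⟨star d, rfl⟩)
      rw [hf, star_star, map_star, inner_star_right, ← inner_conj_symm] at this
      simpa only [g, RCLike.re_to_complex, Complex.add_re, Complex.conj_re] using this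
    have h4 : ∀ d, g d = 0 := fun d => by
      by_contra h5
      have := h3 ((u / g d) • d)
      rw [hg, div_mul_cancel₀ _ h5] at this
      simp at this
    have h5 := h.two_vec hξη h4
    have h6 := h3 0
    rw [h4] at h6
    rw [hf, inner_eq_zero_symm.1 h5] at h1
    simp at h1 h6
    linarith
  obtain ⟨_, ⟨c, rfl⟩, hc⟩ := Metric.mem_closure_iff.1 hm δ hδ
  rw [Prod.dist_eq, max_lt_iff, dist_eq_norm, dist_zero_left] at hc
  exact ⟨c, hc.1.le, hc.2.le⟩

end Vale.Agent.P070
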