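import Vale.Agent.P070.Step

/-! Peaks attached to irreducible representations, and unitary equivalence. -/

namespace Vale.Agent.P070
open Filter Topology
open scoped InnerProductSpace

variable {A : Type*} [CStarAlgebra A] {K : Type*} [NormedAddCommGroup K] [InnerProductSpace ℂ K]
  [CompleteSpace K] {π : A →⋆ₐ[ℂ] (K →L[ℂ] K)}

lemma pr_step {e w : A} (hs : star e = e) (he : e * e = e) (h1 : star w * w = 1) (h2 : e * w = w) :
    (e - w * star w) * (e - w * star w) = e - w * star w := by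
  have h3 : star w * e = star w := by simpa [hs] using congrArg star h2
  rw [sub_mul, mul_sub, mul_sub, he, ← mul_assoc e, h2, mul_assoc w, h3, mul_assoc w,
    ← mul_assoc (star w), h1, one_mul, sub_self, sub_zero]

lemma pr_idem {v : ℕ → A} {n : ℕ} (h : ∀ k < n, star (v k) * v k = 1 ∧ pr v k * v k = v k) :
    pr v n * pr v n = pr v n := by
  induction n with
  | zero => simp [pr]
  | succ n ih =>
    rw [pr_succ]
    exact pr_step (star_pr v n) (ih fun k hk => h k (by omega)) (h n (by omega)).1 (h n (by omega)).2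

lemma sys_of {v : ℕ → A} (h : ∀ k, star (v k) * v k = 1 ∧ pr v k * v k = v k) : Sys v := by
  have key : ∀ k n, k < n → star (v k) * pr v n = 0 := by
    intro k n hkn
    induction n, hkn using Nat.le_induction with
    | base =>
      have h3 : star (v k) * pr v k = star (v k) := by
        simpa [star_pr] using congrArg star (h k).2
      rw [pr_succ, mul_sub, h3, ← mul_assoc, (h k).1, one_mul, sub_self]
    | succ n _ ih => rw [pr_succ, mul_sub, ← (h n).2, mul_assoc, ← mul_assoc, ih]; simp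
  have k2 : ∀ k n, k < n → star (v k) * v n = 0 := fun k n hkn => by
    rw [← (h n).2, ← mul_assoc, key k n hkn, zero_mul]
  intro k l
  rcases lt_trichotomy k l with h1 | rfl | h1
  · rw [k2 k l h1, if_neg h1.ne]
  · rw [(h k).1, if_pos rfl]
  · rw [if_neg h1.ne']
    simpa using congrArg star (k2 l k h1)

lemma pr_congr {v v' : ℕ → A} {n : ℕ} (h : ∀ k < n, v k = v' k) : pr v n = pr v' n := by
  rw [pr, pr, Finset.sum_congr rfl fun k hk => by rw [h k (Finset.mem_range.1 hk)]]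

theorem Irr.seq (h : Irr π) (h1 : ∀ c : A, c ≠ 0 → ∃ y, star (c * y) * (c * y) = 1)
    {s : ℕ → A} (hs : Sys s) {ξ : K} (hξ : ξ ≠ 0) (d : ℕ → (ℕ → A) → A)
    (hd : ∀ n v v', (∀ k < n, v k = v' k) → d n v = d n v') :
    ∃ w : ℕ → A, Sys w ∧ (∃ η ≠ 0, ∀ n, π (pr w n) η = η) ∧
      ∀ n, ∃ c : ℂ, ‖pr w (n + 1) * (d n w - c • 1) * pr w (n + 1)‖ ≤ ‖ξ‖ / 2 ^ (n + 2) := by
  have hξ0 : 0 < ‖ξ‖ := norm_pos_iff.2 hξ
  let P : ℕ → (ℕ → A) → A → Prop := fun n v x => star x * x = 1 ∧ pr v n * x = x ∧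
    ‖π (star x) ξ‖ ≤ ‖ξ‖ / 2 ^ (n + 2) ∧ ∃ c : ℂ,
      ‖(pr v n - x * star x) * (d n v - c • 1) * (pr v n - x * star x)‖ ≤ ‖ξ‖ / 2 ^ (n + 2)
  have low : ∀ n v, (∀ k < n, P k v (v k)) → ‖ξ‖ / 2 + ‖ξ‖ / 2 ^ (n + 1) ≤ ‖π (pr v n) ξ‖ := by
    intro n v hv
    induction n with
    | zero => simp [pr]
    | succ n ih =>
      have h2 := ih fun k hk => hv k (by omega)
      obtain ⟨h3, -, h4, -⟩ := hv n (by omega)
      have h5 := pi_le π (norm_le_one_of_iso h3) (π (star (v n)) ξ)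
      rw [pr_succ, map_sub, ContinuousLinearMap.sub_apply, pi_mul]
      have h6 := norm_sub_norm_le (π (pr v n) ξ) (π (v n) (π (star (v n)) ξ))
      have h7 : ‖ξ‖ / 2 ^ (n + 1) = ‖ξ‖ / 2 ^ (n + 2) + ‖ξ‖ / 2 ^ (n + 2) := by
        field_simp; ring
      linarith
  obtain ⟨w, hw⟩ := exists_rec P (fun n v v' hv x hx => by
    simp only [P] at hx ⊢
    rwa [← pr_congr hv, ← hd n v v' hv]) (fun n v hv => by
    have h2 := pr_idem (v := v) (n := n) fun k hk => ⟨(hv k hk).1, (hv k hk).2.1⟩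
    have h3 := low n v hv
    have h4 : π (pr v n) ξ ≠ 0 := by
      rw [← norm_pos_iff]
      have : 0 < ‖ξ‖ / 2 + ‖ξ‖ / 2 ^ (n + 1) := by positivity
      linarith
    obtain ⟨x, h5, h6, h7, h8⟩ := h.step h1 hs (star_pr v n) h2 h4 (by rw [← pi_mul, h2]) (d n v)
      (ε := ‖ξ‖ / 2 ^ (n + 2)) (by positivity)
    refine ⟨x, h5, h6, ?_, h8⟩
    have h9 : star x * pr v n = star x := by simpa [star_pr] using congrArg star h6
    rwa [← pi_mul, h9] at h7)
  have hs' : Sys w := sys_of fun k => ⟨(hw k).1, (hw k).2.1⟩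
  obtain ⟨η, hη, hfix⟩ := exists_lim (e := fun n => π (pr w n))
    (fun n => by rw [← map_star, star_pr]) (fun h => by rw [← map_mul, hs'.pr_pr h]) ξ
  refine ⟨w, hs', ⟨η, ?_, hfix⟩, fun n => by rw [pr_succ]; exact (hw n).2.2.2⟩
  rw [← norm_pos_iff]
  have : ‖ξ‖ / 2 ≤ ‖η‖ := ge_of_tendsto' hη.norm fun n => by
    have h2 := low n w fun k _ => hw k
    have : 0 < ‖ξ‖ / 2 ^ (n + 1) := by positivity
    linarith
  linarith

lemma state_eq {e : ℕ → A} (he : Dec e) {ξ : K} (hfix : ∀ n, π (e n) ξ = ξ) {x : A} {c : ℂ}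
    (hx : Nul e e (x - c • 1)) : ⟪ξ, π x ξ⟫_ℂ = c * ⟪ξ, ξ⟫_ℂ := by
  have h3 : ∀ n, ⟪ξ, π (x - c • 1) ξ⟫_ℂ = ⟪ξ, π (e n * (x - c • 1) * e n) ξ⟫_ℂ := fun n => by
    rw [pi_mul, pi_mul, hfix, ← he.sa n, map_star, inner_star_right, hfix]
  have h4 : ‖⟪ξ, π (x - c • 1) ξ⟫_ℂ‖ ≤ 0 := by
    have t := (hx.mul_const ‖ξ‖).const_mul ‖ξ‖
    simp only [zero_mul, mul_zero] at t
    refine ge_of_tendsto' t fun n => ?_
    rw [h3 n]
    exact (norm_inner_le_norm _ _).trans (by gcongr; exact pi_le π le_rfl ξ)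
  have := norm_le_zero_iff.1 h4
  rwa [map_sub, map_smul, map_one, ContinuousLinearMap.sub_apply, inner_sub_right,
    ContinuousLinearMap.smul_apply, inner_smul_right, ContinuousLinearMap.one_apply,
    sub_eq_zero] at this

lemma exists_fixed {e e' : ℕ → A} (he : Dec e) (he' : Peak ⊤ e') (hq : Eqv ⊤ e e') {ξ : K}
    (hξ : ξ ≠ 0) (hfix : ∀ n, π (e' n) ξ = ξ) : ∃ η ≠ 0, ∀ n, π (e n) η = η := by
  obtain ⟨v, -, hv⟩ := hq
  rw [nul_iff_exists he he'.toDec] at hv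
  push Not at hv
  obtain ⟨δ, hδ, hv⟩ := hv
  obtain ⟨η, hη, hf⟩ := exists_lim (e := fun n => π (e n))
    (fun n => by rw [← map_star, he.sa]) (fun h => by rw [← map_mul, he.mul h]) (π v ξ)
  refine ⟨η, ?_, hf⟩
  have hξ0 : 0 < ‖ξ‖ := norm_pos_iff.2 hξ
  rw [← norm_pos_iff]
  refine lt_of_lt_of_le (mul_pos hδ hξ0) (ge_of_tendsto' hη.norm fun n => ?_)
  have h1 := state_eq he'.toDec hfix (he'.sq (y := e n * v) trivial)
  rw [map_mul, map_star, inner_star_mul, inner_self_eq_norm_sq_to_K] at h1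
  have h2 : ‖π (e n * v) ξ‖ ^ 2 = rho e' (e n * v) ^ 2 * ‖ξ‖ ^ 2 := by
    apply Complex.ofReal_injective
    rw [h1]
    simp
  have h3 : δ ≤ rho e' (e n * v) := le_ciInf fun m => (hv n m).le
  rw [← pi_mul]
  refine abs_le_of_sq_le_sq' ?_ (norm_nonneg _) |>.2
  rw [h2, mul_pow]
  gcongr

/-- The orbit map of a vector. -/
noncomputable def orb (π : A →⋆ₐ[ℂ] (K →L[ℂ] K)) (ξ : K) : A →ₗ[ℂ] K where
  toFun a := π a ξ
  map_add' a b := by rw [map_add]; rfl
  map_smul' c a := by rw [map_smul]; rfl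

lemma Irr.dense (h : Irr π) {ξ : K} (hξ : ξ ≠ 0) : DenseRange (orb π ξ) := by
  rcases h (orb π ξ).range.topologicalClosure (Submodule.isClosed_topologicalClosure _)
    (fun a η hη => map_mem_closure (π a).continuous hη (by
      rintro _ ⟨b, rfl⟩
      exact ⟨a * b, pi_mul π a b ξ⟩)) with h1 | h1
  · have : ξ ∈ (orb π ξ).range.topologicalClosure :=
      Submodule.le_topologicalClosure _ ⟨1, by change π 1 ξ = ξ; rw [map_one]; rfl⟩
    rw [h1] at this
    exact absurd this hξ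
  · exact Submodule.dense_iff_topologicalClosure_eq_top.2 h1

theorem Irr.equiv {K' : Type*} [NormedAddCommGroup K'] [InnerProductSpace ℂ K'] [CompleteSpace K']
    {π' : A →⋆ₐ[ℂ] (K' →L[ℂ] K')} (h : Irr π) (h' : Irr π') {e : ℕ → A} (he : Peak ⊤ e)
    {ξ : K} (hξ : ξ ≠ 0) (hfix : ∀ n, π (e n) ξ = ξ) {η : K'} (hη : η ≠ 0)
    (hfix' : ∀ n, π' (e n) η = η) : ∃ U : K ≃ₗᵢ[ℂ] K', ∀ a x, U (π a x) = π' a (U x) := by
  have n1 : ‖ξ‖ ≠ 0 := norm_ne_zero_iff.2 hξ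
  have n2 : ‖η‖ ≠ 0 := norm_ne_zero_iff.2 hη
  set η' : K' := ((‖ξ‖ / ‖η‖ : ℝ) : ℂ) • η with hη'
  have n3 : ‖η'‖ = ‖ξ‖ := by
    rw [hη', norm_smul, Complex.norm_real, Real.norm_of_nonneg (by positivity)]
    field_simp
  have n4 : η' ≠ 0 := by rw [← norm_ne_zero_iff, n3]; exact n1
  have f' : ∀ n, π' (e n) η' = η' := fun n => by rw [hη', map_smul, hfix']
  have hn : ∀ a, ‖orb π' η' (LinearEquiv.refl ℂ A a)‖ = ‖orb π ξ a‖ := by
    intro a
    obtain ⟨c, hc⟩ := he.sc (star a * a) trivial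
    have h1 := state_eq he.toDec hfix hc
    have h2 := state_eq he.toDec f' hc
    rw [map_mul, map_star, inner_star_mul, inner_self_eq_norm_sq_to_K] at h1 h2
    rw [n3, ← h1] at h2
    have h3 : ‖π' a η'‖ ^ 2 = ‖π a ξ‖ ^ 2 := by exact_mod_cast h2
    exact (pow_left_inj₀ (norm_nonneg _) (norm_nonneg _) two_ne_zero).1 h3
  let U := (LinearEquiv.refl ℂ A).extendOfIsometry (orb π ξ) (orb π' η') (h.dense hξ)
    (h'.dense n4) hn
  have hU : ∀ a, U (π a ξ) = π' a η' := fun a =>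
    LinearEquiv.extendOfIsometry_eq _ _ _ _ _ hn a
  refine ⟨U, fun a x => ?_⟩
  refine (h.dense hξ).induction_on x (isClosed_eq (by fun_prop) (by fun_prop)) fun b => ?_
  change U (π a (π b ξ)) = π' a (U (π b ξ))
  rw [← pi_mul, hU, hU, pi_mul]

end Vale.Agent.P070
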