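import Vale.Agent.P070.Schur
import Vale.Agent.P070.Book

/-! Excising a pure state by a system of isometries. -/

namespace Vale.Agent.P070
open Filter Topology
open scoped InnerProductSpace

variable {A : Type*} [CStarAlgebra A] {K : Type*} [NormedAddCommGroup K] [InnerProductSpace ℂ K]
  [CompleteSpace K] {π : A →⋆ₐ[ℂ] (K →L[ℂ] K)}

lemma pi_le (π : A →⋆ₐ[ℂ] (K →L[ℂ] K)) {x : A} {C : ℝ} (h : ‖x‖ ≤ C) (ξ : K) :
    ‖π x ξ‖ ≤ C * ‖ξ‖ :=
  (π x).le_of_opNorm_le ((NonUnitalStarAlgHom.norm_apply_le π x).trans h) ξ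

lemma pi_mul (π : A →⋆ₐ[ℂ] (K →L[ℂ] K)) (x y : A) (ξ : K) : π (x * y) ξ = π x (π y ξ) := by
  rw [map_mul]; rfl

lemma exists_fns {σ : ℝ} (hσ : 0 < σ) : ∃ kf rf gf : ℝ → ℝ, Continuous kf ∧ Continuous rf ∧
    Continuous gf ∧ (∀ u, |kf u| ≤ 1) ∧ (∀ u, |rf u| ≤ 1) ∧ (∀ u, |gf u| ≤ σ⁻¹) ∧
    (∀ u, kf u * kf u + rf u * rf u = 1) ∧ (∀ u, kf u * (1 - gf u * u) = 0) ∧
    ∀ u, 2 * σ ≤ u → rf u = 0 := by
  obtain ⟨κ, hκ⟩ : ∃ κ : ℝ → ℝ, κ = fun u => max 0 (min 1 (u / σ - 1)) := ⟨_, rfl⟩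
  have hc : Continuous κ := by rw [hκ]; fun_prop
  have κ0 : ∀ u, 0 ≤ κ u := fun u => by rw [hκ]; exact le_max_left _ _
  have κ1 : ∀ u, κ u ≤ 1 := fun u => by rw [hκ]; exact max_le zero_le_one (min_le_left _ _)
  refine ⟨fun u => √(κ u), fun u => √(1 - κ u), fun u => (max u σ)⁻¹, by fun_prop, by fun_prop,
    Continuous.inv₀ (by fun_prop) fun u => (hσ.trans_le (le_max_right _ _)).ne', fun u => ?_,
    fun u => ?_, fun u => ?_, fun u => ?_, fun u => ?_, fun u h2 => ?_⟩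
  · rw [abs_of_nonneg (Real.sqrt_nonneg _)]; exact Real.sqrt_le_one.2 (κ1 u)
  · rw [abs_of_nonneg (Real.sqrt_nonneg _)]; exact Real.sqrt_le_one.2 (by linarith [κ0 u])
  · rw [abs_of_nonneg (inv_nonneg.2 (hσ.le.trans (le_max_right _ _)))]
    exact inv_anti₀ hσ (le_max_right _ _)
  · beta_reduce
    rw [Real.mul_self_sqrt (κ0 u), Real.mul_self_sqrt (by linarith [κ1 u])]
    ring
  · beta_reduce
    rcases le_total u σ with h2 | h2
    · have h3 : u / σ - 1 ≤ 0 := by rw [sub_nonpos, div_le_one hσ]; exact h2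
      have : κ u = 0 := by rw [hκ]; exact max_eq_left ((min_le_right _ _).trans h3)
      rw [this, Real.sqrt_zero, zero_mul]
    · rw [max_eq_left h2, inv_mul_cancel₀ (hσ.trans_le h2).ne', sub_self, mul_zero]
  · have h3 : 1 ≤ u / σ - 1 := by
      rw [le_sub_iff_add_le, le_div_iff₀ hσ]; linarith
    have : κ u = 1 := by rw [hκ]; beta_reduce; rw [min_eq_left h3, max_eq_right zero_le_one]
    beta_reduce
    rw [this, sub_self, Real.sqrt_zero]

lemma exists_split [PartialOrder A] [StarOrderedRing A] {q : A} (hq : 0 ≤ q) {σ : ℝ}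
    (hσ : 0 < σ) : ∃ k r g : A, star k = k ∧ star r = r ∧ k * k + r * r = 1 ∧
      k * (1 - g * q) = 0 ∧ ‖k‖ ≤ 1 ∧ ‖r‖ ≤ 1 ∧ ‖g‖ ≤ σ⁻¹ ∧ ‖q * (r * r)‖ ≤ 2 * σ ∧
      ‖q * (k * r)‖ ≤ 2 * σ := by
  have hs : IsSelfAdjoint q := hq.isSelfAdjoint
  obtain ⟨kf, rf, gf, hk, hr, hg, k1, r1, g1, e1, e2, e3⟩ := exists_fns hσ
  have bd : ∀ f : ℝ → ℝ, Continuous f → (∀ u, |f u| ≤ 1) →
      ‖q * (cfc f q * cfc rf q)‖ ≤ 2 * σ := by
    intro f hf h1
    have : q * (cfc f q * cfc rf q) = cfc (fun u => u * (f u * rf u)) q := by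
      rw [cfc_mul (fun u => u) _ q, cfc_mul f rf q, cfc_id' ℝ q]
    rw [this]
    refine norm_cfc_le (by linarith) fun u hu => ?_
    have hu0 : 0 ≤ u := spectrum_nonneg_of_nonneg hq hu
    rcases le_total u (2 * σ) with h2 | h2
    · rw [Real.norm_eq_abs, abs_mul, abs_mul, abs_of_nonneg hu0]
      have := mul_le_mul (h1 u) (r1 u) (abs_nonneg _) zero_le_one
      nlinarith [abs_nonneg (f u), abs_nonneg (rf u)]
    · rw [e3 u h2]; simp; linarith
  refine ⟨cfc kf q, cfc rf q, cfc gf q, IsSelfAdjoint.cfc, IsSelfAdjoint.cfc, ?_, ?_,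
    norm_cfc_le zero_le_one fun u _ => k1 u, norm_cfc_le zero_le_one fun u _ => r1 u,
    norm_cfc_le (by positivity) fun u _ => g1 u, bd rf hr r1, bd kf hk k1⟩
  · have : cfc kf q * cfc kf q + cfc rf q * cfc rf q =
        cfc (fun u => kf u * kf u + rf u * rf u) q := by
      rw [cfc_add q (fun u => kf u * kf u) _, cfc_mul kf kf q, cfc_mul rf rf q]
    rw [this, ← cfc_const_one ℝ q]
    exact cfc_congr fun u _ => e1 u
  · have : cfc kf q * (1 - cfc gf q * q) = cfc (fun u => kf u * (1 - gf u * u)) q := by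
      rw [cfc_mul kf _ q, cfc_sub _ _ q, cfc_mul gf (fun u => u) q, cfc_id' ℝ q, cfc_const_one ℝ q]
    rw [this, ← cfc_const_zero ℝ q]
    exact cfc_congr fun u _ => e2 u

lemma norm_le_of_sq [PartialOrder A] [StarOrderedRing A] {x y z : A}
    (h : star x * x + star y * y = star z * z) : ‖x‖ ≤ ‖z‖ := by
  have h1 := CStarAlgebra.norm_le_norm_of_nonneg_of_le (star_mul_self_nonneg x)
    (le_add_of_nonneg_right (star_mul_self_nonneg y))
  rw [h, CStarRing.norm_star_mul_self, CStarRing.norm_star_mul_self] at h1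
  exact abs_le_of_sq_le_sq' (by nlinarith) (norm_nonneg _) |>.2

lemma exists_small (π : A →⋆ₐ[ℂ] (K →L[ℂ] K)) {s : ℕ → A} (hs : Sys s) (ζ : K) {ε : ℝ}
    (hε : 0 < ε) : ∃ j, ‖π (star (s j)) ζ‖ ≤ ε := by
  obtain ⟨η, hη, -⟩ := exists_lim (e := fun n => π (pr s n))
    (fun n => by rw [← map_star, star_pr]) (fun h => by rw [← map_mul, hs.pr_pr h]) ζ
  have h1 := (hη.sub (hη.comp (tendsto_add_atTop_nat 1))).norm
  rw [sub_self, norm_zero] at h1
  obtain ⟨j, hj⟩ := (h1.eventually (ge_mem_nhds hε)).exists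
  refine ⟨j, le_trans ?_ hj⟩
  have h2 : star (s j) = star (s j) * (pr s j - pr s (j + 1)) := by
    rw [pr_succ, sub_sub_cancel, ← mul_assoc, hs.self, one_mul]
  rw [h2, pi_mul, map_sub]
  have := pi_le π ((norm_star (s j)).le.trans (norm_le_one_of_iso (hs.self j)))
    ((π (pr s j) - π (pr s (j + 1))) ζ)
  rwa [one_mul] at this

theorem Irr.step (h : Irr π) (h1 : ∀ c : A, c ≠ 0 → ∃ y, star (c * y) * (c * y) = 1)
    {s : ℕ → A} (hs : Sys s) {e : A} (hsa : star e = e) (hee : e * e = e) {ξ : K} (hξ : ξ ≠ 0)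
    (hfix : π e ξ = ξ) (x : A) {ε : ℝ} (hε : 0 < ε) :
    ∃ w, star w * w = 1 ∧ e * w = w ∧ ‖π (star w) ξ‖ ≤ ε ∧
      ∃ c : ℂ, ‖(e - w * star w) * (x - c • 1) * (e - w * star w)‖ ≤ ε := by
  let _ := CStarAlgebra.spectralOrder A
  have := CStarAlgebra.spectralOrderedRing A
  have hξ0 : 0 < ‖ξ‖ := norm_pos_iff.2 hξ
  have hen : ‖e‖ ≤ 1 := norm_le_one_of_proj hsa hee
  obtain ⟨c, hc⟩ : ∃ c : ℂ, ⟪ξ, π (star (e * (x - c • 1) * e)) ξ⟫_ℂ = 0 := by
    refine ⟨⟪ξ, π x ξ⟫_ℂ / ⟪ξ, ξ⟫_ℂ, ?_⟩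
    rw [map_star, inner_star_right, inner_eq_zero_symm, pi_mul, pi_mul, hfix, ← hsa, map_star,
      inner_star_right, hfix, map_sub, map_smul, map_one, ContinuousLinearMap.sub_apply,
      inner_sub_right, ContinuousLinearMap.smul_apply, inner_smul_right,
      ContinuousLinearMap.one_apply, div_mul_cancel₀ _ (inner_self_ne_zero.2 hξ), sub_self]
  generalize hy : e * (x - c • 1) * e = y at hc
  obtain ⟨σ, hσ⟩ : ∃ σ, σ = ε / 8 := ⟨_, rfl⟩
  have hσ0 : 0 < σ := by rw [hσ]; positivity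
  obtain ⟨m, hm0, hm1, hm2⟩ : ∃ m, 0 < m ∧ m ≤ ε / 2 ∧ m ≤ ‖ξ‖ / 2 :=
    ⟨_, lt_min (by linarith) (by linarith), min_le_left _ _, min_le_right _ _⟩
  obtain ⟨d, hd1, hd2⟩ := h.exists_c hc (δ := σ * m / (‖y‖ + 1)) (by positivity)
  obtain ⟨L1, hL1⟩ : ∃ L, L = y * (1 - d) * e := ⟨_, rfl⟩
  obtain ⟨L2, hL2⟩ : ∃ L, L = star d * star y * e := ⟨_, rfl⟩
  have hh : 0 ≤ star L1 * L1 + star L2 * L2 :=
    add_nonneg (star_mul_self_nonneg _) (star_mul_self_nonneg _)
  obtain ⟨q, hq0, hq⟩ : ∃ q, 0 ≤ q ∧ q * q = star L1 * L1 + star L2 * L2 :=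
    ⟨_, CFC.sqrt_nonneg _, CFC.sqrt_mul_sqrt_self _ hh⟩
  have hqs : star q = q := hq0.isSelfAdjoint
  have hqq : ∀ z, star (L1 * z) * (L1 * z) + star (L2 * z) * (L2 * z) = star (q * z) * (q * z) := by
    intro z
    rw [star_mul q, hqs, mul_assoc (star z), ← mul_assoc q, hq, star_mul, star_mul]
    noncomm_ring
  have hqe : q * e = q := by
    have h2 := hqq (1 - e)
    have h3 : e * (1 - e) = 0 := by rw [mul_sub, mul_one, hee, sub_self]
    rw [show L1 * (1 - e) = 0 by rw [hL1, mul_assoc, h3, mul_zero],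
      show L2 * (1 - e) = 0 by rw [hL2, mul_assoc, h3, mul_zero], mul_zero, add_zero] at h2
    have := (CStarRing.star_mul_self_eq_zero_iff _).1 h2.symm
    rwa [mul_sub, mul_one, sub_eq_zero, eq_comm] at this
  have hqξ : ‖π q ξ‖ ≤ σ * m := by
    have h2 := congrArg (fun z => ⟪ξ, π z ξ⟫_ℂ) (hqq 1)
    simp only [mul_one, map_add, map_mul π (star _), map_star, ContinuousLinearMap.add_apply,
      inner_add_right, inner_star_mul] at h2
    have h3 : ‖π L1 ξ‖ ^ 2 + ‖π L2 ξ‖ ^ 2 = ‖π q ξ‖ ^ 2 := by exact_mod_cast h2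
    have h4 : ‖π L1 ξ‖ ≤ ‖y‖ * (σ * m / (‖y‖ + 1)) := by
      rw [hL1, pi_mul, pi_mul, hfix, map_sub, map_one]
      exact (pi_le π le_rfl _).trans (by gcongr; exact hd1)
    have h5 : ‖π L2 ξ‖ ≤ σ * m / (‖y‖ + 1) := by
      rw [hL2, pi_mul, pi_mul, hfix]; exact hd2
    have h6 : σ * m = (‖y‖ + 1) * (σ * m / (‖y‖ + 1)) := by field_simp
    have h7 : 0 < σ * m / (‖y‖ + 1) := by positivity
    refine abs_le_of_sq_le_sq' ?_ (by positivity) |>.2
    rw [← h3, h6]
    generalize σ * m / (‖y‖ + 1) = δ at h4 h5 h7 ⊢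
    have h8 := pow_le_pow_left₀ (norm_nonneg _) h4 2
    have h9 := pow_le_pow_left₀ (norm_nonneg _) h5 2
    nlinarith [mul_nonneg (norm_nonneg y) (sq_nonneg δ)]
  obtain ⟨k, r, g, hk, hr, hkr, hkg, nk, nr, ng, n1, n2⟩ := exists_split hq0 hσ0
  have hgq : ‖π (g * q) ξ‖ ≤ m := by
    rw [pi_mul]
    refine (pi_le π ng _).trans ?_
    calc σ⁻¹ * ‖π q ξ‖ ≤ σ⁻¹ * (σ * m) := by gcongr
      _ = m := by field_simp
  have hk' : k = k * (g * q) := by rwa [mul_sub, mul_one, sub_eq_zero] at hkg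
  have hke : k * e = k := by rw [hk', mul_assoc, mul_assoc, hqe]
  have hek : e * k = k := by simpa [hsa, hk] using congrArg star hke
  obtain ⟨y0, hy0⟩ := h1 (e * (1 - g * q)) fun h0 => by
    have h2 : π (e * (1 - g * q)) ξ = ξ - π e (π (g * q) ξ) := by
      rw [mul_sub, mul_one, map_sub, ContinuousLinearMap.sub_apply, hfix, pi_mul]
    rw [h0, map_zero, ContinuousLinearMap.zero_apply, eq_comm, sub_eq_zero] at h2
    have h3 := pi_le π hen (π (g * q) ξ)
    rw [← h2] at h3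
    linarith
  obtain ⟨j, hj⟩ := exists_small π hs (π (star (e * (1 - g * q) * y0)) ξ) (half_pos hε)
  rw [← pi_mul, ← star_mul] at hj
  generalize ht : e * (1 - g * q) * y0 * s j = t at hj
  replace ht := ht.symm
  have htt : star t * t = 1 := by
    rw [ht, star_mul, mul_assoc, ← mul_assoc (star _) _ (s j), hy0, one_mul, hs.self]
  have hkt : k * t = 0 := by
    rw [ht, ← mul_assoc, ← mul_assoc, ← mul_assoc, hke, hkg, zero_mul, zero_mul]
  have htk : star t * k = 0 := by simpa [hk] using congrArg star hkt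
  have het : e * t = t := by rw [ht, ← mul_assoc, ← mul_assoc, ← mul_assoc, hee]
  have hsw : star (k + t * r) = k + r * star t := by rw [star_add, star_mul, hk, hr]
  have hww : star (k + t * r) * (k + t * r) = 1 := by
    rw [hsw]
    calc _ = k * k + (k * t) * r + r * (star t * k) + r * (star t * t) * r := by noncomm_ring
      _ = 1 := by rw [hkt, htk, htt, zero_mul, mul_zero, add_zero, add_zero, mul_one, hkr]
  have hew : e * (k + t * r) = k + t * r := by rw [mul_add, hek, ← mul_assoc, het]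
  refine ⟨k + t * r, hww, hew, ?_, c, ?_⟩
  · rw [hsw, map_add, ContinuousLinearMap.add_apply]
    refine (norm_add_le _ _).trans ?_
    have h2 : ‖π k ξ‖ ≤ 1 * m := by
      rw [hk', pi_mul]; exact (pi_le π nk _).trans (by gcongr)
    have h3 : ‖π (r * star t) ξ‖ ≤ 1 * (ε / 2) := by
      rw [pi_mul]; exact (pi_le π nr _).trans (by gcongr)
    linarith
  · generalize k + t * r = w at hsw hww hew
    obtain ⟨e', he'⟩ : ∃ e', e' = e - w * star w := ⟨_, rfl⟩
    rw [← he']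
    have hwe : star w * e = star w := by simpa [hsa] using congrArg star hew
    have s1 : star e' = e' := by rw [he', star_sub, star_mul, star_star, hsa]
    have s2 : star w * e' = 0 := by rw [he', mul_sub, hwe, ← mul_assoc, hww, one_mul, sub_self]
    have s3 : e * e' = e' := by rw [he', mul_sub, hee, ← mul_assoc, hew]
    have s4 : e' * e = e' := by simpa [hsa, s1] using congrArg star s3
    have s5 : e' * e' = e' := by
      conv_lhs => rw [he', sub_mul, ← he', s3, mul_assoc, s2, mul_zero, sub_zero]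
    have s6 : ‖e'‖ ≤ 1 := norm_le_one_of_proj s1 s5
    have s7 : ‖q * e'‖ ≤ 4 * σ := by
      have h2 : k * e' = -(r * star t * e') := by
        rw [hsw, add_mul] at s2; exact eq_neg_of_add_eq_zero_left s2
      have h3 : q * e' = q * (r * r) * e' - q * (k * r) * star t * e' := by
        calc q * e' = q * (k * k + r * r) * e' := by rw [hkr, mul_one]
          _ = q * k * (k * e') + q * (r * r) * e' := by noncomm_ring
          _ = _ := by rw [h2]; noncomm_ring
      rw [h3]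
      have h4 := (norm_mul_le _ _).trans (mul_le_mul n1 s6 (norm_nonneg _) (by linarith))
      have h5 := norm_mul3_le n2 ((norm_star t).le.trans (norm_le_one_of_iso htt)) s6
      linarith [norm_sub_le (q * (r * r) * e') (q * (k * r) * star t * e')]
    have s8 : e' * (x - c • 1) * e' = e' * (L1 * e') + star (L2 * e') * e' := by
      rw [hL1, hL2, mul_assoc _ e e', mul_assoc _ e e', s3, star_mul, star_mul, star_star,
        star_star, s1]
      calc _ = (e' * e) * (x - c • 1) * (e * e') := by rw [s3, s4]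
        _ = e' * y * e' := by rw [← hy]; noncomm_ring
        _ = _ := by noncomm_ring
    rw [s8]
    have b1 := (norm_le_of_sq (hqq e')).trans s7
    have b2 := (norm_le_of_sq ((add_comm _ _).trans (hqq e'))).trans s7
    have b3 := (norm_mul_le _ _).trans (mul_le_mul s6 b1 (norm_nonneg _) zero_le_one)
    have b4 := (norm_mul_le _ _).trans (mul_le_mul ((norm_star _).le.trans b2) s6 (norm_nonneg _)
      (by linarith))
    linarith [norm_add_le (e' * (L1 * e')) (star (L2 * e') * e')]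

end Vale.Agent.P070
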