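import Vale.Agent.P070.HNN2
import Vale.Agent.P070.L2

/-! Systems of isometries with orthogonal ranges, and strong sums along them. -/

namespace Vale.Agent.P070
open Filter Topology
open scoped InnerProductSpace

section
variable {E : Type*} [CStarAlgebra E]

/-- Isometries with orthogonal ranges. -/
def Sys (w : ℕ → E) : Prop := ∀ k l, star (w k) * w l = if k = l then 1 else 0

/-- The complementary projections of a system. -/
def pr (w : ℕ → E) (n : ℕ) : E := 1 - ∑ k ∈ Finset.range n, w k * star (w k)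

lemma pr_succ (w : ℕ → E) (n : ℕ) : pr w (n + 1) = pr w n - w n * star (w n) := by
  rw [pr, pr, Finset.sum_range_succ]; abel

lemma star_pr (w : ℕ → E) (n : ℕ) : star (pr w n) = pr w n := by
  simp [pr, star_sum]

lemma pr_mem {B : StarSubalgebra ℂ E} {w : ℕ → E} (h : ∀ k, w k ∈ B) (n : ℕ) : pr w n ∈ B :=
  sub_mem B.one_mem (sum_mem fun k _ => mul_mem (h k) (star_mem (h k)))

lemma Sys.self {w : ℕ → E} (h : Sys w) (k : ℕ) : star (w k) * w k = 1 := by simpa using h k k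

lemma Sys.pr_mul {w : ℕ → E} (h : Sys w) (n k : ℕ) : pr w n * w k = if k < n then 0 else w k := by
  rw [pr, sub_mul, one_mul, Finset.sum_mul]
  simp only [mul_assoc, h _ k, mul_ite, mul_one, mul_zero, Finset.sum_ite_eq', Finset.mem_range]
  split_ifs <;> simp

lemma Sys.mul_pr {w : ℕ → E} (h : Sys w) (n k : ℕ) :
    star (w k) * pr w n = if k < n then 0 else star (w k) := by
  have := congrArg star (h.pr_mul n k)
  rw [star_mul, star_pr] at this
  rw [this]; split_ifs <;> simp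

lemma Sys.pr_pr {w : ℕ → E} (h : Sys w) {n m : ℕ} (hnm : n ≤ m) : pr w n * pr w m = pr w m := by
  conv_lhs => rw [pr, sub_mul, one_mul, Finset.sum_mul]
  rw [sub_eq_self]
  refine Finset.sum_eq_zero fun k hk => ?_
  rw [mul_assoc, h.mul_pr, if_pos (by have := Finset.mem_range.1 hk; omega), mul_zero]

lemma Sys.dec [Nontrivial E] {w : ℕ → E} (h : Sys w) : Dec (pr w) := by
  refine ⟨star_pr w, h.pr_pr, fun n hn => ?_⟩
  have h1 := h.pr_mul n n
  rw [hn, zero_mul, if_neg (lt_irrefl n)] at h1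
  have h2 := h.self n
  rw [← h1, mul_zero] at h2
  exact zero_ne_one h2

lemma norm_le_one_of_iso {w : E} (h : star w * w = 1) : ‖w‖ ≤ 1 := by
  have h1 := CStarRing.norm_star_mul_self (x := w)
  rw [h] at h1
  have h2 : ‖(1 : E)‖ ≤ 1 := by
    rcases subsingleton_or_nontrivial E with h | h
    · simp [Subsingleton.elim (1 : E) 0]
    · simp
  nlinarith [norm_nonneg w]

lemma norm_le_one_of_proj {p : E} (h1 : star p = p) (h2 : p * p = p) : ‖p‖ ≤ 1 := by
  have h3 := CStarRing.norm_star_mul_self (x := p)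
  rw [h1, h2] at h3
  nlinarith [norm_nonneg p]

end

variable {H : Type*} [NormedAddCommGroup H] [InnerProductSpace ℂ H] [CompleteSpace H]

lemma inner_star_right (T : H →L[ℂ] H) (x y : H) : ⟪x, star T y⟫_ℂ = ⟪T x, y⟫_ℂ := by
  rw [ContinuousLinearMap.star_eq_adjoint, ContinuousLinearMap.adjoint_inner_right]

lemma inner_star_left (T : H →L[ℂ] H) (x y : H) : ⟪star T x, y⟫_ℂ = ⟪x, T y⟫_ℂ := by
  rw [ContinuousLinearMap.star_eq_adjoint, ContinuousLinearMap.adjoint_inner_left]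

lemma inner_star_mul (T : H →L[ℂ] H) (x : H) : ⟪x, (star T * T) x⟫_ℂ = ((‖T x‖ ^ 2 : ℝ) : ℂ) := by
  rw [ContinuousLinearMap.mul_apply, inner_star_right, inner_self_eq_norm_sq_to_K]
  simp

lemma norm_sq_proj {p : H →L[ℂ] H} (h1 : star p = p) (h2 : p * p = p) (x : H) :
    ‖x - p x‖ ^ 2 = ‖x‖ ^ 2 - ‖p x‖ ^ 2 := by
  have h3 : ⟪p x, x - p x⟫_ℂ = 0 := by
    rw [← inner_star_right, h1, map_sub, ← ContinuousLinearMap.mul_apply, h2, sub_self,
      inner_zero_right]
  have h4 := norm_add_sq_eq_norm_sq_add_norm_sq_of_inner_eq_zero _ _ h3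
  rw [add_sub_cancel] at h4
  nlinarith

/-- A decreasing sequence of projections converges strongly. -/
lemma exists_lim {e : ℕ → H →L[ℂ] H} (hs : ∀ n, star (e n) = e n)
    (hm : ∀ {n m}, n ≤ m → e n * e m = e m) (ξ : H) :
    ∃ η, Tendsto (fun n => e n ξ) atTop (𝓝 η) ∧ ∀ n, e n η = η := by
  have hm' : ∀ {n m}, n ≤ m → e m * e n = e m := fun h => by
    have := congrArg star (hm h)
    rwa [star_mul, hs, hs] at this
  have key : ∀ {n m}, n ≤ m → ‖e n ξ - e m ξ‖ ^ 2 = ‖e n ξ‖ ^ 2 - ‖e m ξ‖ ^ 2 := by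
    intro n m h
    have := norm_sq_proj (hs m) (hm le_rfl) (e n ξ)
    rwa [← ContinuousLinearMap.mul_apply, hm' h] at this
  have anti : Antitone fun n => ‖e n ξ‖ ^ 2 := fun n m h => by
    have := key h
    nlinarith [sq_nonneg ‖e n ξ - e m ξ‖]
  have bdd : BddBelow (Set.range fun n => ‖e n ξ‖ ^ 2) :=
    ⟨0, by rintro _ ⟨n, rfl⟩; exact sq_nonneg _⟩
  have hl := tendsto_atTop_ciInf anti bdd
  have hc : CauchySeq fun n => e n ξ := by
    refine cauchySeq_of_le_tendsto_0' (fun n => √(‖e n ξ‖ ^ 2 - ⨅ k, ‖e k ξ‖ ^ 2))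
      (fun n m h => ?_) ?_
    · rw [dist_eq_norm]
      refine Real.le_sqrt_of_sq_le ?_
      rw [key h]
      have := ciInf_le bdd m
      linarith
    · have := (hl.sub_const (⨅ k, ‖e k ξ‖ ^ 2)).sqrt
      simpa using this
  obtain ⟨η, hη⟩ := cauchySeq_tendsto_of_complete hc
  refine ⟨η, hη, fun n => tendsto_nhds_unique (((e n).continuous.tendsto η).comp hη) ?_⟩
  refine hη.congr' ?_
  filter_upwards [eventually_ge_atTop n] with m h
  simp only [Function.comp_apply]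
  rw [← ContinuousLinearMap.mul_apply, hm h]

lemma exists_osum {w w' y : ℕ → H →L[ℂ] H} (hw : Sys w) (hw' : Sys w') (hy : ∀ k, ‖y k‖ ≤ 1) :
    ∃ T : H →L[ℂ] H, ∀ k, T * w k = w' k * y k := by
  classical
  have F : ∀ {w : ℕ → H →L[ℂ] H}, Sys w → ∃ Φ : lp (fun _ : ℕ => H) 2 →ₗᵢ[ℂ] H,
      ∀ k ξ, Φ (lp.single 2 k ξ) = w k ξ := by
    intro w hw
    let v : ℕ → H →ₗᵢ[ℂ] H := fun k => (w k).toLinearMap.isometryOfInner fun x y => by
      change ⟪w k x, w k y⟫_ℂ = _
      rw [← inner_star_right, ← ContinuousLinearMap.mul_apply, hw.self]; rfl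
    have ho : OrthogonalFamily ℂ (fun _ : ℕ => H) v := fun k l hkl x y => by
      change ⟪w k x, w l y⟫_ℂ = _
      rw [← inner_star_right, ← ContinuousLinearMap.mul_apply, hw, if_neg hkl]; simp
    exact ⟨ho.linearIsometry, fun k ξ => ho.linearIsometry_apply_single ξ⟩
  obtain ⟨Φ, hΦ⟩ := F hw
  obtain ⟨Φ', hΦ'⟩ := F hw'
  refine ⟨Φ'.toContinuousLinearMap.comp ((lp.mapCLM 2 y zero_le_one hy).comp
    (ContinuousLinearMap.adjoint Φ.toContinuousLinearMap)), fun k => ?_⟩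
  ext ξ
  have h1 : ContinuousLinearMap.adjoint Φ.toContinuousLinearMap (w k ξ) = lp.single 2 k ξ := by
    refine ext_inner_left ℂ fun v => ?_
    rw [ContinuousLinearMap.adjoint_inner_right, ← hΦ]
    exact Φ.inner_map_map _ _
  have h2 : lp.mapCLM 2 y zero_le_one hy (lp.single 2 k ξ) = lp.single 2 k (y k ξ) := by
    ext l
    change y l (lp.single (E := fun _ : ℕ => H) 2 k ξ l) = _
    by_cases h : l = k
    · subst h; simp
    · simp [lp.single_apply, Pi.single_eq_of_ne h]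
  change Φ' (lp.mapCLM 2 y zero_le_one hy
    (ContinuousLinearMap.adjoint Φ.toContinuousLinearMap (w k ξ))) = w' k (y k ξ)
  rw [h1, h2, hΦ']

/-- The ranges of the system fill the space. -/
def Full (w : ℕ → H →L[ℂ] H) : Prop := ∀ ξ, Tendsto (fun n => pr w n ξ) atTop (𝓝 0)

lemma Full.ext {w : ℕ → H →L[ℂ] H} (hw : Full w) {T T' : H →L[ℂ] H}
    (h : ∀ k, T * w k = T' * w k) : T = T' := by
  ext ξ
  have h1 : ∀ n, (T - T') (pr w n ξ) = (T - T') ξ := by
    intro n
    rw [← ContinuousLinearMap.mul_apply, pr, mul_sub, mul_one, Finset.mul_sum,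
      Finset.sum_eq_zero fun k _ => by rw [← mul_assoc, sub_mul, h, sub_self, zero_mul], sub_zero]
  have h2 := ((T - T').continuous.tendsto 0).comp (hw ξ)
  rw [map_zero] at h2
  have h3 : (T - T') ξ = 0 := tendsto_nhds_unique tendsto_const_nhds (h2.congr h1)
  simpa [sub_eq_zero] using h3

lemma Full.ext' {w : ℕ → H →L[ℂ] H} (hw : Full w) {T T' : H →L[ℂ] H}
    (h : ∀ k, star (w k) * T = star (w k) * T') : T = T' := by
  refine star_injective (hw.ext fun k => ?_)
  simpa using congrArg star (h k)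

lemma Full.mem_centralizer {w : ℕ → H →L[ℂ] H} (hw : Full w) {S : Set (H →L[ℂ] H)} {T : H →L[ℂ] H}
    (h1 : ∀ k, w k ∈ StarSubalgebra.centralizer ℂ S)
    (h2 : ∀ k, T * w k ∈ StarSubalgebra.centralizer ℂ S) : T ∈ StarSubalgebra.centralizer ℂ S := by
  simp only [StarSubalgebra.mem_centralizer_iff] at h1 h2 ⊢
  intro g hg
  constructor
  · refine hw.ext fun k => ?_
    rw [mul_assoc, (h2 k g hg).1, mul_assoc, mul_assoc, (h1 k g hg).1]
  · refine hw.ext fun k => ?_
    rw [mul_assoc, (h2 k g hg).2, mul_assoc, mul_assoc, (h1 k g hg).2]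

lemma norm_mul_le_of_comp {Ω : H} {x p : H →L[ℂ] H} (hp : ‖star p * p‖ ≤ 1)
    (h : star p * (star x * x) * p = ⟪Ω, (star x * x) Ω⟫_ℂ • (star p * p)) : ‖x * p‖ ≤ ‖x Ω‖ := by
  have h1 := CStarRing.norm_star_mul_self (x := x * p)
  rw [star_mul, show star p * star x * (x * p) = star p * (star x * x) * p by noncomm_ring, h,
    inner_star_mul, norm_smul, Complex.norm_real, Real.norm_of_nonneg (sq_nonneg _)] at h1
  refine abs_le_of_sq_le_sq' ?_ (norm_nonneg _) |>.2
  nlinarith [sq_nonneg ‖x Ω‖]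

lemma tdata_of {B : StarSubalgebra ℂ (H →L[ℂ] H)} {Ω : H} {s : H →L[ℂ] H} (hs : star s * s = 1)
    (hfree : ∀ b ∈ B, star s * b * s = ⟪Ω, b Ω⟫_ℂ • 1)
    (hdiff : ∀ e, Peak B e → ∀ b ∈ B, Tendsto (fun n => e n (b Ω)) atTop (𝓝 0)) : TData B s := by
  refine ⟨fun b hb => ⟨_, hfree b hb⟩, fun e he b hb => ?_⟩
  refine squeeze_zero (fun _ => norm_nonneg _) (fun n => ?_)
    (tendsto_zero_iff_norm_tendsto_zero.1 (hdiff e he b hb))
  have hx := mul_mem (he.mem n) hb
  refine norm_mul_le_of_comp ?_ ?_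
  · rw [hs]; exact norm_le_one_of_iso (by simp)
  · rw [hs]; exact hfree _ (mul_mem (star_mem hx) hx)

end Vale.Agent.P070
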