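import Vale.Agent.P070.Peak

/-! Transfer along linked peaks. -/

namespace Vale.Agent.P070
open Filter Topology

variable {E : Type*} [CStarAlgebra E]

lemma rho_le {e : ℕ → E} (h : Dec e) (y : E) (n : ℕ) : rho e y ≤ ‖y * e n‖ :=
  ciInf_le ⟨0, by rintro _ ⟨n, rfl⟩; exact norm_nonneg _⟩ n

lemma rho_sq_sub {B : StarSubalgebra ℂ E} {e f : ℕ → E} (he : Peak B e) (hf : Peak B f) {v : E}
    (hv : v ∈ B) {k m : ℕ} (hkm : k ≤ m) :
    rho e ((f k - f m) * v) ^ 2 = rho e (f k * v) ^ 2 - rho e (f m * v) ^ 2 := by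
  have h1 := he.sq (mul_mem (hf.mem k) hv)
  have h2 := he.sq (mul_mem (hf.mem m) hv)
  have h3 := he.sq (mul_mem (sub_mem (hf.mem k) (hf.mem m)) hv)
  have h4 := h1.sub h2
  have e1 : star ((f k - f m) * v) * ((f k - f m) * v) =
      star (f k * v) * (f k * v) - star (f m * v) * (f m * v) := by
    simp only [star_mul, star_sub, hf.sa]
    have a1 := hf.mul (le_refl k)
    have a2 := hf.mul (le_refl m)
    have a3 := hf.mul hkm
    have a4 := hf.toDec.mul' hkm
    calc star v * (f k - f m) * ((f k - f m) * v)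
        = star v * (f k * f k - f k * f m - f m * f k + f m * f m) * v := by noncomm_ring
      _ = star v * (f k * f k - f m * f m) * v := by rw [a1, a2, a3, a4]; noncomm_ring
      _ = _ := by noncomm_ring
  rw [e1] at h3
  have h5 : Nul e e (star (f k * v) * (f k * v) - star (f m * v) * (f m * v) -
      ((rho e (f k * v) ^ 2 - rho e (f m * v) ^ 2 : ℝ) : ℂ) • 1) := by
    convert h4 using 1
    rw [Complex.ofReal_sub, sub_smul]; abel
  exact_mod_cast h3.unique he.toDec h5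

lemma transfer {B : StarSubalgebra ℂ E} {e f : ℕ → E} (he : Peak B e) (hf : Peak B f) {v : E}
    (hv : v ∈ B) (hn : ¬ Nul f e v) :
    ∃ C > 0, ∀ ε > 0, ∃ y ∈ B, ‖y‖ ≤ C ∧ ∃ m0, ∀ m ≥ m0, ∃ n, ‖(1 - y * f m * v) * e n‖ ≤ ε := by
  rw [nul_iff_exists hf.toDec he.toDec] at hn
  push Not at hn
  obtain ⟨δ, hδ, hn⟩ := hn
  have hr : ∀ m, δ ≤ rho e (f m * v) := fun m => le_ciInf fun n => (hn m n).le
  have hanti : Antitone fun m => rho e (f m * v) ^ 2 := fun k m hkm => by
    have := rho_sq_sub he hf hv hkm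
    have := sq_nonneg (rho e ((f k - f m) * v))
    simp only; linarith
  have hconv := tendsto_atTop_ciInf hanti ⟨0, by rintro _ ⟨n, rfl⟩; exact sq_nonneg _⟩
  have hlow : ∀ m, (⨅ m, rho e (f m * v) ^ 2) ≤ rho e (f m * v) ^ 2 := fun m =>
    ciInf_le ⟨0, by rintro _ ⟨n, rfl⟩; exact sq_nonneg _⟩ m
  set C := (‖v‖ + 1) / δ ^ 2 with hC
  have hCpos : 0 < C := by positivity
  refine ⟨C, hCpos, fun ε hε => ?_⟩
  set η := ε / (4 * C) with hη
  have hηpos : 0 < η := by positivity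
  obtain ⟨m0, hm0⟩ := (hconv.eventually (gt_mem_nhds
    (lt_add_of_pos_right (⨅ m, rho e (f m * v) ^ 2) (pow_pos hηpos 2)))).exists
  set α := rho e (f m0 * v) ^ 2 with hα
  have hαδ : δ ^ 2 ≤ α := pow_le_pow_left₀ hδ.le (hr m0) 2
  have hαpos : 0 < α := lt_of_lt_of_le (by positivity) hαδ
  obtain ⟨k, hk⟩ := (nul_iff.1 (he.sq (mul_mem (hf.mem m0) hv)) (ε / 2 * δ ^ 2)
    (by positivity)).exists
  rw [← hα] at hk
  set y := ((α⁻¹ : ℝ) : ℂ) • (e k * star v) with hy
  have hyn : ‖y‖ ≤ C := by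
    rw [hy, norm_smul, Complex.norm_real, Real.norm_of_nonneg (inv_nonneg.2 hαpos.le)]
    have h1 : ‖e k * star v‖ ≤ ‖v‖ + 1 := by
      have := he.toDec.left_le k (star v)
      rw [norm_star] at this; linarith
    rw [hC, div_eq_inv_mul]
    gcongr
  refine ⟨y, B.smul_mem (mul_mem (he.mem k) (star_mem hv)) _, hyn, m0, fun m hm => ?_⟩
  have h2 : rho e ((f m0 - f m) * v) < 2 * η := by
    have h3 := rho_sq_sub he hf hv hm
    have h4 := hlow m
    have h5 : rho e ((f m0 - f m) * v) ^ 2 < η ^ 2 := by linarith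
    have := lt_of_pow_lt_pow_left₀ 2 hηpos.le h5
    linarith
  obtain ⟨n, hn1, hn2⟩ := (((tendsto_rho he.toDec _).eventually (gt_mem_nhds h2)).and
    (eventually_ge_atTop k)).exists
  refine ⟨n, ?_⟩
  have e1 : (1 - y * f m * v) * e n = -(((α⁻¹ : ℝ) : ℂ) • (e k *
      (star (f m0 * v) * (f m0 * v) - (α : ℂ) • 1) * e k * e n)) +
      y * ((f m0 - f m) * v * e n) := by
    have a1 : star (f m0 * v) * (f m0 * v) = star v * f m0 * v := by
      rw [star_mul, hf.sa, mul_assoc, ← mul_assoc (f m0), hf.mul le_rfl, mul_assoc]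
    have a2 : e k * (star v * f m0 * v - (α : ℂ) • 1) * e k * e n =
        e k * star v * f m0 * v * e n - (α : ℂ) • e n := by
      rw [mul_assoc _ (e k), he.mul hn2, mul_sub, sub_mul, mul_smul_comm, smul_mul_assoc, mul_one,
        he.mul hn2]
      noncomm_ring
    have a3 : ((α⁻¹ : ℝ) : ℂ) * (α : ℂ) = 1 := by
      rw [← Complex.ofReal_mul, inv_mul_cancel₀ hαpos.ne', Complex.ofReal_one]
    rw [a1, a2, smul_sub, smul_smul, a3, one_smul, hy]
    simp only [smul_mul_assoc, sub_mul, mul_sub, smul_sub, one_mul, mul_assoc]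
    abel
  rw [e1]
  refine (norm_add_le _ _).trans ?_
  rw [norm_neg, norm_smul, Complex.norm_real, Real.norm_of_nonneg (inv_nonneg.2 hαpos.le)]
  have b1 : α⁻¹ * ‖e k * (star (f m0 * v) * (f m0 * v) - (α : ℂ) • 1) * e k * e n‖ ≤ ε / 2 := by
    have := (he.toDec.right_le n _).trans hk
    calc _ ≤ (δ ^ 2)⁻¹ * (ε / 2 * δ ^ 2) := by gcongr
      _ = ε / 2 := by field_simp
  have b2 : ‖y * ((f m0 - f m) * v * e n)‖ ≤ ε / 2 := by
    refine (norm_mul_le _ _).trans ?_
    calc _ ≤ C * (2 * η) := by gcongr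
      _ = ε / 2 := by rw [hη]; field_simp; norm_num
  linarith

lemma sandwich {e : ℕ → E} (he : Dec e) (x p q : E) {n n' : ℕ} {ε : ℝ}
    (hp : ‖(1 - p) * e n‖ ≤ ε) (hq : ‖(1 - q) * e n'‖ ≤ ε) :
    ‖e (max n n') * (x - star q * x * p) * e (max n n')‖ ≤ ‖x‖ * ε * (2 + ε) := by
  set k := max n n'
  have hp' : ‖(1 - p) * e k‖ ≤ ε := (he.right_anti (le_max_left _ _) _).trans hp
  have hq' : ‖(1 - q) * e k‖ ≤ ε := (he.right_anti (le_max_right _ _) _).trans hq
  have hε : 0 ≤ ε := (norm_nonneg _).trans hp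
  have hq'' : ‖e k * (1 - star q)‖ ≤ ε := by
    rw [← norm_star, star_mul, star_sub, star_one, star_star, he.sa]; exact hq'
  have hp2 : ‖p * e k‖ ≤ 1 + ε := by
    have : p * e k = e k - (1 - p) * e k := by noncomm_ring
    rw [this]
    have := he.norm_eq k
    linarith [norm_sub_le (e k) ((1 - p) * e k)]
  have e1 : e k * (x - star q * x * p) * e k =
      e k * (x * ((1 - p) * e k)) + e k * (1 - star q) * x * (p * e k) := by noncomm_ring
  rw [e1]
  have b1 : ‖e k * (x * ((1 - p) * e k))‖ ≤ ‖x‖ * ε :=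
    (he.left_le _ _).trans ((norm_mul_le _ _).trans (by gcongr))
  have b2 : ‖e k * (1 - star q) * x * (p * e k)‖ ≤ ε * ‖x‖ * (1 + ε) :=
    (norm_mul_le _ _).trans (by
      gcongr
      exact (norm_mul_le _ _).trans (by gcongr))
  nlinarith [norm_add_le (e k * (x * ((1 - p) * e k))) (e k * (1 - star q) * x * (p * e k))]

lemma Eqv.trans {B : StarSubalgebra ℂ E} {e f g : ℕ → E} (he : Peak B e) (hf : Peak B f)
    (hg : Peak B g) (h1 : Eqv B f e) (h2 : Eqv B g e) : Eqv B g f := by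
  by_contra hc
  obtain ⟨v, hv, hnv⟩ := h1
  obtain ⟨v', hv', hnv'⟩ := h2
  obtain ⟨C, -, H⟩ := transfer he hf hv hnv
  obtain ⟨C', -, H'⟩ := transfer he hg hv' hnv'
  obtain ⟨y, hy, -, m0, H⟩ := H (1 / 10) (by norm_num)
  obtain ⟨y', hy', -, m0', H'⟩ := H' (1 / 10) (by norm_num)
  have hz : Nul g f (star y' * y) := by
    by_contra h; exact hc ⟨_, mul_mem (star_mem hy') hy, h⟩
  set K := ‖v‖ * ‖v'‖ + 1
  have hK : 0 < K := by positivity
  obtain ⟨m, h3, h4, h5⟩ := ((nul_iff.1 hz (1 / (10 * K)) (by positivity)).and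
    ((eventually_ge_atTop m0).and (eventually_ge_atTop m0'))).exists
  obtain ⟨n, hn⟩ := H m h4
  obtain ⟨n', hn'⟩ := H' m h5
  have h6 := sandwich he.toDec 1 _ _ hn hn'
  have : Nontrivial E := ⟨⟨_, _, he.ne 0⟩⟩
  rw [norm_one] at h6
  set k := max n n'
  have h7 : ‖e k * (star (y' * g m * v') * 1 * (y * f m * v)) * e k‖ ≤ 1 / 10 := by
    refine (he.toDec.two_le he.toDec _ _ _).trans ?_
    have : star (y' * g m * v') * 1 * (y * f m * v) =
        star v' * (g m * (star y' * y) * f m) * v := by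
      simp only [star_mul, hg.sa]; noncomm_ring
    rw [this]
    calc _ ≤ ‖star v'‖ * (1 / (10 * K)) * ‖v‖ :=
          (norm_mul_le _ _).trans (by gcongr; exact (norm_mul_le _ _).trans (by gcongr))
      _ = (‖v‖ * ‖v'‖) / (10 * K) := by rw [norm_star]; ring
      _ ≤ K / (10 * K) := by gcongr; linarith
      _ = 1 / 10 := by field_simp
  have h8 : e k = e k * (1 - star (y' * g m * v') * 1 * (y * f m * v)) * e k +
      e k * (star (y' * g m * v') * 1 * (y * f m * v)) * e k := by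
    rw [← add_mul, ← mul_add, sub_add_cancel, mul_one, he.mul le_rfl]
  have h9 := he.toDec.norm_eq k
  rw [h8] at h9
  linarith [norm_add_le (e k * (1 - star (y' * g m * v') * 1 * (y * f m * v)) * e k)
    (e k * (star (y' * g m * v') * 1 * (y * f m * v)) * e k)]

lemma Peak.of_eqv {B B' : StarSubalgebra ℂ E} (hB : B ≤ B') {e f : ℕ → E} (he : Peak B e)
    (hf : Peak B f) (hf' : Peak B' f) (h : Eqv B f e) : Peak B' e := by
  refine ⟨he.toDec, fun n => hB (he.mem n), fun x hx => mem_scS.1 ?_⟩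
  obtain ⟨v, hv, hnv⟩ := h
  obtain ⟨C, -, H⟩ := transfer he hf hv hnv
  refine (isClosed_scS he.toDec).closure_subset (Metric.mem_closure_iff.2 fun ε hε => ?_)
  -- first choose the approximation parameter
  obtain ⟨η, hη, hη1, hη2⟩ : ∃ η > 0, η ≤ 1 ∧ ‖x‖ * η * 3 ≤ ε / 4 :=
    ⟨min 1 (ε / (12 * (‖x‖ + 1))), by positivity, min_le_left _ _, by
      have h1 : min 1 (ε / (12 * (‖x‖ + 1))) ≤ ε / (12 * (‖x‖ + 1)) := min_le_right _ _
      calc ‖x‖ * min 1 (ε / (12 * (‖x‖ + 1))) * 3 ≤ (‖x‖ + 1) * (ε / (12 * (‖x‖ + 1))) * 3 := by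
            gcongr; linarith
        _ = ε / 4 := by field_simp; norm_num⟩
  obtain ⟨y, hy, -, m0, H⟩ := H η hη
  obtain ⟨c, hc⟩ := hf'.sc _ (mul_mem (mul_mem (star_mem (hB hy)) hx) (hB hy))
  set K := ‖v‖ * ‖v‖ + 1
  have hK : 0 < K := by positivity
  obtain ⟨m, h3, h4⟩ := ((nul_iff.1 hc (ε / (4 * K)) (by positivity)).and
    (eventually_ge_atTop m0)).exists
  obtain ⟨n, hn⟩ := H m h4
  have h6 := sandwich he.toDec x _ _ hn hn
  rw [max_self] at h6
  have hmem : star v * f m * v ∈ scS e :=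
    mem_scS.2 (he.sc _ (mul_mem (mul_mem (star_mem hv) (hf.mem m)) hv))
  set z := x - c • (star v * f m * v) with hz
  have h7 : ‖e n * z * e n‖ ≤ ε / 2 := by
    have e1 : z = (x - star (y * f m * v) * x * (y * f m * v)) +
        star v * (f m * (star y * x * y - c • 1) * f m) * v := by
      simp only [hz, star_mul, hf.sa, mul_sub, sub_mul, mul_smul_comm, smul_mul_assoc, mul_one]
      rw [mul_assoc (star v) (f m * f m), hf.mul le_rfl]
      noncomm_ring
    rw [e1, mul_add, add_mul]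
    have b2 : ‖e n * (star v * (f m * (star y * x * y - c • 1) * f m) * v) * e n‖ ≤ ε / 4 := by
      refine (he.toDec.two_le he.toDec _ _ _).trans ?_
      calc _ ≤ ‖star v‖ * (ε / (4 * K)) * ‖v‖ :=
            (norm_mul_le _ _).trans (by gcongr; exact (norm_mul_le _ _).trans (by gcongr))
        _ = (‖v‖ * ‖v‖) * (ε / (4 * K)) := by rw [norm_star]; ring
        _ ≤ K * (ε / (4 * K)) := by gcongr; linarith
        _ = ε / 4 := by field_simp
    have b1 : ‖x‖ * η * (2 + η) ≤ ε / 4 := le_trans (by gcongr; linarith) hη2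
    linarith [norm_add_le (e n * (x - star (y * f m * v) * x * (y * f m * v)) * e n)
      (e n * (star v * (f m * (star y * x * y - c • 1) * f m) * v) * e n)]
  refine ⟨(z - e n * z * e n) + c • (star v * f m * v), add_mem ?_ (Submodule.smul_mem _ _ hmem),
    ?_⟩
  · refine Submodule.mem_sup_left (tendsto_const_nhds.congr' ?_)
    filter_upwards [eventually_ge_atTop n] with k hk
    have : e k * (z - e n * z * e n) * e k = e k * z * e k - (e k * e n) * z * (e n * e k) := by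
      noncomm_ring
    rw [this, he.toDec.mul' hk, he.mul hk, sub_self, norm_zero]
  · rw [dist_eq_norm]
    have : x - (z - e n * z * e n + c • (star v * f m * v)) = e n * z * e n := by
      rw [hz]; abel
    rw [this]; linarith

end Vale.Agent.P070
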