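import Vale.Agent.P070.Trans

/-! Words in one new generator over a subalgebra. -/

namespace Vale.Agent.P070
open Filter Topology

variable {E : Type*} [CStarAlgebra E]

/-- Words with `k` letters. -/
inductive Wd (B : StarSubalgebra ℂ E) (U : Bool → E) : ℕ → E → Prop
  | base {b : E} : b ∈ B → Wd B U 0 b
  | step {k : ℕ} {b y : E} (ε : Bool) : b ∈ B → Wd B U k y → Wd B U (k + 1) (b * U ε * y)

namespace Wd
variable {B : StarSubalgebra ℂ E} {U : Bool → E}

lemma mul_left {k : ℕ} {b y : E} (hb : b ∈ B) (h : Wd B U k y) : Wd B U k (b * y) := by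
  cases h with
  | base h => exact base (mul_mem hb h)
  | step ε h1 h2 =>
    have := step ε (mul_mem hb h1) h2
    convert this using 1; noncomm_ring

lemma mul {k l : ℕ} {x y : E} (hx : Wd B U k x) (hy : Wd B U l y) : Wd B U (l + k) (x * y) := by
  induction hx with
  | base h => exact hy.mul_left h
  | step ε h1 _ ih =>
    have := step ε h1 ih
    rw [mul_assoc]
    exact this

lemma mul_right {k : ℕ} {b y : E} (h : Wd B U k y) (hb : b ∈ B) : Wd B U k (y * b) := by
  simpa using h.mul (base hb)

lemma letter (ε : Bool) : Wd B U 1 (U ε) := by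
  simpa using step (U := U) ε B.one_mem (base B.one_mem)

lemma snoc {k : ℕ} {y : E} (h : Wd B U k y) (ε : Bool) : Wd B U (k + 1) (y * U ε) := by
  have := h.mul (letter ε)
  rwa [add_comm] at this

lemma cons {k : ℕ} {y : E} (h : Wd B U k y) (ε : Bool) : Wd B U (k + 1) (U ε * y) := by
  simpa using step ε B.one_mem h

lemma star (hU : ∀ ε, star (U ε) = U (!ε)) {k : ℕ} {y : E} (h : Wd B U k y) :
    Wd B U k (star y) := by
  induction h with
  | base h => exact base (star_mem h)
  | step ε h1 _ ih =>
    have := (ih.snoc (!ε)).mul_right (star_mem h1)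
    convert this using 1
    rw [star_mul, star_mul, hU, mul_assoc]

end Wd

/-- The closed algebra generated by `B` and `u`. -/
noncomputable def ext (B : StarSubalgebra ℂ E) (u : E) : StarSubalgebra ℂ E :=
  (StarAlgebra.adjoin ℂ ((B : Set E) ∪ {u})).topologicalClosure

lemma le_ext (B : StarSubalgebra ℂ E) (u : E) : B ≤ ext B u := fun _ hx =>
  StarSubalgebra.le_topologicalClosure _ (StarAlgebra.subset_adjoin ℂ _ (Or.inl hx))

lemma self_mem_ext (B : StarSubalgebra ℂ E) (u : E) : u ∈ ext B u :=
  StarSubalgebra.le_topologicalClosure _ (StarAlgebra.subset_adjoin ℂ _ (Or.inr rfl))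

lemma Wd.mem_ext {B : StarSubalgebra ℂ E} {U : Bool → E} (hU : ∀ ε, Star.star (U ε) = U (!ε))
    {k : ℕ} {y : E} (h : Wd B U k y) : y ∈ ext B (U true) := by
  induction h with
  | base h => exact le_ext _ _ h
  | step ε h1 _ ih =>
    refine mul_mem (mul_mem (le_ext _ _ h1) ?_) ih
    cases ε
    · have := star_mem (self_mem_ext B (U true))
      rwa [hU] at this
    · exact self_mem_ext _ _

lemma ext_le_of_words {B : StarSubalgebra ℂ E} {U : Bool → E} (hU : ∀ ε, star (U ε) = U (!ε))
    {P : Submodule ℂ E} (hP : IsClosed (P : Set E)) (h : ∀ k y, Wd B U k y → y ∈ P) :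
    ∀ x ∈ ext B (U true), x ∈ P := by
  have key : ∀ x ∈ StarAlgebra.adjoin ℂ ((B : Set E) ∪ {U true}),
      x ∈ Submodule.span ℂ {y | ∃ k, Wd B U k y} := by
    intro x hx
    induction hx using StarAlgebra.adjoin_induction with
    | mem x hx =>
      rcases hx with hx | rfl
      · exact Submodule.subset_span ⟨0, Wd.base hx⟩
      · exact Submodule.subset_span ⟨1, Wd.letter true⟩
    | algebraMap r => exact Submodule.subset_span ⟨0, Wd.base (B.algebraMap_mem r)⟩
    | add x y _ _ hx hy => exact add_mem hx hy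
    | mul x y _ _ hx hy =>
      clear * - hx hy
      induction hx using Submodule.span_induction with
      | mem x hx =>
        obtain ⟨k, hx⟩ := hx
        induction hy using Submodule.span_induction with
        | mem y hy => obtain ⟨l, hy⟩ := hy; exact Submodule.subset_span ⟨_, hx.mul hy⟩
        | zero => simp
        | add y z _ _ h1 h2 => rw [mul_add]; exact add_mem h1 h2
        | smul c y _ h1 => rw [mul_smul_comm]; exact Submodule.smul_mem _ _ h1
      | zero => simp
      | add x z _ _ h1 h2 => rw [add_mul]; exact add_mem h1 h2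
      | smul c x _ h1 => rw [smul_mul_assoc]; exact Submodule.smul_mem _ _ h1
    | star x _ hx =>
      clear * - hx hU
      induction hx using Submodule.span_induction with
      | mem x hx => obtain ⟨k, hx⟩ := hx; exact Submodule.subset_span ⟨k, hx.star hU⟩
      | zero => simp
      | add x z _ _ h1 h2 => rw [star_add]; exact add_mem h1 h2
      | smul c x _ h1 => rw [star_smul]; exact Submodule.smul_mem _ _ h1
  intro x hx
  have hx' : x ∈ closure (StarAlgebra.adjoin ℂ ((B : Set E) ∪ {U true}) : Set E) := hx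
  refine closure_minimal (fun y hy => ?_) hP hx'
  have h1 : Submodule.span ℂ {y | ∃ k, Wd B U k y} ≤ P := by
    rw [Submodule.span_le]
    rintro z ⟨k, hz⟩
    exact h k z hz
  exact h1 (key y hy)

/-! ### The Toeplitz step -/

lemma toeplitz_ind {B : StarSubalgebra ℂ E} {s : E} (hs : ∀ b ∈ B, ∃ c : ℂ, star s * b * s = c • 1)
    {P : Submodule ℂ E} (hP : IsClosed (P : Set E)) (h0 : ∀ b ∈ B, b ∈ P)
    (h1 : ∀ b ∈ B, ∀ y, b * s * y ∈ P) (h2 : ∀ b ∈ B, ∀ y, y * star s * b ∈ P) :
    ∀ x ∈ ext B s, x ∈ P := by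
  let U : Bool → E := fun ε => bif ε then s else star s
  have hU : ∀ ε, star (U ε) = U (!ε) := by intro ε; cases ε <;> simp [U]
  let T : ℕ → Set E := fun k => {x | x ∈ B ∨ (∃ b ∈ B, ∃ j < k, ∃ y, Wd B U j y ∧ x = b * s * y) ∨
    ∃ b ∈ B, ∃ y, x = y * star s * b}
  have Tm : ∀ {j k}, j ≤ k → Submodule.span ℂ (T j) ≤ Submodule.span ℂ (T k) := by
    intro j k hjk
    refine Submodule.span_mono ?_
    rintro x (h | ⟨b, hb, i, hi, y, hy, rfl⟩ | h)
    · exact Or.inl h
    · exact Or.inr (Or.inl ⟨b, hb, i, by omega, y, hy, rfl⟩)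
    · exact Or.inr (Or.inr h)
  have key : ∀ k y, Wd B U k y → y ∈ Submodule.span ℂ (T k) := by
    intro k
    induction k using Nat.strong_induction_on with
    | _ k ih =>
      intro x hx
      cases hx with
      | base h => exact Submodule.subset_span (Or.inl h)
      | @step k b y ε hb hy =>
        cases ε
        · have h3 := ih k (by omega) y hy
          change b * star s * y ∈ _
          clear hy
          induction h3 using Submodule.span_induction with
          | mem y hy =>
            rcases hy with h | ⟨b', hb', j, hj, y', hy', rfl⟩ | ⟨b', hb', y', rfl⟩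
            · exact Submodule.subset_span (Or.inr (Or.inr ⟨y, h, b, rfl⟩))
            · obtain ⟨c, hc⟩ := hs b' hb'
              have : b * star s * (b' * s * y') = c • (b * y') := by
                rw [show b * star s * (b' * s * y') = b * (star s * b' * s) * y' by noncomm_ring,
                  hc]; simp
              rw [this]
              exact Submodule.smul_mem _ _ (Tm (by omega) (ih j (by omega) _ (hy'.mul_left hb)))
            · exact Submodule.subset_span (Or.inr (Or.inr ⟨b', hb', b * star s * y', by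
                noncomm_ring⟩))
          | zero => simp
          | add y z _ _ h1 h2 => rw [mul_add]; exact add_mem h1 h2
          | smul c y _ h1 => rw [mul_smul_comm]; exact Submodule.smul_mem _ _ h1
        · exact Submodule.subset_span (Or.inr (Or.inl ⟨b, hb, k, by omega, y, hy, rfl⟩))
  refine ext_le_of_words (U := U) hU hP fun k y hy => Submodule.span_le.2 ?_ (key k y hy)
  rintro x (h | ⟨b, hb, i, hi, y, hy, rfl⟩ | ⟨b, hb, y, rfl⟩)
  · exact h0 _ h
  · exact h1 b hb y
  · exact h2 b hb y

/-- Hypotheses of the Toeplitz step. -/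
structure TData (B : StarSubalgebra ℂ E) (s : E) : Prop where
  comp : ∀ b ∈ B, ∃ c : ℂ, star s * b * s = c • 1
  small : ∀ e, Peak B e → ∀ b ∈ B, Tendsto (fun n => ‖e n * b * s‖) atTop (𝓝 0)

lemma TData.nul1 {B : StarSubalgebra ℂ E} {s : E} (h : TData B s) {e e' : ℕ → E} (he : Peak B e)
    (he' : Dec e') {b : E} (hb : b ∈ B) (y : E) : Nul e e' (b * s * y) := by
  have := (h.small e he b hb).mul_const ‖y‖
  rw [zero_mul] at this
  refine squeeze_zero (fun _ => norm_nonneg _) (fun n => ?_) this
  refine (he'.right_le _ _).trans ?_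
  rw [← mul_assoc, ← mul_assoc]
  exact norm_mul_le _ _

lemma TData.nul2 {B : StarSubalgebra ℂ E} {s : E} (h : TData B s) {e e' : ℕ → E} (he : Dec e)
    (he' : Peak B e') {b : E} (hb : b ∈ B) (y : E) : Nul e e' (y * star s * b) := by
  have := (h.nul1 he' he (star_mem hb) (star y)).star he'.toDec he
  simpa [mul_assoc] using this

theorem TData.peak {B : StarSubalgebra ℂ E} {s : E} (h : TData B s) {e : ℕ → E} (he : Peak B e) :
    Peak (ext B s) e :=
  ⟨he.toDec, fun n => le_ext _ _ (he.mem n), fun x hx => mem_scS.1 <|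
    toeplitz_ind h.comp (isClosed_scS he.toDec) (fun b hb => mem_scS.2 (he.sc b hb))
      (fun _ hb y => Submodule.mem_sup_left (h.nul1 he he.toDec hb y))
      (fun _ hb y => Submodule.mem_sup_left (h.nul2 he.toDec he hb y)) x hx⟩

theorem TData.eqv {B : StarSubalgebra ℂ E} {s : E} (h : TData B s) {e e' : ℕ → E} (he : Peak B e)
    (he' : Peak B e') (H : Eqv (ext B s) e e') : Eqv B e e' := by
  by_contra hc
  obtain ⟨v, hv, hn⟩ := H
  refine hn (toeplitz_ind h.comp (isClosed_nulS he.toDec he'.toDec) (fun b hb => ?_)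
    (fun _ hb y => h.nul1 he he'.toDec hb y) (fun _ hb y => h.nul2 he.toDec he' hb y) v hv)
  by_contra h1
  exact hc ⟨b, hb, h1⟩

lemma tdata_zero (B : StarSubalgebra ℂ E) : TData B 0 :=
  ⟨fun _ _ => ⟨0, by simp⟩, fun _ _ _ _ => by simp⟩

end Vale.Agent.P070
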